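import Vale.Agent.P125.Plan

namespace Vale.Agent.P125.System

open Finset Vale.Agent.P125

noncomputable section

/-- The extension of a tuple to a function on the naturals. -/
def ex {m B : ℕ} (v : Fin m → Fin B) (k : ℕ) : ℕ := if h : k < m then (v ⟨k, h⟩ : ℕ) else 0

/-- The system of crossings. -/
def S_SYS : Prop :=
  ∀ (D R : ℕ) (ε : ℝ), 4 ≤ D → 1 ≤ R → 0 < ε →
  ∃ (S Ω : Type) (_ : Fintype S) (_ : DecidableEq S) (_ : Fintype Ω) (_ : DecidableEq Ω)
    (A : Ω → S) (bar : Ω → Ω) (ν : Ω → ℝ) (ext : S → ℕ → ℕ) (lab tau : Ω → ℕ),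
    (∀ w, bar (bar w) = w) ∧ (∀ w, 0 ≤ ν w) ∧ ∑ w, ν w = 1 ∧ (∀ w, ν (bar w) = ν w) ∧
    (∀ w, lab w < D) ∧ (∀ w, tau w ≤ 1) ∧
    (∀ w, ν w ≠ 0 → StrictMonoOn (ext (A w)) (Set.Iic (D * R))) ∧
    (∀ w, StepRel D R (ext (A w)) (lab w) (tau w) (ext (A (bar w))) (lab (bar w))) ∧
    (∀ w, ∀ f : ℤ → ℝ, f 0 = 0 → f (2 * R) = 0 →
      vec D R f (ext (A (bar w))) (lab (bar w)) (tau (bar w))
        = - vec D R f (ext (A w)) (lab w) (tau w)) ∧
    (∑ i ∈ range D, ∑ v, |(∑ w, if A w = v ∧ lab w = i then ν w else 0)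
        - (1 / (D : ℝ)) * ∑ w, if A w = v then ν w else 0| ≤ ε)

/-- antisymmetry of the port vectors across a crossing -/
theorem vec_cross (D R : ℕ) (f : ℤ → ℝ) (hf0 : f 0 = 0) (hfR : f (2 * R) = 0)
    (e e' : ℕ → ℕ) (i i' : ℕ)
    (h1 : ∀ ρ < R, 1 ≤ ρ → e (D * ρ + i) = e' (D * (ρ - 1) + i' + 1))
    (h2 : ∀ ρ < R, e (D * ρ + i + 1) = e' (D * ρ + i')) :
    vec D R f e' i' 1 = - vec D R f e i 0 := by
  unfold vec
  rw [sum_sub_distrib, sum_sub_distrib]
  have hA : ∑ x ∈ range R, Finsupp.single (e' (D * x + i')) (f (2 * (x:ℤ) + ((1:ℕ):ℤ)))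
      = ∑ x ∈ range R, Finsupp.single (e (D * x + i + 1)) (f (2 * (x:ℤ) + 1 + ((0:ℕ):ℤ))) := by
    apply sum_congr rfl
    intro x hx
    rw [h2 x (mem_range.1 hx)]
    norm_num
  have hB : ∑ x ∈ range R, Finsupp.single (e' (D * x + i' + 1)) (f (2 * (x:ℤ) + 1 + ((1:ℕ):ℤ)))
      = ∑ x ∈ range R, Finsupp.single (e (D * x + i)) (f (2 * (x:ℤ) + ((0:ℕ):ℤ))) := by
    rcases Nat.eq_zero_or_pos R with rfl | hR
    · simp
    obtain ⟨R', rfl⟩ : ∃ R', R = R' + 1 := ⟨R - 1, by omega⟩
    rw [sum_range_succ, sum_range_succ']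
    have e1 : f (2 * ((R':ℕ):ℤ) + 1 + ((1:ℕ):ℤ)) = 0 := by
      rw [← hfR]; congr 1
    have e2 : f (2 * ((0:ℕ):ℤ) + ((0:ℕ):ℤ)) = 0 := by
      rw [← hf0]; congr 1
    rw [e1, e2]
    simp only [Finsupp.single_zero, add_zero]
    apply sum_congr rfl
    intro x hx
    have hx' := mem_range.1 hx
    rw [h1 (x + 1) (by omega) (by omega)]
    congr 2
  rw [hA, hB]
  abel

theorem sys (hMEAS : S_MEAS) (hPAT : S_PAT) : S_SYS := by
  intro D R ε hD hR hε
  obtain ⟨L, φ, hφ, hrel⟩ := hPAT D R hD hR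
  obtain ⟨B, μ, hμ0, hμ1, hμs, hμm⟩ := hMEAS (D * R + 1) L ε hε
  have hD0 : (0:ℝ) < D := by exact_mod_cast (show 0 < D by omega)
  -- the pattern maps
  let Φ : Bool → Fin D → Fin (D * R + 1) → Fin L := fun σ i k =>
    ⟨φ σ i k, (hφ σ i i.2).2 k (by have := k.2; omega)⟩
  have hΦ : ∀ σ i, StrictMono (Φ σ i) := by
    intro σ i a b hab
    exact (hφ σ i i.2).1 hab
  have hexΦ : ∀ (G : Fin L → Fin B) (σ : Bool) (i : Fin D) (k : ℕ) (hk : k ≤ D * R),
      ex (G ∘ Φ σ i) k = (G ⟨φ σ i k, (hφ σ i i.2).2 k hk⟩ : ℕ) := by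
    intro G σ i k hk
    unfold ex
    rw [dif_pos (by omega : k < D * R + 1)]
    rfl
  -- index bound
  have hidx : ∀ (ρ : ℕ) (i : Fin D), ρ < R → D * ρ + i + 1 ≤ D * R := by
    intro ρ i hρ
    have h1 : D * ρ + D ≤ D * R := by
      calc D * ρ + D = D * (ρ + 1) := by ring
        _ ≤ D * R := Nat.mul_le_mul_left D hρ
    have := i.2
    omega
  -- relations for tuples
  have hr1 : ∀ (G : Fin L → Fin B) (i i' : Fin D), ∀ ρ < R, 1 ≤ ρ →
      ex (G ∘ Φ true i) (D * ρ + i) = ex (G ∘ Φ false i') (D * (ρ - 1) + i' + 1) := by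
    intro G i i' ρ hρ h1
    have h3 := hidx ρ i hρ
    have h4 := hidx (ρ - 1) i' (by omega)
    rw [hexΦ G true i _ (by omega), hexΦ G false i' _ h4]
    have := (hrel i i.2 i' i'.2).1 ρ h1
    congr 2
    exact Fin.ext this
  have hr2 : ∀ (G : Fin L → Fin B) (i i' : Fin D), ∀ ρ < R,
      ex (G ∘ Φ true i) (D * ρ + i + 1) = ex (G ∘ Φ false i') (D * ρ + i') := by
    intro G i i' ρ hρ
    have h3 := hidx ρ i hρ
    have h4 := hidx ρ i' hρ
    rw [hexΦ G true i _ (by omega), hexΦ G false i' _ (by omega)]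
    have := (hrel i i.2 i' i'.2).2 ρ
    congr 2
    exact Fin.ext this
  let Ω := (Fin L → Fin B) × Fin D × Fin D × Bool
  let A : Ω → (Fin (D * R + 1) → Fin B) := fun w =>
    if w.2.2.2 then w.1 ∘ Φ true w.2.1 else w.1 ∘ Φ false w.2.2.1
  let bar : Ω → Ω := fun w => (w.1, w.2.1, w.2.2.1, !w.2.2.2)
  let ν : Ω → ℝ := fun w => μ w.1 / (2 * (D:ℝ) ^ 2)
  let lab : Ω → ℕ := fun w => if w.2.2.2 then w.2.1 else w.2.2.1
  let tau : Ω → ℕ := fun w => if w.2.2.2 then 0 else 1
  refine ⟨(Fin (D * R + 1) → Fin B), Ω, inferInstance, inferInstance, inferInstance, inferInstance,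
    A, bar, ν, ex, lab, tau, ?_, ?_, ?_, ?_, ?_, ?_, ?_, ?_, ?_, ?_⟩
  · rintro ⟨G, i, i', σ⟩
    simp [bar]
  · intro w
    have := hμ0 w.1
    positivity
  · simp only [ν, Ω]
    rw [Fintype.sum_prod_type]
    simp only [sum_const, card_univ, Fintype.card_prod, Fintype.card_fin, Fintype.card_bool,
      nsmul_eq_mul]
    rw [← mul_sum, ← sum_div, hμ1]
    push_cast
    field_simp
  · rintro ⟨G, i, i', σ⟩
    rfl
  · rintro ⟨G, i, i', σ⟩
    simp only [lab]
    split_ifs
    · exact i.2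
    · exact i'.2
  · rintro ⟨G, i, i', σ⟩
    simp only [tau]
    split_ifs <;> norm_num
  · rintro ⟨G, i, i', σ⟩ hw
    have hG : StrictMono G := by
      apply hμs
      intro h0
      apply hw
      simp [ν, h0]
    have key : ∀ (σ : Bool) (i : Fin D), StrictMonoOn (ex (G ∘ Φ σ i)) (Set.Iic (D * R)) := by
      intro σ i a ha b hb hab
      rw [hexΦ G σ i a ha, hexΦ G σ i b hb]
      have : φ σ i a < φ σ i b := (hφ σ i i.2).1 hab
      exact hG (show (⟨φ σ i a, _⟩ : Fin L) < ⟨φ σ i b, _⟩ from this)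
    cases σ
    · exact key false i'
    · exact key true i
  · rintro ⟨G, i, i', σ⟩
    cases σ
    · -- from the `false` side
      show StepRel D R (ex (G ∘ Φ false i')) i' 1 (ex (G ∘ Φ true i)) i
      refine ⟨?_, ?_⟩
      · intro ρ hρ _ _
        have := hr2 G i i' ρ hρ
        rw [← this]
        congr 1
      · intro ρ hρ h1
        have := hr1 G i i' (ρ + 1) h1 (by omega)
        rw [this]
        congr 1
    · show StepRel D R (ex (G ∘ Φ true i)) i 0 (ex (G ∘ Φ false i')) i'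
      refine ⟨?_, ?_⟩
      · intro ρ hρ h1 _
        exact hr1 G i i' ρ hρ (by omega)
      · intro ρ hρ _
        exact hr2 G i i' ρ hρ
  · rintro ⟨G, i, i', σ⟩ f hf0 hfR
    have key := vec_cross D R f hf0 hfR (ex (G ∘ Φ true i)) (ex (G ∘ Φ false i')) i i'
      (fun ρ hρ h1 => hr1 G i i' ρ hρ h1) (fun ρ hρ => hr2 G i i' ρ hρ)
    cases σ
    · show vec D R f (ex (G ∘ Φ true i)) i 0 = - vec D R f (ex (G ∘ Φ false i')) i' 1
      rw [key, neg_neg]
    · show vec D R f (ex (G ∘ Φ false i')) i' 1 = - vec D R f (ex (G ∘ Φ true i)) i 0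
      exact key
  · -- uniformity of the labels
    let lam : Bool → Fin D → (Fin (D * R + 1) → Fin B) → ℝ := fun σ i v =>
      ∑ G, if G ∘ Φ σ i = v then μ G else 0
    have hlam : ∀ σ i i', ∑ v, |lam σ i v - lam σ i' v| ≤ ε := fun σ i i' =>
      hμm (Φ σ i) (Φ σ i') (hΦ σ i) (hΦ σ i')
    have c1 : ∀ (i : Fin D) v, (∑ w : Ω, if A w = v ∧ lab w = (i : ℕ) then ν w else 0)
        = (lam true i v + lam false i v) / (2 * D) := by
      intro i v
      simp only [Ω]
      rw [Fintype.sum_prod_type]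
      have : ∀ G : Fin L → Fin B, (∑ y : Fin D × Fin D × Bool,
          if A (G, y) = v ∧ lab (G, y) = (i : ℕ) then ν (G, y) else 0)
          = ((if G ∘ Φ true i = v then μ G else 0) + (if G ∘ Φ false i = v then μ G else 0))
            / (2 * D) := by
        intro G
        rw [Fintype.sum_prod_type]
        simp_rw [Fintype.sum_prod_type, Fintype.sum_bool]
        simp only [A, lab, ν, if_true, Bool.false_eq_true, if_false]
        rw [show (∑ x : Fin D, ∑ x_1 : Fin D,
          ((if G ∘ Φ true x = v ∧ (x:ℕ) = i then μ G / (2 * (D:ℝ) ^ 2) else 0)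
            + (if G ∘ Φ false x_1 = v ∧ (x_1:ℕ) = i then μ G / (2 * (D:ℝ) ^ 2) else 0)))
          = (∑ x : Fin D, ∑ x_1 : Fin D,
          (if G ∘ Φ true x = v ∧ (x:ℕ) = i then μ G / (2 * (D:ℝ) ^ 2) else 0))
          + (∑ x : Fin D, ∑ x_1 : Fin D,
            (if G ∘ Φ false x_1 = v ∧ (x_1:ℕ) = i then μ G / (2 * (D:ℝ) ^ 2) else 0)) from by
            simp_rw [sum_add_distrib]]
        have s1 : ∀ σ : Bool, ∑ x : Fin D,
          (if G ∘ Φ σ x = v ∧ (x:ℕ) = i then μ G / (2 * (D:ℝ) ^ 2) else 0)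
            = if G ∘ Φ σ i = v then μ G / (2 * (D:ℝ) ^ 2) else 0 := by
          intro σ
          rw [Fintype.sum_eq_single i]
          · simp
          · intro b hb
            rw [if_neg]
            rintro ⟨-, h⟩
            exact hb (Fin.ext h)
        have s2 : (∑ x : Fin D, ∑ x_1 : Fin D,
          (if G ∘ Φ true x = v ∧ (x:ℕ) = i then μ G / (2 * (D:ℝ) ^ 2) else 0))
            = (D:ℝ) * (if G ∘ Φ true i = v then μ G / (2 * (D:ℝ) ^ 2) else 0) := by
          rw [← s1 true, mul_sum]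
          simp
        have s3 : (∑ x : Fin D, ∑ x_1 : Fin D,
          (if G ∘ Φ false x_1 = v ∧ (x_1:ℕ) = i then μ G / (2 * (D:ℝ) ^ 2) else 0))
            = (D:ℝ) * (if G ∘ Φ false i = v then μ G / (2 * (D:ℝ) ^ 2) else 0) := by
          rw [← s1 false]
          simp
        rw [s2, s3]
        split_ifs <;> field_simp <;> ring
      rw [sum_congr rfl (fun G _ => this G), ← sum_div, sum_add_distrib]
    have c2 : ∀ v, (∑ w : Ω, if A w = v then ν w else 0)
        = (∑ i : Fin D, (lam true i v + lam false i v)) / (2 * D) := by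
      intro v
      rw [sum_div, ← sum_congr rfl (fun i _ => c1 i v), sum_comm]
      apply sum_congr rfl
      intro w _
      have hl : lab w < D := by
        obtain ⟨G, i, i', σ⟩ := w
        simp only [lab]
        split_ifs
        · exact i.2
        · exact i'.2
      rw [Fintype.sum_eq_single (⟨lab w, hl⟩ : Fin D)]
      · simp
      · intro b hb
        rw [if_neg]
        rintro ⟨-, h⟩
        exact hb (Fin.ext h.symm)
    rw [← Fin.sum_univ_eq_sum_range (fun i => ∑ v, |(∑ w, if A w = v ∧ lab w = i then ν w else 0)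
        - (1 / (D : ℝ)) * ∑ w, if A w = v then ν w else 0|) D]
    have c3 : ∀ i : Fin D, ∑ v, |(∑ w, if A w = v ∧ lab w = (i:ℕ) then ν w else 0)
        - (1 / (D : ℝ)) * ∑ w, if A w = v then ν w else 0| ≤ ε / D := by
      intro i
      have c4 : ∀ v, |(∑ w, if A w = v ∧ lab w = (i:ℕ) then ν w else 0)
        - (1 / (D : ℝ)) * ∑ w, if A w = v then ν w else 0|
          ≤ (1 / (2 * D ^ 2)) * ∑ i' : Fin D, (|lam true i v - lam true i' v|
            + |lam false i v - lam false i' v|) := by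
        intro v
        rw [c1 i v, c2 v]
        have : (lam true i v + lam false i v) / (2 * (D:ℝ)) - 1 / (D:ℝ) *
            ((∑ i : Fin D, (lam true i v + lam false i v)) / (2 * D))
            = (1 / (2 * (D:ℝ) ^ 2)) * ∑ i' : Fin D, ((lam true i v - lam true i' v)
            + (lam false i v - lam false i' v)) := by
          have h5 : ∑ i' : Fin D, ((lam true i v - lam true i' v)
            + (lam false i v - lam false i' v)) = D * (lam true i v + lam false i v)
              - ∑ i' : Fin D, (lam true i' v + lam false i' v) := by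
            rw [show (D:ℝ) * (lam true i v + lam false i v)
              = ∑ i' : Fin D, (lam true i v + lam false i v) from by
                rw [sum_const, card_univ, Fintype.card_fin, nsmul_eq_mul]]
            rw [← sum_sub_distrib]
            apply sum_congr rfl
            intros
            ring
          rw [h5]
          field_simp
        rw [this, abs_mul, abs_of_nonneg (by positivity : (0:ℝ) ≤ 1 / (2 * (D:ℝ) ^ 2))]
        apply mul_le_mul_of_nonneg_left _ (by positivity)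
        refine (abs_sum_le_sum_abs _ _).trans ?_
        apply sum_le_sum
        intro i' _
        exact abs_add_le _ _
      calc ∑ v, |(∑ w, if A w = v ∧ lab w = (i:ℕ) then ν w else 0)
        - (1 / (D : ℝ)) * ∑ w, if A w = v then ν w else 0|
          ≤ ∑ v, (1 / (2 * (D:ℝ) ^ 2)) * ∑ i' : Fin D, (|lam true i v - lam true i' v|
            + |lam false i v - lam false i' v|) := sum_le_sum (fun v _ => c4 v)
        _ = (1 / (2 * (D:ℝ) ^ 2)) * ∑ i' : Fin D, (∑ v, |lam true i v - lam true i' v|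
            + ∑ v, |lam false i v - lam false i' v|) := by
            rw [← mul_sum, sum_comm]
            simp_rw [sum_add_distrib]
        _ ≤ (1 / (2 * (D:ℝ) ^ 2)) * ∑ i' : Fin D, (ε + ε) := by
            apply mul_le_mul_of_nonneg_left _ (by positivity)
            apply sum_le_sum
            intro i' _
            exact add_le_add (hlam true i i') (hlam false i i')
        _ = ε / D := by
            rw [sum_const, card_univ, Fintype.card_fin, nsmul_eq_mul]
            field_simp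
            ring
    calc ∑ i : Fin D, ∑ v, |(∑ w, if A w = v ∧ lab w = (i:ℕ) then ν w else 0)
        - (1 / (D : ℝ)) * ∑ w, if A w = v then ν w else 0|
        ≤ ∑ i : Fin D, ε / D := sum_le_sum (fun i _ => c3 i)
      _ = ε := by
          rw [sum_const, card_univ, Fintype.card_fin, nsmul_eq_mul]
          field_simp
      _ ≤ ε := le_refl _

end

end Vale.Agent.P125.System
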