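import Vale.Agent.P125.Plan
import Vale.Agent.P125.System

namespace Vale.Agent.P125.Core

open Finset Vale.Agent.P125 Vale.Agent.P125.System

theorem badLab_card (D : ℕ) (hD : 4 ≤ D) (a : ℕ) (ha : a < D) :
    ((range D).filter (fun b => ¬ GoodLab D a b)).card ≤ 3 := by
  have hsub : (range D).filter (fun b => ¬ GoodLab D a b) ⊆
      {a, if a + 1 < D then a + 1 else 0, if a = 0 then D - 1 else a - 1} := by
    intro b hb
    rw [mem_filter, mem_range] at hb
    obtain ⟨hb, hg⟩ := hb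
    unfold GoodLab at hg
    simp only [mem_insert, mem_singleton]
    split_ifs <;> omega
  exact (card_le_card hsub).trans card_le_three

theorem tent_shift (n : ℕ) (o σ : ℤ) (j : ℤ) : tent n o (j + σ) = tent n (o - σ) j := by
  unfold tent
  congr 4
  ring_nf

theorem alt_sum (J T : ℕ) (F : ℕ → ℤ → ℝ) :
    alt J (fun j => ∑ t ∈ range T, F t j) = ∑ t ∈ range T, alt J (F t) := by
  unfold alt
  rw [sum_comm]
  apply sum_congr rfl
  intro j _
  rw [mul_sum]
  induction range T using Finset.induction_on with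
  | empty => simp
  | insert a s ha ih => rw [sum_insert ha, sum_insert ha, Finsupp.single_add, ih]

theorem seminorm_sum_le {ι : Type*} (q : Seminorm ℝ (ℕ →₀ ℝ)) (s : Finset ι) (F : ι → (ℕ →₀ ℝ)) :
    q (∑ i ∈ s, F i) ≤ ∑ i ∈ s, q (F i) := by
  classical
  induction s using Finset.induction_on with
  | empty => simp
  | insert a s ha ih =>
    rw [sum_insert ha, sum_insert ha]
    exact (map_add_le_add q _ _).trans (add_le_add le_rfl ih)

/-- sum of shifted tents -/
theorem shifted_sum (hTENT : S_TENT) (q : Seminorm ℝ (ℕ →₀ ℝ)) (θ : ℝ) (hθ : 0 < θ) (hq : Good q θ)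
    (T n J : ℕ) (o : ℤ) (σ : ℕ → ℤ) (hσ : ∀ t < T, |σ t| ≤ 2 * T + 1) (hn1 : 1 ≤ n) (hn : Even n)
    (ho : (n : ℤ) + 2 * T + 1 ≤ o) (hJ : o + n + 2 * T + 1 ≤ J)
    (hnT : 4 * (2 * T + 1) / n * (1 + 1 / θ) ≤ 1 / 2) :
    T / 2 * q (alt J (tent n o)) ≤ q (alt J (fun j => ∑ t ∈ range T, tent n o (j + σ t))) := by
  have h1 : alt J (fun j => ∑ t ∈ range T, tent n o (j + σ t))
      = ∑ t ∈ range T, alt J (tent n (o + (- σ t))) := by
    rw [alt_sum J T (fun t j => tent n o (j + σ t))]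
    apply sum_congr rfl
    intro t _
    congr 1
    funext j
    rw [tent_shift]
    rfl
  rw [h1]
  have h2 : ∀ t ∈ range T, q (alt J (tent n (o + (- σ t))) - alt J (tent n o))
      ≤ 1 / 2 * q (alt J (tent n o)) := by
    intro t ht
    have hs := hσ t (mem_range.1 ht)
    have hs' := abs_le.1 hs
    refine ((hTENT q θ hθ hq n J o (- σ t) hn1 hn (by omega) (by omega) (by omega) (by omega)).2).trans
      ?_
    apply mul_le_mul_of_nonneg_right _ (apply_nonneg q _)
    refine le_trans ?_ hnT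
    apply mul_le_mul_of_nonneg_right _ (by positivity)
    apply div_le_div_of_nonneg_right _ (by positivity)
    apply mul_le_mul_of_nonneg_left _ (by norm_num)
    have : ((|(-σ t)| : ℤ) : ℝ) ≤ ((2 * (T : ℤ) + 1 : ℤ) : ℝ) := by
      rw [abs_neg]
      exact_mod_cast hs
    push_cast at this
    push_cast
    linarith
  have h3 : (T : ℝ) • alt J (tent n o) = ∑ t ∈ range T, alt J (tent n (o + (- σ t)))
      - ∑ t ∈ range T, (alt J (tent n (o + (- σ t))) - alt J (tent n o)) := by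
    rw [sum_sub_distrib, sub_sub_cancel, sum_const, card_range, Nat.cast_smul_eq_nsmul]
  have h4 : q ((T : ℝ) • alt J (tent n o)) ≤ q (∑ t ∈ range T, alt J (tent n (o + (- σ t))))
      + T * (1 / 2 * q (alt J (tent n o))) := by
    rw [h3]
    refine (map_sub_le_add q _ _).trans ?_
    apply add_le_add le_rfl
    refine (seminorm_sum_le q _ _).trans ?_
    refine (sum_le_sum h2).trans ?_
    simp
  rw [map_smul_eq_mul] at h4
  simp only [Real.norm_natCast] at h4
  linarith

/-- choice of the scale -/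
theorem exists_scale (h : ℕ → ℝ) (c : ℝ) (hc : 0 < c) (hh : ∀ M, 1 ≤ M → c ≤ h M) :
    ∃ T0, 1 ≤ T0 ∧ ∀ M, 1 ≤ M → h T0 ≤ 2 * h M := by
  set s : Set ℝ := {x | ∃ M, 1 ≤ M ∧ x = h M} with hs
  have hne : s.Nonempty := ⟨h 1, 1, le_rfl, rfl⟩
  have hb : ∀ x ∈ s, c ≤ x := by
    rintro x ⟨M, hM, rfl⟩
    exact hh M hM
  have hbd : BddBelow s := ⟨c, fun x hx => hb x hx⟩
  have hI : c ≤ sInf s := le_csInf hne hb
  obtain ⟨x, ⟨T0, hT0, rfl⟩, hx⟩ := exists_lt_of_csInf_lt hne (show sInf s < 2 * sInf s by linarith)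
  refine ⟨T0, hT0, fun M hM => ?_⟩
  have : sInf s ≤ h M := csInf_le hbd ⟨M, hM, rfl⟩
  linarith

theorem exists_T (p K : ℝ) (hp : 1 < p) : ∃ T : ℕ, 1 ≤ T ∧ 2 * (4:ℝ) ^ p * K ^ p < (T : ℝ) ^ (p - 1) := by
  have h1 : Filter.Tendsto (fun T : ℕ => (T : ℝ) ^ (p - 1)) Filter.atTop Filter.atTop :=
    (tendsto_rpow_atTop (by linarith)).comp tendsto_natCast_atTop_atTop
  have h2 := h1.eventually (Filter.eventually_gt_atTop (2 * (4:ℝ) ^ p * K ^ p))
  obtain ⟨T, hT⟩ := (h2.and (Filter.eventually_ge_atTop 1)).exists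
  exact ⟨T, hT.2, hT.1⟩

theorem core (hLIN : S_LIN) (hPROB : S_PROB) (hSYS : S_SYS) (hBLK : S_BLK) (hTENT : S_TENT)
    (hUP : S_UP) (hNEST : S_NEST) : S_CORE := by
  rintro p K θ hp hK hθ ⟨q, hq, hMT⟩
  obtain ⟨T, hT1, hT⟩ := exists_T p K hp
  obtain ⟨T', rfl⟩ : ∃ T', T = T' + 1 := ⟨T - 1, by omega⟩
  set T := T' + 1 with hTdef
  -- the tent
  obtain ⟨n0, hn0⟩ := exists_nat_gt (8 * (2 * (T:ℝ) + 1) * (1 + 1 / θ))
  set n := 2 * (n0 + 1) with hn
  have hn1 : 1 ≤ n := by omega
  have hneven : Even n := ⟨n0 + 1, by omega⟩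
  have hnR : (0:ℝ) < n := by exact_mod_cast hn1
  have hnT : 4 * (2 * (T:ℝ) + 1) / n * (1 + 1 / θ) ≤ 1 / 2 := by
    rw [div_mul_eq_mul_div, div_le_iff₀ hnR]
    have : (n:ℝ) = 2 * (n0 + 1) := by rw [hn]; push_cast; ring
    rw [this]
    nlinarith
  set R := n + 4 * T + 4 with hR
  set o : ℤ := (n : ℤ) + 4 * T + 4 with ho
  set f : ℤ → ℝ := tent n o with hf
  have hfsupp : ∀ j : ℤ, (j < 4 * T + 4 ∨ 2 * R - 4 * T - 4 ≤ j) → f j = 0 := by
    intro j hj
    rw [hf]
    unfold tent
    have : max 0 ((n:ℤ) - |j - o|) = 0 := by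
      apply max_eq_left
      rcases hj with hj | hj
      · have := neg_abs_le (j - o)
        have h2 := abs_nonneg (j - o)
        rw [abs_of_neg (by omega)]
        omega
      · push_cast [hR] at hj
        have h2 : 0 ≤ j - o := by omega
        rw [abs_of_nonneg h2]
        omega
    rw [this]
    simp
  have hf0 : f 0 = 0 := hfsupp 0 (Or.inl (by positivity))
  have hfR : f (2 * R) = 0 := hfsupp (2 * R) (Or.inr (by omega))
  -- the scale
  have hcomp : ∀ M, 1 ≤ M → θ * (n / 2) ≤ q (blockAvg M (alt (2 * R) f)) := by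
    intro M hM
    have hg := hBLK.1 q θ M hM hq
    exact (hTENT _ θ hθ hg n (2 * R) o 0 hn1 hneven (by omega) (by omega)
      (by push_cast [hR]; omega) (by push_cast [hR]; omega)).1
  obtain ⟨T0, hT0, hscale⟩ := exists_scale (fun M => q (blockAvg M (alt (2 * R) f)))
    (θ * (n / 2)) (by positivity) hcomp
  set q' : Seminorm ℝ (ℕ →₀ ℝ) := q.comp (blockAvg T0) with hq'
  have hq'good : Good q' θ := hBLK.1 q θ T0 hT0 hq
  have hq'MT : MarkovTypeSN q' p K := hBLK.2.1 q p K T0 hMT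
  set h := q' (alt (2 * R) f) with hh
  have hhpos : 0 < h := lt_of_lt_of_le (by positivity) (hcomp T0 hT0)
  have hM : ∀ M, 1 ≤ M → h / 2 ≤ q' (blockAvg M (alt (2 * R) f)) := by
    intro M hM
    have h1 := hscale (T0 * M) (Nat.one_le_iff_ne_zero.2 (by positivity))
    have h2 := hBLK.2.2 T0 M hT0 hM (alt (2 * R) f)
    have h3 : q' (blockAvg M (alt (2 * R) f)) = q (blockAvg (T0 * M) (alt (2 * R) f)) := by
      rw [hq', Seminorm.comp_apply, h2]
    rw [h3]
    have h4 : h = q (blockAvg T0 (alt (2 * R) f)) := rfl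
    rw [h4]
    linarith
  -- the system
  set D := 12 * T with hD
  have hTR : (0:ℝ) < T := by exact_mod_cast hT1
  obtain ⟨S, Ω, i1, i2, i3, i4, A, bar, ν, ext, lab, tau, hbar, hν0, hν1, hνb, hlab, htau, hmono, hstep,
    hanti, hunif⟩ := hSYS D R (1 / (12 * T)) (by omega) (by omega) (by positivity)
  set g : Ω → (ℕ →₀ ℝ) := fun w => vec D R f (ext (A w)) (lab w) (tau w) with hg
  have hlin := hLIN (ℕ →₀ ℝ) q' p K hp.le hK hq'MT S Ω A bar ν g hbar hν0 hν1 hνb
    (fun w => hanti w f hf0 hfR) T'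
  obtain ⟨hP0, hP1, hPbad⟩ := hPROB S Ω A bar ν hbar hν0 hν1 hνb T'
  have hbad := hPbad D lab (1 / (12 * T)) (fun a b => ¬ GoodLab D a b) (by omega) hlab (by positivity)
    (fun a ha => badLab_card D (by omega) a ha) hunif
  -- the right-hand side
  have hrhs : ∑ w, ν w * q' (g w) ^ p = h ^ p := by
    have : ∀ w, ν w * q' (g w) ^ p = ν w * h ^ p := by
      intro w
      by_cases hw : ν w = 0
      · simp [hw]
      · rw [hg, hh]
        simp only
        rw [hUP q' hq'good.spreading D R f _ _ _ (by omega) (hlab w) (htau w) (hmono w hw) hf0 hfR]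
    rw [sum_congr rfl (fun w _ => this w), ← sum_mul, hν1, one_mul]
  -- the lower bound along good paths
  have hlow : ∀ w : Fin (T' + 1) → Ω, pathW A bar ν T' w ≠ 0 →
      (¬ ∃ t : Fin T', ¬ GoodLab D (lab (bar (w t.castSucc))) (lab (w t.succ))) →
      T * h / 4 ≤ q' (∑ t, g (w t)) := by
    intro w hw hgood
    push Not at hgood
    let wt : ℕ → Ω := fun t => if h : t < T' + 1 then w ⟨t, h⟩ else w 0
    have hwt : ∀ t (ht : t < T' + 1), wt t = w ⟨t, ht⟩ := fun t ht => dif_pos ht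
    unfold pathW at hw
    have hw0 : ν (w 0) ≠ 0 := left_ne_zero_of_mul hw
    have hwp : ∀ t : Fin T', stepK A bar ν (w t.castSucc) (w t.succ) ≠ 0 := by
      intro t
      have := right_ne_zero_of_mul hw
      rw [prod_ne_zero_iff] at this
      exact this t (mem_univ _)
    have hwA : ∀ t : Fin T', A (w t.succ) = A (bar (w t.castSucc)) := by
      intro t
      by_contra hne
      apply hwp t
      unfold stepK
      rw [if_neg hne]
    have hwν : ∀ t : Fin T', ν (w t.succ) ≠ 0 := by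
      intro t h0
      apply hwp t
      unfold stepK
      rw [h0]
      simp
    have hνall : ∀ t : Fin (T' + 1), ν (w t) ≠ 0 := by
      intro t
      refine Fin.cases hw0 (fun i => hwν i) t
    have hnest := hNEST T D R hT1 (by omega) f hfsupp (fun t => ext (A (wt t))) (fun t => lab (wt t))
      (fun t => lab (bar (wt t))) (fun t => tau (wt t))
      (by
        intro t ht
        rw [hwt t ht]
        exact hmono _ (hνall _))
      (fun t _ => ⟨hlab _, hlab _, htau _⟩)
      (by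
        intro t ht
        have h1 := hstep (wt t)
        have h2 : A (bar (wt t)) = A (wt (t + 1)) := by
          rw [hwt t (by omega), hwt (t + 1) ht]
          exact (hwA ⟨t, by omega⟩).symm
        rw [h2] at h1
        exact h1)
      (by
        intro t ht
        have := hgood ⟨t, by omega⟩
        rw [hwt t (by omega), hwt (t + 1) ht]
        exact this)
    obtain ⟨σ, hσ, hnest⟩ := hnest
    have hsum : ∑ t, g (w t) = ∑ t ∈ range T, vec D R f (ext (A (wt t))) (lab (wt t)) (tau (wt t)) := by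
      rw [← Fin.sum_univ_eq_sum_range (fun t => vec D R f (ext (A (wt t))) (lab (wt t)) (tau (wt t)))]
      apply sum_congr rfl
      intro t _
      have : wt (t : ℕ) = w t := hwt t t.2
      rw [this]
    rw [hsum]
    set Q := q' (∑ t ∈ range T, vec D R f (ext (A (wt t))) (lab (wt t)) (tau (wt t))) with hQ
    set C := (T * ∑ j ∈ range (2 * R), |f j|) with hC
    have hkey : ∀ M : ℕ, T ≤ M → T * h / 4 ≤ Q + 2 * T / M * C := by
      intro M hTM
      have h1 := hnest q' hq'good.spreading hq'good.unit M hTM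
      have h2 := shifted_sum hTENT (q'.comp (blockAvg M)) θ hθ (hBLK.1 q' θ M (by omega) hq'good)
        T n (2 * R) o σ hσ hn1 hneven (by omega) (by push_cast [hR]; omega) hnT
      have h3 := hM M (by omega)
      simp only [Seminorm.comp_apply] at h2
      have h4 : (T:ℝ) / 2 * (h / 2) ≤ T / 2 * q' (blockAvg M (alt (2 * R) (tent n o))) :=
        mul_le_mul_of_nonneg_left h3 (by positivity)
      calc (T:ℝ) * h / 4 = T / 2 * (h / 2) := by ring
        _ ≤ _ := h4
        _ ≤ _ := h2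
        _ ≤ _ := h1
    -- let M tend to infinity
    have hlim : Filter.Tendsto (fun M : ℕ => Q + 2 * T / M * C) Filter.atTop (nhds (Q + 0 * C)) := by
      apply Filter.Tendsto.const_add
      apply Filter.Tendsto.mul_const
      exact tendsto_const_div_atTop_nhds_zero_nat _
    have := ge_of_tendsto hlim ((Filter.eventually_ge_atTop T).mono hkey)
    linarith
  -- conclusion
  have hlower : (1 / 2) * (T * h / 4) ^ p
      ≤ ∑ w : Fin (T' + 1) → Ω, pathW A bar ν T' w * q' (∑ t, g (w t)) ^ p := by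
    have h1 : ∀ w : Fin (T' + 1) → Ω, pathW A bar ν T' w * (T * h / 4) ^ p
        - (pathW A bar ν T' w * (if ∃ t : Fin T', ¬ GoodLab D (lab (bar (w t.castSucc))) (lab (w t.succ))
          then 1 else 0)) * (T * h / 4) ^ p
        ≤ pathW A bar ν T' w * q' (∑ t, g (w t)) ^ p := by
      intro w
      by_cases hbad : ∃ t : Fin T', ¬ GoodLab D (lab (bar (w t.castSucc))) (lab (w t.succ))
      · rw [if_pos hbad, mul_one, sub_self]
        exact mul_nonneg (hP0 w) (Real.rpow_nonneg (apply_nonneg _ _) _)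
      · rw [if_neg hbad, mul_zero, zero_mul, sub_zero]
        by_cases hw : pathW A bar ν T' w = 0
        · rw [hw]; simp
        · apply mul_le_mul_of_nonneg_left _ (hP0 w)
          exact Real.rpow_le_rpow (by positivity) (hlow w hw hbad) (by linarith)
    have h2 := sum_le_sum (fun w (_ : w ∈ univ) => h1 w)
    rw [sum_sub_distrib, ← sum_mul, ← sum_mul, hP1] at h2
    refine le_trans ?_ h2
    have h3 : 3 * (T':ℝ) * (1 / (D:ℝ) + 1 / (12 * T)) ≤ 1 / 2 := by
      have hDR : (D:ℝ) = 12 * T := by rw [hD]; push_cast; ring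
      rw [hDR]
      have hTT : (T':ℝ) ≤ T := by rw [hTdef]; push_cast; linarith
      have : 3 * (T':ℝ) * (1 / (12 * (T:ℝ)) + 1 / (12 * T)) = (T':ℝ) / T * (1 / 2) := by
        field_simp
        ring
      rw [this]
      have h5 : (T':ℝ) / T ≤ 1 := (div_le_one hTR).2 hTT
      linarith
    have h4 : 0 ≤ (T * h / 4 : ℝ) ^ p := by positivity
    nlinarith [hbad, h3, h4]
  rw [hrhs] at hlin
  have hfin := hlower.trans hlin
  have hT4 : (T * h / 4 : ℝ) ^ p = (T:ℝ) ^ p * h ^ p / 4 ^ p := by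
    rw [Real.div_rpow (by positivity) (by norm_num), Real.mul_rpow (by positivity) hhpos.le]
  rw [hT4] at hfin
  have hhp : 0 < h ^ p := Real.rpow_pos_of_pos hhpos p
  have h4p : (0:ℝ) < 4 ^ p := by positivity
  have hTp : (T:ℝ) ^ p = (T:ℝ) ^ (p - 1) * T := by
    rw [Real.rpow_sub_one (by positivity)]
    field_simp
  rw [hTp] at hfin
  have h6 : (T:ℝ) ^ (p - 1) * T * h ^ p ≤ 2 * 4 ^ p * K ^ p * T * h ^ p := by
    have := mul_le_mul_of_nonneg_left hfin (show (0:ℝ) ≤ 2 * 4 ^ p by positivity)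
    have e1 : 2 * (4:ℝ) ^ p * (1 / 2 * ((T:ℝ) ^ (p - 1) * T * h ^ p / 4 ^ p))
        = (T:ℝ) ^ (p - 1) * T * h ^ p := by
      field_simp
    rw [e1] at this
    refine this.trans (le_of_eq ?_)
    change 2 * 4 ^ p * (K ^ p * (T:ℝ) * h ^ p) = _
    ring
  have h7 : 2 * (4:ℝ) ^ p * K ^ p * T * h ^ p < (T:ℝ) ^ (p - 1) * T * h ^ p := by
    apply mul_lt_mul_of_pos_right _ hhp
    exact mul_lt_mul_of_pos_right hT hTR
  linarith

end Vale.Agent.P125.Core
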