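import Vale.Agent.P125.Plan

/-!
# P125 module FLAT (helper15)
-/

namespace Vale.Agent.P125.FLAT

open Finset Vale.Agent.P125

theorem q_sum_le {V ι : Type*} [AddCommGroup V] [Module ℝ V] (q : Seminorm ℝ V)
    (s : Finset ι) (f : ι → V) : q (∑ i ∈ s, f i) ≤ ∑ i ∈ s, q (f i) :=
  Finset.le_sum_of_subadditive q (map_zero q).le (fun x y => map_add_le_add q x y) s f

theorem q_sum_unit_le {V ι : Type*} [AddCommGroup V] [Module ℝ V] (q : Seminorm ℝ V)
    (s : Finset ι) (x : ι → V) (hx : ∀ i, q (x i) ≤ 1) : q (∑ i ∈ s, x i) ≤ s.card := by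
  refine (q_sum_le q s x).trans ?_
  refine (Finset.sum_le_sum (fun i _ => hx i)).trans ?_
  simp

/-- the difference of two averages. -/
theorem avg_diff {V : Type*} [AddCommGroup V] [Module ℝ V] (q : Seminorm ℝ V)
    (x : ℕ → V) (hx : ∀ i, q (x i) ≤ 1) (M N u : ℕ) (hN : 1 ≤ N) (huN : u + N ≤ M) :
    q ((1 / (M : ℝ)) • ∑ l ∈ range M, x l - (1 / (N : ℝ)) • ∑ s ∈ range N, x (s + u))
      ≤ 2 * ((M : ℝ) - N) / M := by
  have hM : (0 : ℝ) < M := by
    have : 0 < M := by omega
    exact_mod_cast this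
  have hN' : (0 : ℝ) < N := by exact_mod_cast hN
  have hNM : (N : ℝ) ≤ M := by
    have : N ≤ M := by omega
    exact_mod_cast this
  have hsplit : ∑ l ∈ range M, x l
      = (∑ l ∈ range u, x l + ∑ l ∈ Ico (u + N) M, x l) + ∑ s ∈ range N, x (s + u) := by
    have h1 : ∑ l ∈ range M, x l = ∑ l ∈ range (u + N), x l + ∑ l ∈ Ico (u + N) M, x l := by
      rw [Finset.range_eq_Ico, Finset.range_eq_Ico]
      exact (Finset.sum_Ico_consecutive _ (Nat.zero_le _) huN).symm
    have h2 : ∑ l ∈ range (u + N), x l = ∑ l ∈ range u, x l + ∑ s ∈ range N, x (s + u) := by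
      rw [Finset.sum_range_add]
      congr 1
      refine Finset.sum_congr rfl (fun s _ => ?_)
      rw [add_comm]
    rw [h1, h2]
    abel
  have key : (1 / (M : ℝ)) • ∑ l ∈ range M, x l - (1 / (N : ℝ)) • ∑ s ∈ range N, x (s + u)
      = (1 / (M : ℝ)) • ((∑ l ∈ range u, x l + ∑ l ∈ Ico (u + N) M, x l)
          + (-(((M : ℝ) - N) / N)) • ∑ s ∈ range N, x (s + u)) := by
    rw [hsplit]
    rw [smul_add, smul_add (1 / (M : ℝ)) _ ((-(((M : ℝ) - N) / N)) • ∑ s ∈ range N, x (s + u)),
      add_sub_assoc, smul_smul, ← sub_smul]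
    congr 2
    field_simp
    ring
  rw [key, map_smul_eq_mul]
  have h3 : q (∑ l ∈ range u, x l + ∑ l ∈ Ico (u + N) M, x l) ≤ (M : ℝ) - N := by
    refine (map_add_le_add q _ _).trans ?_
    have e1 := q_sum_unit_le q (range u) x hx
    have e2 := q_sum_unit_le q (Ico (u + N) M) x hx
    rw [Finset.card_range] at e1
    rw [Nat.card_Ico, Nat.cast_sub huN] at e2
    push_cast at e2
    linarith
  have h4 : q ((-(((M : ℝ) - N) / N)) • ∑ s ∈ range N, x (s + u)) ≤ (M : ℝ) - N := by
    rw [map_smul_eq_mul]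
    have e1 := q_sum_unit_le q (range N) (fun s => x (s + u)) (fun s => hx _)
    rw [Finset.card_range] at e1
    rw [norm_neg, Real.norm_eq_abs, abs_of_nonneg (div_nonneg (by linarith) hN'.le)]
    calc ((M : ℝ) - N) / N * q (∑ s ∈ range N, x (s + u)) ≤ ((M : ℝ) - N) / N * N :=
          mul_le_mul_of_nonneg_left e1 (div_nonneg (by linarith) hN'.le)
      _ = (M : ℝ) - N := by field_simp
  rw [Real.norm_eq_abs, abs_of_pos (by positivity)]
  calc 1 / (M : ℝ) * q (_ + _) ≤ 1 / (M : ℝ) * (((M : ℝ) - N) + ((M : ℝ) - N)) := by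
        apply mul_le_mul_of_nonneg_left _ (by positivity)
        exact (map_add_le_add q _ _).trans (add_le_add h3 h4)
    _ = 2 * ((M : ℝ) - N) / M := by ring

theorem single_smul' (n : ℕ) (c : ℝ) : Finsupp.single n c = c • Finsupp.single n (1 : ℝ) := by
  rw [Finsupp.smul_single, smul_eq_mul, mul_one]

theorem flat (hSP2 : S_SP2) : S_FLAT := by
  intro q hq hunit k G a pos hk hpos M hM
  have hM0 : 1 ≤ M := hk.trans hM
  have hMr : (0 : ℝ) < M := by exact_mod_cast hM0
  set N : ℕ := M - k + 1 with hNdef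
  have hN1 : 1 ≤ N := by omega
  have hNr : (0 : ℝ) < N := by exact_mod_cast hN1
  -- index set
  set J : Finset ℕ := (G ×ˢ range k).image (fun gu => gu.1 * k + gu.2) with hJ
  have hinj : Set.InjOn (fun gu : ℕ × ℕ => gu.1 * k + gu.2) (G ×ˢ range k : Finset (ℕ × ℕ)) := by
    intro x hx y hy hxy
    simp only [coe_product, Set.mem_prod, mem_coe, mem_range] at hx hy
    have hx2 := hx.2
    have hy2 := hy.2
    simp only at hxy
    have h1 : x.1 = y.1 := by
      have := congrArg (fun n => n / k) hxy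
      rw [add_comm, Nat.add_mul_div_right _ _ (by omega), add_comm (y.1 * k),
        Nat.add_mul_div_right _ _ (by omega), Nat.div_eq_of_lt hx2, Nat.div_eq_of_lt hy2] at this
      omega
    have h2 : x.2 = y.2 := by rw [h1] at hxy; omega
    exact Prod.ext h1 h2
  have hdiv : ∀ g u, u < k → (g * k + u) / k = g := by
    intro g u hu
    rw [add_comm, Nat.add_mul_div_right _ _ (by omega), Nat.div_eq_of_lt hu, zero_add]
  have hmod : ∀ g u, u < k → (g * k + u) % k = u := by
    intro g u hu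
    rw [add_comm, Nat.add_mul_mod_self_right, Nat.mod_eq_of_lt hu]
  -- reindexing
  have hre : ∀ pos' : ℕ → ℕ → ℕ,
      ∑ j ∈ J, Finsupp.single (pos' (j / k) (j % k)) (a (j / k) (j % k))
        = ∑ g ∈ G, ∑ u ∈ range k, Finsupp.single (pos' g u) (a g u) := by
    intro pos'
    rw [hJ, Finset.sum_image hinj, Finset.sum_product]
    refine Finset.sum_congr rfl (fun g _ => Finset.sum_congr rfl (fun u hu => ?_))
    rw [mem_range] at hu
    simp only [hdiv g u hu, hmod g u hu]
  have hmono : ∀ pos' : ℕ → ℕ → ℕ,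
      (∀ g ∈ G, ∀ g' ∈ G, ∀ u < k, ∀ u' < k, (g < g' ∨ (g = g' ∧ u < u')) → pos' g u < pos' g' u') →
      StrictMonoOn (fun j => pos' (j / k) (j % k)) (J : Set ℕ) := by
    intro pos' hp x hx y hy hxy
    rw [hJ] at hx hy
    simp only [coe_image, coe_product, Set.mem_image, Set.mem_prod, mem_coe, mem_range,
      Prod.exists] at hx hy
    obtain ⟨g, u, ⟨hg, hu⟩, rfl⟩ := hx
    obtain ⟨g', u', ⟨hg', hu'⟩, rfl⟩ := hy
    simp only [hdiv g u hu, hmod g u hu, hdiv g' u' hu', hmod g' u' hu']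
    apply hp g hg g' hg' u hu u' hu'
    rcases lt_trichotomy g g' with h | h | h
    · exact Or.inl h
    · right
      refine ⟨h, ?_⟩
      subst h
      omega
    · exfalso
      have : (g' + 1) * k ≤ g * k := Nat.mul_le_mul_right k h
      nlinarith
  have hshift : ∀ s < N, q (∑ g ∈ G, ∑ u ∈ range k, Finsupp.single (g * M + s + u) (a g u))
      = q (∑ g ∈ G, ∑ u ∈ range k, Finsupp.single (pos g u) (a g u)) := by
    intro s hs
    rw [← hre (fun g u => g * M + s + u), ← hre pos]
    refine hSP2 q hq J (fun j => a (j / k) (j % k)) _ _ (hmono (fun g u => g * M + s + u) ?_)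
      (hmono pos hpos)
    intro g hg g' hg' u hu u' hu' h
    rcases h with h | ⟨h, h'⟩
    · have : (g + 1) * M ≤ g' * M := Nat.mul_le_mul_right M h
      have h2 : s + u < M := by omega
      nlinarith
    · subst h; omega
  -- the average
  set v : ℕ →₀ ℝ := (1 / (N : ℝ)) • ∑ s ∈ range N,
    ∑ g ∈ G, ∑ u ∈ range k, Finsupp.single (g * M + s + u) (a g u) with hv
  have hqv : q v ≤ q (∑ g ∈ G, ∑ u ∈ range k, Finsupp.single (pos g u) (a g u)) := by
    rw [hv, map_smul_eq_mul, Real.norm_eq_abs, abs_of_pos (by positivity)]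
    have e1 : q (∑ s ∈ range N, ∑ g ∈ G, ∑ u ∈ range k, Finsupp.single (g * M + s + u) (a g u))
        ≤ N * q (∑ g ∈ G, ∑ u ∈ range k, Finsupp.single (pos g u) (a g u)) := by
      refine (q_sum_le q _ _).trans ?_
      rw [Finset.sum_congr rfl (fun s hs => hshift s (mem_range.1 hs))]
      simp
    calc 1 / (N : ℝ) * _ ≤ 1 / (N : ℝ) *
          (N * q (∑ g ∈ G, ∑ u ∈ range k, Finsupp.single (pos g u) (a g u))) :=
          mul_le_mul_of_nonneg_left e1 (by positivity)
      _ = _ := by field_simp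
  -- the block average as a double sum
  have hw : blockAvg M (∑ g ∈ G, Finsupp.single g (∑ u ∈ range k, a g u))
      = ∑ g ∈ G, ∑ u ∈ range k, (a g u) •
        ((1 / (M : ℝ)) • ∑ l ∈ range M, Finsupp.single (g * M + l) (1 : ℝ)) := by
    rw [map_sum]
    refine Finset.sum_congr rfl (fun g _ => ?_)
    rw [blockAvg, Finsupp.linearCombination_single, Finset.sum_smul]
  have hv2 : v = ∑ g ∈ G, ∑ u ∈ range k, (a g u) •
        ((1 / (N : ℝ)) • ∑ s ∈ range N, Finsupp.single (g * M + (s + u)) (1 : ℝ)) := by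
    rw [hv, Finset.sum_comm, Finset.smul_sum]
    refine Finset.sum_congr rfl (fun g _ => ?_)
    rw [Finset.sum_comm, Finset.smul_sum]
    refine Finset.sum_congr rfl (fun u _ => ?_)
    rw [smul_comm, Finset.smul_sum (r := a g u)]
    congr 1
    refine Finset.sum_congr rfl (fun s _ => ?_)
    rw [single_smul' _ (a g u), add_assoc]
  have hdiff : q (blockAvg M (∑ g ∈ G, Finsupp.single g (∑ u ∈ range k, a g u)) - v)
      ≤ 2 * k / M * ∑ g ∈ G, ∑ u ∈ range k, |a g u| := by
    rw [hw, hv2, ← Finset.sum_sub_distrib, Finset.mul_sum]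
    refine (q_sum_le q _ _).trans (Finset.sum_le_sum (fun g _ => ?_))
    rw [← Finset.sum_sub_distrib, Finset.mul_sum]
    refine (q_sum_le q _ _).trans (Finset.sum_le_sum (fun u hu => ?_))
    rw [mem_range] at hu
    rw [← smul_sub, map_smul_eq_mul, Real.norm_eq_abs, mul_comm]
    refine mul_le_mul_of_nonneg_right ?_ (abs_nonneg _)
    have := avg_diff q (fun l => Finsupp.single (g * M + l) (1 : ℝ)) (fun l => hunit _) M N u hN1
      (by omega)
    refine this.trans ?_
    apply div_le_div_of_nonneg_right _ hMr.le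
    have : (M : ℝ) - N ≤ k := by
      have : (M : ℝ) ≤ N + k := by
        have : M ≤ N + k := by omega
        exact_mod_cast this
      linarith
    linarith
  calc q (blockAvg M (∑ g ∈ G, Finsupp.single g (∑ u ∈ range k, a g u)))
      = q (v + (blockAvg M (∑ g ∈ G, Finsupp.single g (∑ u ∈ range k, a g u)) - v)) := by
        rw [add_sub_cancel]
    _ ≤ q v + q (blockAvg M (∑ g ∈ G, Finsupp.single g (∑ u ∈ range k, a g u)) - v) :=
        map_add_le_add q _ _
    _ ≤ _ := add_le_add hqv hdiff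

end Vale.Agent.P125.FLAT
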