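import Vale.Agent.P125.Plan

/-!
# P125, second part: the equivalent uniformly smooth norm

TREED (dual of TREE): let `t` be a valid `ε`-tree in the dual `X' = X →L[ℝ] ℝ` with `val t` tiny, so
`P(J ≥ n) ≥ 1/2`.  For a big node `ν` choose `x_ν ∈ B_X` with `(root l - root r)(x_ν) ≥ (2/3) ε`
(possible since `‖root l - root r‖ ≥ ε`).  For `i < n` let `d_i : leaves → X`, `d_i(ω) = ± x_ν` where `ν` is the
`i`-th big node on the path to `ω` (`+` if `ω` is to the left of `ν`, `-` if to the right), `0` if there is none.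
With the dual martingale `x*_j` (value at the child, towards `ω`, of the `j`-th big node; leaf value if
there are fewer), `E ⟨x*_j, d_i⟩ = 0` if `j < i` and `= m_i := ∑_ν P(ν) (1/2) (root l - root r)(x_ν) ≥ (ε/3) P(J ≥ i) ≥ ε/6`
for `j ≥ i`.  So `y_i := (ε/(6 m_i)) d_i` satisfies `‖y_i‖ ≤ 1` and `‖∑ a_i y_i‖_{L_p(X)} ≥ (ε/6) |∑_{i ≤ j} a_i|`;
reverse the order of the indices.

SMOOTH: `N` equivalent uniformly convex norm on `X'`; put `N' x = sup {f x : N f ≤ 1}`; equivalent to `‖x‖`;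
`N'(x+τy)+N'(x-τy) = sup_{f,g} ((f+g) x + τ (f-g) y) ≤ sup (N(f+g) + τ N(f-g)) ≤ 2 (1-δ(ε)) + τ ε` (or `≤ 2 + τ ε`).
-/

namespace Vale.Agent.P125

open Finset

noncomputable section

/-- Uniform smoothness: the modulus of smoothness `ρ(τ)` satisfies `ρ(τ)/τ → 0`. -/
def UniformlySmoothSN {X : Type*} [AddCommGroup X] [Module ℝ X] (N : Seminorm ℝ X) : Prop :=
  ∀ η > 0, ∃ τ₀ > 0, ∀ τ, 0 < τ → τ < τ₀ → ∀ x y, N x = 1 → N y = 1 →
    (N (x + τ • y) + N (x - τ • y)) / 2 - 1 ≤ η * τ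

/-- TREED: trees of small value in the dual give (reversed) arrays in `L_p(Ω, X)`. -/
def S_TREED.{u} : Prop :=
  ∀ (X : Type u) [NormedAddCommGroup X] [NormedSpace ℝ X] (p K ε : ℝ), 1 ≤ p → 0 ≤ K → 0 < ε →
    MarkovTypeSN (normSeminorm ℝ X) p K →
    (∀ c > 0, ∃ t : Tr (X →L[ℝ] ℝ), t.Valid ε ∧ t.val < c) →
    ∀ n : ℕ, ∃ N : Seminorm ℝ (ℕ →₀ ℝ), (∀ j, N (Finsupp.single j 1) ≤ 1) ∧
      (∀ (a : ℕ →₀ ℝ) (i : ℕ), (∀ j, n ≤ j → a j = 0) →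
        (ε / 6) * |∑ j ∈ a.support.filter (fun j => i ≤ j), a j| ≤ N a) ∧ MarkovTypeSN N p K

/-- SMOOTH: duality between uniform convexity and uniform smoothness. -/
def S_SMOOTH.{u} : Prop :=
  ∀ (X : Type u) [NormedAddCommGroup X] [NormedSpace ℝ X] (N : Seminorm ℝ (X →L[ℝ] ℝ)),
    (∃ a > 0, ∃ b > 0, ∀ f, a * ‖f‖ ≤ N f ∧ N f ≤ b * ‖f‖) → UniformlyConvexSN N →
    ∃ N' : Seminorm ℝ X, (∃ a > 0, ∃ b > 0, ∀ x, a * ‖x‖ ≤ N' x ∧ N' x ≤ b * ‖x‖) ∧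
      UniformlySmoothSN N'

end

end Vale.Agent.P125
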