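import Vale.Agent.P125.Defs
import Vale.Agent.P125.Plan2

namespace Vale.Agent.P125

open Finset Filter Topology

/-- Markov type for chains on `Fin n` gives Markov type for chains on any finite type. -/
theorem markovTypeSN_of_fin {X : Type*} [NormedAddCommGroup X] [NormedSpace ℝ X] {p K : ℝ}
    (h : ∀ (n : ℕ) (π : Fin n → ℝ) (P : Matrix (Fin n) (Fin n) ℝ),
      (∀ i, 0 ≤ π i) → ∑ i, π i = 1 → (∀ i j, 0 ≤ P i j) → (∀ i, ∑ j, P i j = 1) →
      (∀ i j, π i * P i j = π j * P j i) →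
      ∀ (f : Fin n → X) (t : ℕ), 1 ≤ t →
      ∑ i, ∑ j, π i * (P ^ t) i j * ‖f j - f i‖ ^ p
        ≤ K ^ p * t * ∑ i, ∑ j, π i * P i j * ‖f j - f i‖ ^ p) :
    MarkovTypeSN (normSeminorm ℝ X) p K := by
  intro S _ _ π P h1 h2 h3 h4 h5 f t ht
  let e : Fin (Fintype.card S) ≃ S := (Fintype.equivFin S).symm
  have key := h (Fintype.card S) (π ∘ e) (P.submatrix e e) (fun i => h1 _)
    (by rw [← h2]; exact Equiv.sum_comp e π)
    (fun i j => h3 _ _)
    (fun i => by rw [← h4 (e i)]; exact Equiv.sum_comp e (fun j => P (e i) j))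
    (fun i j => h5 _ _) (f ∘ e) t ht
  have hpow : (P.submatrix e e) ^ t = (P ^ t).submatrix e e :=
    (Matrix.reindexAlgEquiv_apply ℝ ℝ e.symm (P ^ t) ▸
      map_pow (Matrix.reindexAlgEquiv ℝ ℝ e.symm) P t).symm
  rw [hpow] at key
  have e1 : ∀ F : S → S → ℝ, ∑ i, ∑ j, F (e i) (e j) = ∑ i, ∑ j, F i j := by
    intro F
    rw [← Equiv.sum_comp e (fun i => ∑ j, F i j)]
    apply sum_congr rfl
    intro i _
    exact Equiv.sum_comp e (fun j => F (e i) j)
  have l1 := e1 (fun i j => π i * (P ^ t) i j * ‖f j - f i‖ ^ p)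
  have l2 := e1 (fun i j => π i * P i j * ‖f j - f i‖ ^ p)
  simp only [Matrix.submatrix_apply, Function.comp] at key
  rw [l1, l2] at key
  exact key

theorem isUniformlySmooth_of {X : Type*} [NormedAddCommGroup X] [NormedSpace ℝ X]
    {N : Seminorm ℝ X} (h : UniformlySmoothSN N) : IsUniformlySmooth N := by
  unfold IsUniformlySmooth
  rw [Metric.tendsto_nhds]
  intro η hη
  obtain ⟨τ₀, hτ₀, H⟩ := h (η / 2) (by positivity)
  have : ∀ᶠ τ : ℝ in 𝓝[>] 0, τ ∈ Set.Ioo 0 τ₀ := Ioo_mem_nhdsGT hτ₀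
  filter_upwards [this] with τ hτ
  have hτ0 : 0 < τ := hτ.1
  have hnn : ∀ x y, N x = 1 → N y = 1 → 0 ≤ (N (x + τ • y) + N (x - τ • y)) / 2 - 1 := by
    intro x y hx _
    have h1 : N ((2:ℝ) • x) ≤ N (x + τ • y) + N (x - τ • y) := by
      have : (2:ℝ) • x = (x + τ • y) + (x - τ • y) := by
        rw [two_smul]; abel
      rw [this]
      exact map_add_le_add N _ _
    rw [map_smul_eq_mul, hx] at h1
    norm_num at h1
    linarith
  have hle : modulusOfSmoothness N τ ≤ η / 2 * τ := by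
    apply Real.sSup_le
    · rintro r ⟨x, y, hx, hy, rfl⟩
      exact H τ hτ.1 hτ.2 x y hx hy
    · positivity
  have hge : 0 ≤ modulusOfSmoothness N τ := by
    apply Real.sSup_nonneg
    rintro r ⟨x, y, hx, hy, rfl⟩
    exact hnn x y hx hy
  rw [Real.dist_eq, sub_zero, abs_of_nonneg (div_nonneg hge hτ0.le), div_lt_iff₀ hτ0]
  nlinarith

end Vale.Agent.P125
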