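import Vale.Agent.P125.Plan

/-!
# P125, module LIN: linearisation of Markov type
-/

namespace Vale.Agent.P125.LIN

open Finset Vale.Agent.P125 Filter Topology

noncomputable section

set_option linter.unusedSectionVars false

section

variable {S Ω : Type} [Fintype S] [DecidableEq S] [Fintype Ω] [DecidableEq Ω]
variable (A : Ω → S) (bar : Ω → Ω) (ν : Ω → ℝ)

/-- the box -/
abbrev Bx (Ω : Type) [Fintype Ω] [DecidableEq Ω] (M : ℕ) : Finset (Ω → ℤ) :=
  Finset.Icc 0 (fun _ => (M : ℤ))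

/-- the state space -/
abbrev St (S Ω : Type) [Fintype Ω] [DecidableEq Ω] (M : ℕ) : Type :=
  S × {y : Ω → ℤ // y ∈ Bx Ω M}

/-- the displacement -/
def dlt (w : Ω) : Ω → ℤ := Pi.single w 1 - Pi.single (bar w) 1

omit [Fintype Ω] in
lemma dlt_bar (hb : ∀ w, bar (bar w) = w) (w : Ω) : dlt bar (bar w) = - dlt bar w := by
  unfold dlt
  rw [hb]
  abel

/-- one move -/
def mv (M : ℕ) (i : St S Ω M) (w : Ω) : St S Ω M :=
  if h : (i.2 : Ω → ℤ) + dlt bar w ∈ Bx Ω M then (A (bar w), ⟨_, h⟩) else i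

/-- vertex weight -/
def nS (s : S) : ℝ := ∑ w, if A w = s then ν w else 0

/-- conditional weights -/
def cc (s : S) (w : Ω) : ℝ := if A w = s then ν w / nS A ν s else 0

/-- transition matrix -/
def PP (M : ℕ) : Matrix (St S Ω M) (St S Ω M) ℝ := fun i j =>
  (∑ w, if mv A bar M i w = j then cc A ν i.1 w else 0)
    + (if i = j then 1 - ∑ w, cc A ν i.1 w else 0)

variable {A bar ν}

omit [Fintype S] [DecidableEq Ω] in
lemma nS_nonneg (hν : ∀ w, 0 ≤ ν w) (s : S) : 0 ≤ nS A ν s := by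
  unfold nS
  refine Finset.sum_nonneg fun w _ => ?_
  split_ifs
  · exact hν w
  · exact le_rfl

omit [Fintype S] [DecidableEq Ω] in
lemma le_nS (hν : ∀ w, 0 ≤ ν w) (w : Ω) : ν w ≤ nS A ν (A w) := by
  unfold nS
  have h := Finset.single_le_sum (f := fun w' => if A w' = A w then ν w' else 0)
    (fun w' _ => by
      show (0 : ℝ) ≤ if A w' = A w then ν w' else 0
      split_ifs
      · exact hν w'
      · exact le_rfl) (Finset.mem_univ w)
  simpa using h

omit [Fintype S] [DecidableEq Ω] in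
lemma nS_mul_cc (hν : ∀ w, 0 ≤ ν w) (s : S) (w : Ω) :
    nS A ν s * cc A ν s w = if A w = s then ν w else 0 := by
  unfold cc
  split_ifs with h
  · by_cases h0 : nS A ν s = 0
    · have h1 := le_nS (A := A) hν w
      rw [h, h0] at h1
      have h2 : ν w = 0 := le_antisymm h1 (hν w)
      rw [h2, h0]
      simp
    · field_simp
  · simp

omit [Fintype S] [DecidableEq Ω] in
lemma cc_nonneg (hν : ∀ w, 0 ≤ ν w) (s : S) (w : Ω) : 0 ≤ cc A ν s w := by
  unfold cc
  split_ifs
  · exact div_nonneg (hν w) (nS_nonneg hν s)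
  · exact le_rfl

omit [Fintype S] [DecidableEq Ω] in
lemma sum_cc (s : S) (h0 : nS A ν s ≠ 0) : ∑ w, cc A ν s w = 1 := by
  have h : ∑ w, cc A ν s w = (∑ w, if A w = s then ν w else 0) / nS A ν s := by
    rw [Finset.sum_div]
    refine Finset.sum_congr rfl fun w _ => ?_
    unfold cc
    split_ifs
    · rfl
    · simp
  rw [h]
  exact div_self h0

omit [Fintype S] [DecidableEq Ω] in
lemma sum_cc_le (s : S) : ∑ w, cc A ν s w ≤ 1 := by
  by_cases h0 : nS A ν s = 0
  · have h : ∑ w, cc A ν s w = 0 := by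
      refine Finset.sum_eq_zero fun w _ => ?_
      unfold cc
      rw [h0]
      simp
    rw [h]
    exact zero_le_one
  · exact (sum_cc s h0).le

lemma PP_nonneg (hν : ∀ w, 0 ≤ ν w) (M : ℕ) (i j : St S Ω M) : 0 ≤ PP A bar ν M i j := by
  unfold PP
  apply add_nonneg
  · refine Finset.sum_nonneg fun w _ => ?_
    split_ifs
    · exact cc_nonneg hν _ _
    · exact le_rfl
  · split_ifs
    · have := sum_cc_le (A := A) (ν := ν) i.1
      linarith
    · exact le_rfl

/-- action of `PP` on functions -/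
lemma PP_sum (M : ℕ) (i : St S Ω M) (G : St S Ω M → ℝ) :
    ∑ j, PP A bar ν M i j * G j = ∑ w, cc A ν i.1 w * G (mv A bar M i w)
      + (1 - ∑ w, cc A ν i.1 w) * G i := by
  unfold PP
  simp only [add_mul, Finset.sum_add_distrib]
  congr 1
  · simp only [Finset.sum_mul]
    rw [Finset.sum_comm]
    refine Finset.sum_congr rfl fun w _ => ?_
    rw [Finset.sum_eq_single (mv A bar M i w)]
    · simp
    · intro j _ hj
      rw [if_neg hj.symm, zero_mul]
    · intro h
      exact absurd (Finset.mem_univ _) h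
  · rw [Finset.sum_eq_single i]
    · simp
    · intro j _ hj
      rw [if_neg hj.symm, zero_mul]
    · intro h
      exact absurd (Finset.mem_univ _) h

lemma PP_row (M : ℕ) (i : St S Ω M) : ∑ j, PP A bar ν M i j = 1 := by
  have h := PP_sum (A := A) (bar := bar) (ν := ν) M i (fun _ => 1)
  simp only [mul_one] at h
  rw [h]
  ring

lemma mv_symm (hb : ∀ w, bar (bar w) = w) (M : ℕ) (i j : St S Ω M) (hij : i ≠ j) (w : Ω)
    (hA : A w = i.1) (h : mv A bar M i w = j) : A (bar w) = j.1 ∧ mv A bar M j (bar w) = i := by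
  unfold mv at h
  split_ifs at h with hm
  · subst h
    refine ⟨rfl, ?_⟩
    unfold mv
    have e : ((⟨(i.2 : Ω → ℤ) + dlt bar w, hm⟩ : {y : Ω → ℤ // y ∈ Bx Ω M}) : Ω → ℤ)
        + dlt bar (bar w) = i.2 := by
      rw [dlt_bar bar hb]
      simp
    have hm2 : ((⟨(i.2 : Ω → ℤ) + dlt bar w, hm⟩ : {y : Ω → ℤ // y ∈ Bx Ω M}) : Ω → ℤ)
        + dlt bar (bar w) ∈ Bx Ω M := by
      rw [e]; exact i.2.2
    rw [dif_pos hm2]
    refine Prod.ext ?_ ?_
    · show A (bar (bar w)) = i.1
      rw [hb, hA]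
    · exact Subtype.ext e
  · exact absurd h hij

/-- the unnormalised flow -/
lemma flow_symm (hb : ∀ w, bar (bar w) = w) (hνb : ∀ w, ν (bar w) = ν w) (M : ℕ)
    (i j : St S Ω M) (hij : i ≠ j) :
    (∑ w, if mv A bar M i w = j then (if A w = i.1 then ν w else 0) else 0)
      = ∑ w, if mv A bar M j w = i then (if A w = j.1 then ν w else 0) else 0 := by
  let e : Ω ≃ Ω := ⟨bar, bar, hb, hb⟩
  rw [← Equiv.sum_comp e (fun w => if mv A bar M j w = i then (if A w = j.1 then ν w else 0) else 0)]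
  refine Finset.sum_congr rfl fun w _ => ?_
  show _ = if mv A bar M j (bar w) = i then (if A (bar w) = j.1 then ν (bar w) else 0) else 0
  by_cases h : A w = i.1 ∧ mv A bar M i w = j
  · obtain ⟨h1, h2⟩ := mv_symm hb M i j hij w h.1 h.2
    rw [if_pos h.2, if_pos h.1, if_pos h2, if_pos h1, hνb]
  · have h' : ¬ (A (bar w) = j.1 ∧ mv A bar M j (bar w) = i) := by
      rintro ⟨h1, h2⟩
      apply h
      have h3 := mv_symm hb M j i hij.symm (bar w) h1 h2
      rw [hb] at h3
      exact h3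
    have e1 : (if mv A bar M i w = j then (if A w = i.1 then ν w else 0) else 0) = 0 := by
      by_cases h2 : mv A bar M i w = j
      · rw [if_pos h2, if_neg fun h1 => h ⟨h1, h2⟩]
      · rw [if_neg h2]
    have e2 : (if mv A bar M j (bar w) = i then (if A (bar w) = j.1 then ν (bar w) else 0) else 0)
        = 0 := by
      by_cases h2 : mv A bar M j (bar w) = i
      · rw [if_pos h2, if_neg fun h1 => h' ⟨h1, h2⟩]
      · rw [if_neg h2]
    rw [e1, e2]

lemma nS_mul_PP (hν : ∀ w, 0 ≤ ν w) (M : ℕ) (i j : St S Ω M) :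
    nS A ν i.1 * PP A bar ν M i j
      = (∑ w, if mv A bar M i w = j then (if A w = i.1 then ν w else 0) else 0)
        + (if i = j then nS A ν i.1 * (1 - ∑ w, cc A ν i.1 w) else 0) := by
  unfold PP
  rw [mul_add, Finset.mul_sum]
  congr 1
  · refine Finset.sum_congr rfl fun w _ => ?_
    rw [mul_ite, mul_zero, nS_mul_cc hν]
  · rw [mul_ite, mul_zero]

lemma reversible (hb : ∀ w, bar (bar w) = w) (hν : ∀ w, 0 ≤ ν w) (hνb : ∀ w, ν (bar w) = ν w)
    (M : ℕ) (i j : St S Ω M) :
    nS A ν i.1 * PP A bar ν M i j = nS A ν j.1 * PP A bar ν M j i := by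
  by_cases hij : i = j
  · rw [hij]
  · rw [nS_mul_PP hν, nS_mul_PP hν, if_neg hij, if_neg (Ne.symm hij),
      flow_symm hb hνb M i j hij]

omit [DecidableEq Ω] in
lemma sum_nS (h1 : ∑ w, ν w = 1) : ∑ s, nS A ν s = 1 := by
  unfold nS
  rw [Finset.sum_comm, ← h1]
  refine Finset.sum_congr rfl fun w _ => ?_
  simp

/-- invariant law -/
def pi' (A : Ω → S) (ν : Ω → ℝ) (M : ℕ) (i : St S Ω M) : ℝ := nS A ν i.1 / (Bx Ω M).card

lemma card_pos (M : ℕ) : (0 : ℝ) < ((Bx Ω M).card : ℝ) := by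
  have : (0 : Ω → ℤ) ∈ Bx Ω M := by
    rw [Finset.mem_Icc]
    exact ⟨le_rfl, fun _ => by simp⟩
  exact_mod_cast Finset.card_pos.2 ⟨_, this⟩

lemma sum_box (M : ℕ) (F : S → ℝ) :
    ∑ i : St S Ω M, F i.1 / (Bx Ω M).card = ∑ s, F s := by
  rw [Fintype.sum_prod_type]
  refine Finset.sum_congr rfl fun s _ => ?_
  simp only [Finset.sum_const, Finset.card_univ, Fintype.card_coe]
  rw [nsmul_eq_mul]
  have := card_pos (Ω := Ω) M
  field_simp

/-- recursion for the path functional -/
def H {V : Type} [AddCommGroup V] [Module ℝ V] (A : Ω → S) (bar : Ω → Ω) (ν : Ω → ℝ)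
    (q : Seminorm ℝ V) (p : ℝ) (g : Ω → V) : ℕ → S → V → ℝ
  | 0, _, v => q v ^ p
  | t + 1, s, v => ∑ w, cc A ν s w * H A bar ν q p g t (A (bar w)) (v + g w)

/-- the potential -/
def ff {V : Type} [AddCommGroup V] [Module ℝ V] (g : Ω → V) (M : ℕ) (i : St S Ω M) : V :=
  (1 / 2 : ℝ) • ∑ ω, (((i.2 : Ω → ℤ) ω : ℤ) : ℝ) • g ω

variable {V : Type} [AddCommGroup V] [Module ℝ V] {q : Seminorm ℝ V} {p : ℝ} {g : Ω → V}

omit [Fintype S] [DecidableEq S] in
lemma sum_dlt (hg : ∀ w, g (bar w) = - g w) (w : Ω) :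
    ∑ ω, ((dlt bar w ω : ℤ) : ℝ) • g ω = (2 : ℝ) • g w := by
  unfold dlt
  have h : ∀ ω, (((Pi.single w (1 : ℤ) - Pi.single (bar w) (1 : ℤ) : Ω → ℤ) ω : ℤ) : ℝ) • g ω
      = (if ω = w then g ω else 0) - (if ω = bar w then g ω else 0) := by
    intro ω
    rw [Pi.sub_apply, Pi.single_apply, Pi.single_apply]
    push_cast
    rw [sub_smul]
    congr 1
    · split_ifs <;> simp
    · split_ifs <;> simp
  simp only [h]
  rw [Finset.sum_sub_distrib, Finset.sum_ite_eq' , Finset.sum_ite_eq']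
  simp only [Finset.mem_univ, if_true]
  rw [hg, two_smul]
  abel

lemma ff_mv (hg : ∀ w, g (bar w) = - g w) (M : ℕ) (i : St S Ω M) (w : Ω)
    (h : (i.2 : Ω → ℤ) + dlt bar w ∈ Bx Ω M) :
    ff g M (mv A bar M i w) = ff g M i + g w := by
  unfold mv
  rw [dif_pos h]
  unfold ff
  have e : ∑ ω, ((((i.2 : Ω → ℤ) + dlt bar w) ω : ℤ) : ℝ) • g ω
      = ∑ ω, (((i.2 : Ω → ℤ) ω : ℤ) : ℝ) • g ω + (2 : ℝ) • g w := by
    rw [← sum_dlt hg w, ← Finset.sum_add_distrib]
    refine Finset.sum_congr rfl fun ω _ => ?_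
    rw [Pi.add_apply]
    push_cast
    rw [add_smul]
  show (1 / 2 : ℝ) • ∑ ω, ((((i.2 : Ω → ℤ) + dlt bar w) ω : ℤ) : ℝ) • g ω = _
  rw [e, smul_add, smul_smul]
  norm_num

lemma H_nonneg (hν : ∀ w, 0 ≤ ν w) (t : ℕ) (s : S) (v : V) : 0 ≤ H A bar ν q p g t s v := by
  induction t generalizing s v with
  | zero => exact Real.rpow_nonneg (apply_nonneg q v) p
  | succ t ih => exact Finset.sum_nonneg fun w _ => mul_nonneg (cc_nonneg hν _ _) (ih _ _)

lemma dlt_abs (w ω : Ω) : -1 ≤ dlt bar w ω ∧ dlt bar w ω ≤ 1 := by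
  unfold dlt
  rw [Pi.sub_apply, Pi.single_apply, Pi.single_apply]
  split_ifs <;> simp

lemma claim1 (hν : ∀ w, 0 ≤ ν w) (hνb : ∀ w, ν (bar w) = ν w) (hg : ∀ w, g (bar w) = - g w)
    (M t : ℕ) (i : St S Ω M) (hi : ∀ ω, (t : ℤ) ≤ (i.2 : Ω → ℤ) ω ∧ (i.2 : Ω → ℤ) ω + t ≤ M)
    (h0 : nS A ν i.1 ≠ 0) (c : V) :
    ∑ j, (PP A bar ν M ^ t) i j * q (ff g M j - c) ^ p = H A bar ν q p g t i.1 (ff g M i - c) := by
  induction t generalizing i with
  | zero =>
    rw [pow_zero]
    rw [Finset.sum_eq_single i]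
    · simp [H]
    · intro j _ hj
      rw [Matrix.one_apply_ne hj.symm, zero_mul]
    · intro h
      exact absurd (Finset.mem_univ _) h
  | succ t ih =>
    have e1 : ∑ j, (PP A bar ν M ^ (t + 1)) i j * q (ff g M j - c) ^ p
        = ∑ k, PP A bar ν M i k * ∑ j, (PP A bar ν M ^ t) k j * q (ff g M j - c) ^ p := by
      rw [pow_succ']
      simp only [Matrix.mul_apply, Finset.sum_mul, Finset.mul_sum]
      rw [Finset.sum_comm]
      refine Finset.sum_congr rfl fun k _ => Finset.sum_congr rfl fun j _ => ?_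
      ring
    rw [e1, PP_sum, sum_cc i.1 h0, sub_self, zero_mul, add_zero]
    show _ = ∑ w, cc A ν i.1 w * H A bar ν q p g t (A (bar w)) (ff g M i - c + g w)
    refine Finset.sum_congr rfl fun w _ => ?_
    by_cases hw : A w = i.1 ∧ ν w ≠ 0
    · have hbox : ∀ ω, (t : ℤ) ≤ ((i.2 : Ω → ℤ) + dlt bar w) ω ∧
          ((i.2 : Ω → ℤ) + dlt bar w) ω + t ≤ M := by
        intro ω
        have h1 := hi ω
        have h2 := dlt_abs (bar := bar) w ω
        rw [Pi.add_apply]
        push_cast at h1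
        constructor <;> linarith [h1.1, h1.2, h2.1, h2.2]
      have hmem : (i.2 : Ω → ℤ) + dlt bar w ∈ Bx Ω M := by
        rw [Finset.mem_Icc]
        refine ⟨fun ω => ?_, fun ω => ?_⟩
        · have := (hbox ω).1
          show (0 : ℤ) ≤ _
          linarith [Int.natCast_nonneg t]
        · have := (hbox ω).2
          show _ ≤ (M : ℤ)
          linarith [Int.natCast_nonneg t]
      have e2 : mv A bar M i w = (A (bar w), ⟨_, hmem⟩) := by
        unfold mv
        rw [dif_pos hmem]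
      have h3 : nS A ν (A (bar w)) ≠ 0 := by
        have h4 := le_nS (A := A) hν (bar w)
        rw [hνb] at h4
        have h5 : 0 < ν w := lt_of_le_of_ne (hν w) (Ne.symm hw.2)
        linarith
      have h6 := ih (mv A bar M i w) (by rw [e2]; exact hbox) (by rw [e2]; exact h3)
      rw [h6, ff_mv hg M i w hmem, e2]
      congr 2
      abel
    · have h7 : cc A ν i.1 w = 0 := by
        unfold cc
        by_cases h8 : A w = i.1
        · rw [if_pos h8]
          have : ν w = 0 := by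
            by_contra h9
            exact hw ⟨h8, h9⟩
          rw [this, zero_div]
        · rw [if_neg h8]
      rw [h7, zero_mul, zero_mul]

/-- inner box -/
def inn (Ω : Type) [Fintype Ω] [DecidableEq Ω] (M N : ℕ) : Finset (Ω → ℤ) :=
  Finset.Icc (fun _ => (N : ℤ)) (fun _ => (M : ℤ) - N)

lemma inn_mem {M N : ℕ} {y : Ω → ℤ} (h : y ∈ inn Ω M N) (ω : Ω) :
    (N : ℤ) ≤ y ω ∧ y ω + N ≤ M := by
  unfold inn at h
  rw [Finset.mem_Icc] at h
  have h1 := h.1 ω
  have h2 := h.2 ω
  simp only at h1 h2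
  exact ⟨h1, by linarith⟩

lemma inn_sub {M N : ℕ} : inn Ω M N ⊆ Bx Ω M := by
  intro y hy
  rw [Finset.mem_Icc]
  refine ⟨fun ω => ?_, fun ω => ?_⟩
  · have := (inn_mem hy ω).1
    show (0 : ℤ) ≤ _
    linarith [Int.natCast_nonneg N]
  · have := (inn_mem hy ω).2
    show _ ≤ (M : ℤ)
    linarith [Int.natCast_nonneg N]

lemma card_Bx (M : ℕ) : ((Bx Ω M).card : ℝ) = ((M : ℝ) + 1) ^ (Fintype.card Ω) := by
  rw [Pi.card_Icc]
  have h : ∀ ω : Ω, (Finset.Icc ((0 : Ω → ℤ) ω) (M : ℤ)).card = M + 1 := by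
    intro ω
    rw [Int.card_Icc]
    simp only [Pi.zero_apply, sub_zero]
    omega
  simp only [h, Finset.prod_const, Finset.card_univ]
  push_cast
  rfl

lemma card_inn (M N : ℕ) (h : 2 * N ≤ M) :
    ((inn Ω M N).card : ℝ) = ((M : ℝ) - 2 * (N : ℕ) + 1) ^ (Fintype.card Ω) := by
  unfold inn
  rw [Pi.card_Icc]
  have h1 : ∀ ω : Ω, (Finset.Icc (N : ℤ) ((M : ℤ) - N)).card = M - 2 * N + 1 := by
    intro ω
    rw [Int.card_Icc]
    omega
  have h2 : ∏ ω : Ω, (Finset.Icc (N : ℤ) ((M : ℤ) - N)).card = (M - 2 * N + 1) ^ Fintype.card Ω := by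
    rw [Finset.prod_congr rfl fun ω _ => h1 ω]
    simp
  rw [h2]
  push_cast [Nat.cast_sub h]
  rfl

lemma sum_inn (M N : ℕ) (h : 2 * N ≤ M) (F : S → ℝ) :
    (((M : ℝ) - 2 * (N : ℕ) + 1) / (M + 1)) ^ (Fintype.card Ω) * ∑ s, F s
      = ∑ i : St S Ω M, (if (i.2 : Ω → ℤ) ∈ inn Ω M N then F i.1 / (Bx Ω M).card else 0) := by
  rw [Fintype.sum_prod_type, Finset.mul_sum]
  refine Finset.sum_congr rfl fun s _ => ?_
  simp only
  rw [Finset.sum_coe_sort (Bx Ω M) (fun y => if y ∈ inn Ω M N then F s / (Bx Ω M).card else 0),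
    ← Finset.sum_filter, Finset.filter_mem_eq_inter, Finset.inter_eq_right.2 inn_sub,
    Finset.sum_const, nsmul_eq_mul, card_inn M N h, card_Bx, div_pow]
  ring

lemma PPpow_nonneg (hν : ∀ w, 0 ≤ ν w) (M t : ℕ) (i j : St S Ω M) :
    0 ≤ (PP A bar ν M ^ t) i j := by
  induction t generalizing i j with
  | zero =>
    rw [pow_zero, Matrix.one_apply]
    split_ifs
    · exact zero_le_one
    · exact le_rfl
  | succ t ih =>
    rw [pow_succ', Matrix.mul_apply]
    exact Finset.sum_nonneg fun k _ => mul_nonneg (PP_nonneg hν M i k) (ih k j)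

omit [Fintype S] in
lemma stepK_eq (w w' : Ω) : stepK A bar ν w w' = cc A ν (A (bar w)) w' := by
  unfold stepK cc nS
  by_cases h : A w' = A (bar w)
  · rw [if_pos h, if_pos h, h]
  · rw [if_neg h, if_neg h]

lemma claim2 (T : ℕ) (a : Ω → ℝ) (v : V) :
    ∑ w : Fin (T + 1) → Ω, a (w 0) * (∏ t : Fin T, stepK A bar ν (w t.castSucc) (w t.succ))
        * q (v + ∑ t, g (w t)) ^ p
      = ∑ w, a w * H A bar ν q p g T (A (bar w)) (v + g w) := by
  induction T generalizing a v with
  | zero =>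
    rw [← (Equiv.funUnique (Fin 1) Ω).symm.sum_comp]
    refine Finset.sum_congr rfl fun w _ => ?_
    simp [H]
  | succ T ih =>
    rw [← (Fin.consEquiv (fun _ => Ω)).sum_comp, Fintype.sum_prod_type]
    refine Finset.sum_congr rfl fun w0 _ => ?_
    show _ = a w0 * ∑ w, cc A ν (A (bar w0)) w * H A bar ν q p g T (A (bar w)) (v + g w0 + g w)
    have h := ih (fun w => cc A ν (A (bar w0)) w) (v + g w0)
    rw [← h, Finset.mul_sum]
    refine Finset.sum_congr rfl fun w' _ => ?_
    have e : ((Fin.consEquiv (fun _ => Ω)) (w0, w') : Fin (T + 2) → Ω) = Fin.cons w0 w' := rfl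
    rw [e, Fin.prod_univ_succ, Fin.sum_univ_succ]
    simp only [Fin.cons_zero, Fin.cons_succ, Fin.castSucc_zero, Fin.succ_zero_eq_one]
    have e2 : ∀ t : Fin T, (Fin.cons w0 w' : Fin (T + 2) → Ω) (Fin.castSucc (Fin.succ t))
        = w' t.castSucc := by
      intro t
      rw [← Fin.succ_castSucc, Fin.cons_succ]
    simp only [e2]
    rw [stepK_eq]
    have e3 : (Fin.cons w0 w' : Fin (T + 2) → Ω) 1 = w' 0 := rfl
    rw [e3, ← add_assoc]
    ring

end

theorem lin : S_LIN := by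
  intro V _ _ q p K hp hK hM S Ω _ _ _ _ A bar ν g hb hν h1 hνb hg T
  set X : ℝ := ∑ w : Fin (T + 1) → Ω, pathW A bar ν T w * q (∑ t, g (w t)) ^ p with hX
  set C : ℝ := ∑ w, ν w * q (g w) ^ p with hC
  have hXH : X = ∑ s, nS A ν s * H A bar ν q p g (T + 1) s 0 := by
    have h := claim2 (A := A) (bar := bar) (ν := ν) (q := q) (p := p) (g := g) T ν 0
    simp only [zero_add] at h
    have e1 : X = ∑ w, ν w * H A bar ν q p g T (A (bar w)) (g w) := by
      rw [← h]
      rfl
    rw [e1]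
    have e2 : ∀ s, nS A ν s * H A bar ν q p g (T + 1) s 0
        = ∑ w, (if A w = s then ν w else 0) * H A bar ν q p g T (A (bar w)) (g w) := by
      intro s
      show nS A ν s * ∑ w, cc A ν s w * H A bar ν q p g T (A (bar w)) (0 + g w) = _
      rw [Finset.mul_sum]
      refine Finset.sum_congr rfl fun w _ => ?_
      rw [← mul_assoc, nS_mul_cc hν, zero_add]
    simp only [e2]
    rw [Finset.sum_comm]
    refine Finset.sum_congr rfl fun w _ => ?_
    rw [← Finset.sum_mul]
    simp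
  have hH0 : ∀ s, 0 ≤ nS A ν s * H A bar ν q p g (T + 1) s 0 := fun s =>
    mul_nonneg (nS_nonneg hν s) (H_nonneg hν _ _ _)
  have hX0 : 0 ≤ X := by
    rw [hXH]
    exact Finset.sum_nonneg fun s _ => hH0 s
  have hp0 : p ≠ 0 := by linarith
  have main : ∀ M : ℕ, 2 * (T + 1) ≤ M →
      (((M : ℝ) - 2 * (T + 1 : ℕ) + 1) / (M + 1)) ^ (Fintype.card Ω) * X
        ≤ K ^ p * (T + 1 : ℕ) * C := by
    intro M hMT
    have hm := hM (St S Ω M) (pi' A ν M) (PP A bar ν M)
      (fun i => div_nonneg (nS_nonneg hν _) (card_pos (Ω := Ω) M).le)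
      (by
        unfold pi'
        rw [sum_box M (nS A ν)]
        exact sum_nS h1)
      (PP_nonneg hν M) (PP_row M)
      (by
        intro i j
        unfold pi'
        rw [div_mul_eq_mul_div, div_mul_eq_mul_div, reversible hb hν hνb])
      (ff g M) (T + 1) (by omega)
    -- right-hand side
    have hr : ∑ i, ∑ j, pi' A ν M i * PP A bar ν M i j * q (ff g M j - ff g M i) ^ p ≤ C := by
      have e1 : ∀ i : St S Ω M, ∑ j, pi' A ν M i * PP A bar ν M i j * q (ff g M j - ff g M i) ^ p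
          ≤ (∑ w, (if A w = i.1 then ν w else 0) * q (g w) ^ p) / (Bx Ω M).card := by
        intro i
        have e2 : ∑ j, pi' A ν M i * PP A bar ν M i j * q (ff g M j - ff g M i) ^ p
            = pi' A ν M i * ∑ j, PP A bar ν M i j * q (ff g M j - ff g M i) ^ p := by
          rw [Finset.mul_sum]
          refine Finset.sum_congr rfl fun j _ => by ring
        rw [e2, PP_sum M i (fun j => q (ff g M j - ff g M i) ^ p), sub_self, map_zero,
          Real.zero_rpow hp0, mul_zero, add_zero]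
        unfold pi'
        rw [div_mul_eq_mul_div, Finset.mul_sum]
        apply div_le_div_of_nonneg_right _ (card_pos (Ω := Ω) M).le
        refine Finset.sum_le_sum fun w _ => ?_
        rw [← mul_assoc, nS_mul_cc hν]
        apply mul_le_mul_of_nonneg_left
        · by_cases hbx : (i.2 : Ω → ℤ) + dlt bar w ∈ Bx Ω M
          · rw [ff_mv hg M i w hbx, add_sub_cancel_left]
          · have e3 : mv A bar M i w = i := by
              unfold mv
              rw [dif_neg hbx]
            rw [e3, sub_self, map_zero, Real.zero_rpow hp0]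
            exact Real.rpow_nonneg (apply_nonneg q _) p
        · split_ifs
          · exact hν w
          · exact le_rfl
      refine (Finset.sum_le_sum fun i _ => e1 i).trans ?_
      rw [sum_box M (fun s => ∑ w, (if A w = s then ν w else 0) * q (g w) ^ p)]
      rw [Finset.sum_comm]
      refine Finset.sum_le_sum fun w _ => ?_
      rw [← Finset.sum_mul]
      simp
    -- left-hand side
    have hl : (((M : ℝ) - 2 * (T + 1 : ℕ) + 1) / (M + 1)) ^ (Fintype.card Ω) * X
        ≤ ∑ i, ∑ j, pi' A ν M i * (PP A bar ν M ^ (T + 1)) i j * q (ff g M j - ff g M i) ^ p := by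
      have hL : ∀ i : St S Ω M,
          (if (i.2 : Ω → ℤ) ∈ inn Ω M (T + 1) then
            nS A ν i.1 * H A bar ν q p g (T + 1) i.1 0 / (Bx Ω M).card else 0)
          ≤ ∑ j, pi' A ν M i * (PP A bar ν M ^ (T + 1)) i j * q (ff g M j - ff g M i) ^ p := by
        intro i
        have e2 : ∑ j, pi' A ν M i * (PP A bar ν M ^ (T + 1)) i j * q (ff g M j - ff g M i) ^ p
            = pi' A ν M i * ∑ j, (PP A bar ν M ^ (T + 1)) i j * q (ff g M j - ff g M i) ^ p := by
          rw [Finset.mul_sum]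
          refine Finset.sum_congr rfl fun j _ => by ring
        split_ifs with hi
        · rw [e2]
          by_cases h0 : nS A ν i.1 = 0
          · unfold pi'
            rw [h0]
            simp
          · rw [claim1 hν hνb hg M (T + 1) i (inn_mem hi) h0 (ff g M i), sub_self]
            unfold pi'
            rw [div_mul_eq_mul_div]
        · refine Finset.sum_nonneg fun j _ => ?_
          exact mul_nonneg (mul_nonneg (div_nonneg (nS_nonneg hν _) (card_pos (Ω := Ω) M).le)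
            (PPpow_nonneg hν M _ i j)) (Real.rpow_nonneg (apply_nonneg q _) p)
      refine le_trans (le_of_eq ?_) (Finset.sum_le_sum fun i _ => hL i)
      rw [hXH]
      exact sum_inn M (T + 1) hMT (fun s => nS A ν s * H A bar ν q p g (T + 1) s 0)
    calc _ ≤ _ := hl
      _ ≤ _ := hm
      _ ≤ _ := mul_le_mul_of_nonneg_left hr (by positivity)
  have hlim : Tendsto (fun M : ℕ => (((M : ℝ) - 2 * (T + 1 : ℕ) + 1) / (M + 1))
      ^ (Fintype.card Ω) * X) atTop (𝓝 (1 ^ (Fintype.card Ω) * X)) := by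
    apply Tendsto.mul_const
    apply Tendsto.pow
    have h1 : Tendsto (fun M : ℕ => 1 - (2 * ((T + 1 : ℕ) : ℝ)) / ((M : ℝ) + 1)) atTop
        (𝓝 (1 - 0)) := by
      apply Tendsto.sub tendsto_const_nhds
      apply Tendsto.div_atTop tendsto_const_nhds
      exact tendsto_atTop_add_const_right _ _ tendsto_natCast_atTop_atTop
    rw [sub_zero] at h1
    refine h1.congr fun M => ?_
    have : (M : ℝ) + 1 ≠ 0 := by positivity
    field_simp
    ring
  rw [one_pow, one_mul] at hlim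
  exact le_of_tendsto hlim (eventually_atTop.2 ⟨2 * (T + 1), main⟩)

end

end Vale.Agent.P125.LIN
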