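import Vale.Agent.P125.Plan

/-!
# P125, module MEAS: approximately spreadable measures on increasing tuples

The iterated ultralimit over a nonprincipal ultrafilter is an exactly spreadable mean; a separation
argument in `ℓ¹` turns it into finitely supported, approximately spreadable measures.
-/

namespace Vale.Agent.P125.MEAS

open Finset Filter Topology

noncomputable section

/-! ### Iterated ultralimits -/

/-- Limit along the hyperfilter. -/
def ulim (h : ℕ → ℝ) : ℝ := limUnder (hyperfilter ℕ : Filter ℕ) h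

lemma tendsto_ulim {h : ℕ → ℝ} {C : ℝ} (hC : ∀ n, |h n| ≤ C) :
    Tendsto h (hyperfilter ℕ) (𝓝 (ulim h)) := by
  have hc : IsCompact (Set.Icc (-C) C) := isCompact_Icc
  have h1 : (((hyperfilter ℕ).map h : Ultrafilter ℝ) : Filter ℝ) ≤ 𝓟 (Set.Icc (-C) C) := by
    rw [le_principal_iff, Ultrafilter.coe_map, Filter.mem_map]
    exact Filter.mem_of_superset Filter.univ_mem (fun n _ => abs_le.mp (hC n))
  obtain ⟨x, -, hx⟩ := hc.ultrafilter_le_nhds ((hyperfilter ℕ).map h) h1
  exact tendsto_nhds_limUnder ⟨x, hx⟩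

lemma ulim_const (c : ℝ) : ulim (fun _ => c) = c :=
  tendsto_const_nhds.limUnder_eq

lemma abs_ulim_le {h : ℕ → ℝ} {C : ℝ} (hC : ∀ n, |h n| ≤ C) : |ulim h| ≤ C :=
  le_of_tendsto (tendsto_ulim hC).abs (Eventually.of_forall hC)

/-- The iterated limit. -/
def Lam : (k : ℕ) → ((Fin k → ℕ) → ℝ) → ℝ
  | 0, F => F Fin.elim0
  | k + 1, F => ulim fun x => Lam k fun g => F (Fin.cons x g : Fin (k + 1) → ℕ)

lemma abs_Lam_le : ∀ (k : ℕ) (F : (Fin k → ℕ) → ℝ) (C : ℝ), (∀ g, |F g| ≤ C) → |Lam k F| ≤ C
  | 0, F, C, h => h _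
  | k + 1, F, C, h => abs_ulim_le fun x => abs_Lam_le k _ C fun g => h _

lemma Lam_const : ∀ (k : ℕ) (c : ℝ), Lam k (fun _ => c) = c
  | 0, c => rfl
  | k + 1, c => by
      simp only [Lam, Lam_const k c]
      exact ulim_const c

lemma Lam_sub : ∀ (k : ℕ) (F F' : (Fin k → ℕ) → ℝ) (C C' : ℝ), (∀ g, |F g| ≤ C) →
    (∀ g, |F' g| ≤ C') → Lam k (fun g => F g - F' g) = Lam k F - Lam k F'
  | 0, F, F', C, C', h, h' => rfl
  | k + 1, F, F', C, C', h, h' => by
      have e : ∀ x : ℕ, Lam k (fun g => F (Fin.cons x g : Fin (k + 1) → ℕ)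
            - F' (Fin.cons x g : Fin (k + 1) → ℕ))
          = Lam k (fun g => F (Fin.cons x g : Fin (k + 1) → ℕ))
            - Lam k (fun g => F' (Fin.cons x g : Fin (k + 1) → ℕ)) :=
        fun x => Lam_sub k _ _ C C' (fun g => h _) (fun g => h' _)
      simp only [Lam, e]
      have h1 := tendsto_ulim (h := fun x => Lam k fun g => F (Fin.cons x g : Fin (k + 1) → ℕ))
        (C := C) (fun x => abs_Lam_le k _ C fun g => h _)
      have h2 := tendsto_ulim (h := fun x => Lam k fun g => F' (Fin.cons x g : Fin (k + 1) → ℕ))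
        (C := C') (fun x => abs_Lam_le k _ C' fun g => h' _)
      exact (h1.sub h2).limUnder_eq

lemma Lam_add : ∀ (k : ℕ) (F F' : (Fin k → ℕ) → ℝ) (C C' : ℝ), (∀ g, |F g| ≤ C) →
    (∀ g, |F' g| ≤ C') → Lam k (fun g => F g + F' g) = Lam k F + Lam k F'
  | 0, F, F', C, C', h, h' => rfl
  | k + 1, F, F', C, C', h, h' => by
      have e : ∀ x : ℕ, Lam k (fun g => F (Fin.cons x g : Fin (k + 1) → ℕ)
            + F' (Fin.cons x g : Fin (k + 1) → ℕ))
          = Lam k (fun g => F (Fin.cons x g : Fin (k + 1) → ℕ))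
            + Lam k (fun g => F' (Fin.cons x g : Fin (k + 1) → ℕ)) :=
        fun x => Lam_add k _ _ C C' (fun g => h _) (fun g => h' _)
      simp only [Lam, e]
      have h1 := tendsto_ulim (h := fun x => Lam k fun g => F (Fin.cons x g : Fin (k + 1) → ℕ))
        (C := C) (fun x => abs_Lam_le k _ C fun g => h _)
      have h2 := tendsto_ulim (h := fun x => Lam k fun g => F' (Fin.cons x g : Fin (k + 1) → ℕ))
        (C := C') (fun x => abs_Lam_le k _ C' fun g => h' _)
      exact (h1.add h2).limUnder_eq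

lemma Lam_sum {ι : Type*} (s : Finset ι) (k : ℕ) (F : ι → (Fin k → ℕ) → ℝ) (C : ℝ)
    (h : ∀ i g, |F i g| ≤ C) : Lam k (fun g => ∑ i ∈ s, F i g) = ∑ i ∈ s, Lam k (F i) := by
  classical
  induction s using Finset.induction_on with
  | empty => simp only [Finset.sum_empty]; exact Lam_const k 0
  | insert a s ha ih =>
      simp only [Finset.sum_insert ha]
      rw [Lam_add k (F a) (fun g => ∑ i ∈ s, F i g) C (s.card * C) (h a) (fun g => ?_), ih]
      refine (Finset.abs_sum_le_sum_abs _ _).trans ?_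
      calc ∑ i ∈ s, |F i g| ≤ ∑ _i ∈ s, C := Finset.sum_le_sum fun i _ => h i g
        _ = s.card * C := by rw [Finset.sum_const, nsmul_eq_mul]

lemma strictMono_cons {k x : ℕ} {g : Fin k → ℕ} (hg : StrictMono g) (hx : ∀ i, x + 1 ≤ g i) :
    StrictMono (Fin.cons x g : Fin (k + 1) → ℕ) := by
  intro a b hab
  refine Fin.cases ?_ (fun b => ?_) b (motive := fun b => a < b → (Fin.cons x g : Fin (k + 1) → ℕ) a
    < (Fin.cons x g : Fin (k + 1) → ℕ) b) hab
  · intro h
    exact absurd h (Fin.not_lt_zero a)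
  · refine Fin.cases ?_ (fun a => ?_) a
    · intro _
      rw [Fin.cons_zero, Fin.cons_succ]
      exact Nat.lt_of_succ_le (hx b)
    · intro h
      rw [Fin.cons_succ, Fin.cons_succ]
      exact hg (Fin.succ_lt_succ_iff.mp h)

lemma Lam_ge : ∀ (k : ℕ) (P : (Fin k → ℕ) → ℝ) (C u : ℝ) (N : ℕ), (∀ g, |P g| ≤ C) →
    (∀ g, StrictMono g → (∀ i, N ≤ g i) → u ≤ P g) → u ≤ Lam k P
  | 0, P, C, u, N, _, h => h _ (fun i => i.elim0) (fun i => i.elim0)
  | k + 1, P, C, u, N, hC, h => by
      refine ge_of_tendsto (tendsto_ulim (C := C) fun x => abs_Lam_le k _ C fun g => hC _) ?_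
      have hN : ∀ᶠ x in (hyperfilter ℕ : Filter ℕ), N ≤ x :=
        Nat.hyperfilter_le_atTop (eventually_ge_atTop N)
      filter_upwards [hN] with x hx
      refine Lam_ge k _ C u (x + 1) (fun g => hC _) fun g hg hgx => ?_
      refine h _ (strictMono_cons hg hgx) fun i => ?_
      refine Fin.cases ?_ (fun i => ?_) i
      · rw [Fin.cons_zero]; exact hx
      · rw [Fin.cons_succ]; exact hx.trans (by have := hgx i; omega)

lemma Lam_comp : ∀ (L m : ℕ) (φ : Fin m → Fin L) (F : (Fin m → ℕ) → ℝ), StrictMono φ →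
    Lam L (fun G => F (G ∘ φ)) = Lam m F
  | 0, m, φ, F, _ => by
      have hm : m = 0 := by
        rcases Nat.eq_zero_or_pos m with h | h
        · exact h
        · exact (φ ⟨0, h⟩).elim0
      subst hm
      simp only [Lam]
      congr 1
  | L + 1, 0, φ, F, _ => by
      have : (fun G : Fin (L + 1) → ℕ => F (G ∘ φ)) = fun _ => F Fin.elim0 := by
        funext G; congr 1; exact Subsingleton.elim _ _
      rw [this, Lam_const]
      rfl
  | L + 1, m + 1, φ, F, hφ => by
      by_cases h0 : φ 0 = 0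
      · have hne : ∀ i : Fin m, φ i.succ ≠ 0 := by
          intro i h
          have := hφ (Fin.succ_pos i)
          rw [h0, h] at this
          exact lt_irrefl _ this
        set φ' : Fin m → Fin L := fun i => (φ i.succ).pred (hne i) with hφ'
        have hm : StrictMono φ' := by
          intro a b hab
          rw [hφ', Fin.pred_lt_pred_iff]
          exact hφ (Fin.succ_lt_succ_iff.mpr hab)
        have e : ∀ (x : ℕ) (g : Fin L → ℕ), (Fin.cons x g : Fin (L + 1) → ℕ) ∘ φ
            = (Fin.cons x (g ∘ φ') : Fin (m + 1) → ℕ) := by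
          intro x g
          funext i
          refine Fin.cases ?_ (fun i => ?_) i
          · rw [Function.comp_apply, h0, Fin.cons_zero, Fin.cons_zero]
          · rw [Function.comp_apply, Fin.cons_succ, Function.comp_apply]
            have : φ i.succ = (φ' i).succ := by rw [hφ']; simp
            rw [this, Fin.cons_succ]
        simp only [Lam, e]
        congr 1
        funext x
        exact Lam_comp L m φ' (fun g => F (Fin.cons x g : Fin (m + 1) → ℕ)) hm
      · have hne : ∀ i : Fin (m + 1), φ i ≠ 0 := by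
          intro i h
          have h1 : φ 0 ≤ φ i := hφ.monotone (Fin.zero_le i)
          rw [h] at h1
          exact h0 (le_antisymm h1 (Fin.zero_le _))
        set φ' : Fin (m + 1) → Fin L := fun i => (φ i).pred (hne i) with hφ'
        have hm : StrictMono φ' := by
          intro a b hab
          rw [hφ', Fin.pred_lt_pred_iff]
          exact hφ hab
        have e : ∀ (x : ℕ) (g : Fin L → ℕ), (Fin.cons x g : Fin (L + 1) → ℕ) ∘ φ = g ∘ φ' := by
          intro x g
          funext i
          rw [Function.comp_apply, Function.comp_apply]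
          have : φ i = (φ' i).succ := by rw [hφ']; simp
          rw [this, Fin.cons_succ]
        have h1 := Lam_comp L (m + 1) φ' F hm
        conv_lhs => simp only [Lam]
        simp only [e]
        rw [h1, ulim_const]

/-! ### Separation in `ℓ¹` -/

open scoped Classical in
/-- The vector of differences of the marginals of the point mass at `G`. -/
def vv (m L : ℕ) (G : Fin L → ℕ) :
    lp (fun _ : ((Fin m → Fin L) × (Fin m → Fin L)) × (Fin m → ℕ) => ℝ) 1 :=
  ∑ pr : (Fin m → Fin L) × (Fin m → Fin L),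
    if StrictMono pr.1 ∧ StrictMono pr.2 then
      lp.single 1 (pr, G ∘ pr.1) (1 : ℝ) - lp.single 1 (pr, G ∘ pr.2) (1 : ℝ) else 0

open scoped Classical in
lemma vv_apply (m L : ℕ) (G : Fin L → ℕ) (φ ψ : Fin m → Fin L) (hφ : StrictMono φ)
    (hψ : StrictMono ψ) (H : Fin m → ℕ) :
    vv m L G ((φ, ψ), H) = (if G ∘ φ = H then 1 else 0) - (if G ∘ ψ = H then 1 else 0) := by
  unfold vv
  rw [lp.coeFn_sum, Finset.sum_apply, Finset.sum_eq_single (φ, ψ)]
  · rw [if_pos ⟨hφ, hψ⟩, lp.coeFn_sub, Pi.sub_apply, lp.coeFn_single, lp.coeFn_single,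
      Pi.single_apply, Pi.single_apply]
    congr 1
    · by_cases h : G ∘ φ = H
      · rw [if_pos (by rw [h]), if_pos h]
      · rw [if_neg (fun hh => h (Prod.ext_iff.mp hh).2.symm), if_neg h]
    · by_cases h : G ∘ ψ = H
      · rw [if_pos (by rw [h]), if_pos h]
      · rw [if_neg (fun hh => h (Prod.ext_iff.mp hh).2.symm), if_neg h]
  · intro b _ hb
    split_ifs with h
    · rw [lp.coeFn_sub, Pi.sub_apply, lp.coeFn_single, lp.coeFn_single,
        Pi.single_apply, Pi.single_apply, if_neg, if_neg, sub_zero]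
      · exact fun hh => hb (Prod.ext_iff.mp hh).1.symm
      · exact fun hh => hb (Prod.ext_iff.mp hh).1.symm
    · rfl
  · intro h
    exact absurd (Finset.mem_univ _) h

lemma zero_mem_closure (m L : ℕ) :
    (0 : lp (fun _ : ((Fin m → Fin L) × (Fin m → Fin L)) × (Fin m → ℕ) => ℝ) 1) ∈
      closure (convexHull ℝ {v | ∃ G : Fin L → ℕ, StrictMono G ∧ vv m L G = v}) := by
  classical
  by_contra hcon
  obtain ⟨f, u, h0, hu⟩ := geometric_hahn_banach_point_closed
    ((convex_convexHull ℝ _).closure) isClosed_closure hcon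
  rw [map_zero] at h0
  set F : (Fin m → Fin L) × (Fin m → Fin L) → (Fin m → ℕ) → ℝ := fun pr H =>
    f (lp.single 1 (pr, H) (1 : ℝ)) with hF
  have hFb : ∀ pr H, |F pr H| ≤ ‖f‖ := by
    intro pr H
    have h1 := f.le_opNorm (lp.single 1 (pr, H) (1 : ℝ))
    rw [lp.norm_single (by norm_num), norm_one, mul_one] at h1
    exact h1
  set P : (Fin L → ℕ) → ℝ := fun G => ∑ pr : (Fin m → Fin L) × (Fin m → Fin L),
    if StrictMono pr.1 ∧ StrictMono pr.2 then F pr (G ∘ pr.1) - F pr (G ∘ pr.2) else 0 with hP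
  have hfP : ∀ G, f (vv m L G) = P G := by
    intro G
    rw [vv, map_sum]
    refine Finset.sum_congr rfl fun pr _ => ?_
    split_ifs
    · rw [map_sub]
    · exact map_zero f
  have hC : ∀ (pr : (Fin m → Fin L) × (Fin m → Fin L)) (G : Fin L → ℕ),
      |if StrictMono pr.1 ∧ StrictMono pr.2 then F pr (G ∘ pr.1) - F pr (G ∘ pr.2) else 0|
        ≤ ‖f‖ + ‖f‖ := by
    intro pr G
    split_ifs
    · exact (abs_sub _ _).trans (add_le_add (hFb _ _) (hFb _ _))
    · rw [abs_zero]; positivity
  have h1 : Lam L P = 0 := by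
    rw [hP, Lam_sum _ L _ (‖f‖ + ‖f‖) hC]
    refine Finset.sum_eq_zero fun pr _ => ?_
    by_cases h : StrictMono pr.1 ∧ StrictMono pr.2
    · simp only [if_pos h]
      rw [Lam_sub L _ _ ‖f‖ ‖f‖ (fun g => hFb _ _) (fun g => hFb _ _),
        Lam_comp L m pr.1 (F pr) h.1, Lam_comp L m pr.2 (F pr) h.2, sub_self]
    · simp only [if_neg h]
      exact Lam_const L 0
  have h2 : u ≤ Lam L P := by
    refine Lam_ge L P (∑ _pr : (Fin m → Fin L) × (Fin m → Fin L), (‖f‖ + ‖f‖)) u 0
      (fun g => (Finset.abs_sum_le_sum_abs _ _).trans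
        (Finset.sum_le_sum fun pr _ => hC pr g)) fun G hG _ => ?_
    rw [← hfP]
    exact (hu _ (subset_closure (subset_convexHull ℝ _ ⟨G, hG, rfl⟩))).le
  rw [h1] at h2
  exact absurd h0 (not_lt.mpr h2)

/-! ### The measures -/

open scoped Classical in
/-- Module MEAS. -/
theorem meas : S_MEAS := by
  intro m L ε hε
  obtain ⟨c, hc, hcn⟩ := Metric.mem_closure_iff.mp (zero_mem_closure m L) ε hε
  rw [dist_comm, dist_zero_right] at hcn
  rw [_root_.convexHull_eq] at hc
  obtain ⟨ι, t, w, z, hw0, hw1, hz, hcm⟩ := hc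
  rw [Finset.centerMass_eq_of_sum_1 _ _ hw1] at hcm
  choose! G hG hGz using hz
  set B : ℕ := (t.sup fun i => Finset.univ.sup fun k => G i k) + 1 with hB
  have hlt : ∀ i ∈ t, ∀ k, G i k < B := by
    intro i hi k
    rw [hB, Nat.lt_succ_iff]
    exact (Finset.le_sup (f := fun k => G i k) (Finset.mem_univ k)).trans
      (Finset.le_sup (f := fun i => Finset.univ.sup fun k => G i k) hi)
  set μ : (Fin L → Fin B) → ℝ := fun g => ∑ i ∈ t, if (fun k => (g k : ℕ)) = G i then w i else 0
    with hμ
  -- marginals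
  have hmarg : ∀ (Q : (Fin L → Fin B) → Prop) (Q' : (Fin L → ℕ) → Prop) [DecidablePred Q]
      [DecidablePred Q'], (∀ g, Q g ↔ Q' (fun k => (g k : ℕ))) →
      (∑ g, if Q g then μ g else 0) = ∑ i ∈ t, if Q' (G i) then w i else 0 := by
    intro Q Q' _ _ hQ
    have e1 : ∀ g, (if Q g then μ g else 0)
        = ∑ i ∈ t, if Q g ∧ (fun k => (g k : ℕ)) = G i then w i else 0 := by
      intro g
      by_cases h : Q g
      · rw [if_pos h, hμ]
        refine Finset.sum_congr rfl fun i _ => ?_
        simp only [h, true_and]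
      · rw [if_neg h]
        exact (Finset.sum_eq_zero fun i _ => if_neg fun hh => h hh.1).symm
    rw [Finset.sum_congr rfl fun g _ => e1 g, Finset.sum_comm]
    refine Finset.sum_congr rfl fun i hi => ?_
    set g0 : Fin L → Fin B := fun k => ⟨G i k, hlt i hi k⟩ with hg0
    have hg0' : (fun k => (g0 k : ℕ)) = G i := rfl
    rw [Finset.sum_eq_single g0]
    · by_cases h : Q' (G i)
      · rw [if_pos h, if_pos]
        exact ⟨(hQ g0).mpr (by rw [hg0']; exact h), hg0'⟩
      · rw [if_neg h, if_neg]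
        rintro ⟨h1, -⟩
        exact h (by rw [← hg0']; exact (hQ g0).mp h1)
    · intro g _ hg
      refine if_neg fun hh => hg ?_
      funext k
      exact Fin.ext (congrFun hh.2 k)
    · intro h
      exact absurd (Finset.mem_univ _) h
  refine ⟨B, μ, fun g => Finset.sum_nonneg fun i hi => ?_, ?_, ?_, ?_⟩
  · split_ifs
    · exact hw0 i hi
    · exact le_rfl
  · have := hmarg (fun _ => True) (fun _ => True) (fun _ => Iff.rfl)
    simp only [if_true] at this
    rw [this, hw1]
  · intro g hg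
    obtain ⟨i, hi, hne⟩ := Finset.exists_ne_zero_of_sum_ne_zero hg
    have h1 : (fun k => (g k : ℕ)) = G i := by
      by_contra h
      exact hne (if_neg h)
    intro a b hab
    have h2 := hG i hi hab
    rw [← h1] at h2
    exact h2
  · intro φ ψ hφ hψ
    have hco : ∀ H : Fin m → Fin B,
        (∑ g, if g ∘ φ = H then μ g else 0) - (∑ g, if g ∘ ψ = H then μ g else 0)
          = c ((φ, ψ), fun k => (H k : ℕ)) := by
      intro H
      have hQ : ∀ (χ : Fin m → Fin L) (g : Fin L → Fin B),
          g ∘ χ = H ↔ (fun k => (g k : ℕ)) ∘ χ = fun k => (H k : ℕ) := by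
        intro χ g
        constructor
        · intro h
          rw [← h]
          rfl
        · intro h
          funext k
          exact Fin.ext (congrFun h k)
      rw [hmarg _ (fun g => g ∘ φ = fun k => (H k : ℕ)) (hQ φ),
        hmarg _ (fun g => g ∘ ψ = fun k => (H k : ℕ)) (hQ ψ), ← Finset.sum_sub_distrib, ← hcm,
        lp.coeFn_sum, Finset.sum_apply]
      refine Finset.sum_congr rfl fun i hi => ?_
      rw [lp.coeFn_smul, Pi.smul_apply, ← hGz i hi, vv_apply m L (G i) φ ψ hφ hψ, smul_eq_mul,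
        mul_sub]
      congr 1
      · split_ifs <;> simp
      · split_ifs <;> simp
    simp only [hco]
    have hinj : Function.Injective (fun H : Fin m → Fin B =>
        (((φ, ψ), fun k => (H k : ℕ)) : ((Fin m → Fin L) × (Fin m → Fin L)) × (Fin m → ℕ))) := by
      intro H H' h
      funext k
      exact Fin.ext (congrFun (Prod.ext_iff.mp h).2 k)
    have h3 := lp.sum_rpow_le_norm_rpow (p := 1) (by norm_num) c (Finset.univ.map ⟨_, hinj⟩)
    rw [Finset.sum_map] at h3
    simp only [ENNReal.toReal_one, Real.rpow_one, Function.Embedding.coeFn_mk,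
      Real.norm_eq_abs] at h3
    exact h3.trans hcn.le

end

end Vale.Agent.P125.MEAS
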