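import Vale.Agent.P125.Plan

/-!
# P125, module NEST

Along a path whose labels are good the own gaps are nested; the end points of the nested gaps form
groups and the flattening lemma applies.
-/

namespace Vale.Agent.P125.NEST

open Finset
open Vale.Agent.P125

noncomputable section

/-- accumulated shift of the gap index. -/
def sft (i i' τ : ℕ → ℕ) : ℕ → ℤ
  | 0 => 0
  | (t + 1) => sft i i' τ t + τ t - (if i' t + 2 ≤ i (t + 1) then 1 else 0)

theorem sft_bound (i i' τ : ℕ → ℕ) (T : ℕ) (h : ∀ t < T, τ t ≤ 1) :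
    ∀ t, t < T → |sft i i' τ t| ≤ t := by
  intro t
  induction t with
  | zero => intro _; simp [sft]
  | succ t ih =>
      intro ht
      have h1 := ih (by omega)
      have h2 := h t (by omega)
      rw [abs_le] at h1 ⊢
      simp only [sft]
      push_cast
      split_ifs <;> constructor <;> omega

/-- index of the own gap of nest `ρ` at time `t`. -/
def idx (s : ℕ → ℤ) (t ρ : ℕ) : ℕ := ((ρ : ℤ) + s t).toNat

theorem sum_pairs {V : Type*} [AddCommMonoid V] (h : ℕ → V) (a n : ℕ) :
    ∑ g ∈ Ico (2 * a) (2 * (a + n)), h g = ∑ ρ ∈ Ico a (a + n), (h (2 * ρ) + h (2 * ρ + 1)) := by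
  induction n with
  | zero => simp
  | succ n ih =>
      have e1 : 2 * (a + (n + 1)) = 2 * (a + n) + 1 + 1 := by ring
      have e2 : a + (n + 1) = (a + n) + 1 := by ring
      rw [e1, sum_Ico_succ_top (by omega), sum_Ico_succ_top (by omega), ih, e2,
        sum_Ico_succ_top (by omega), add_assoc]

theorem sum_pairs' {V : Type*} [AddCommMonoid V] (h : ℕ → V) (a b : ℕ) :
    ∑ g ∈ Ico (2 * a) (2 * b), h g = ∑ ρ ∈ Ico a b, (h (2 * ρ) + h (2 * ρ + 1)) := by
  rcases le_total a b with hab | hab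
  · obtain ⟨n, rfl⟩ := Nat.exists_eq_add_of_le hab
    exact sum_pairs h a n
  · rw [Ico_eq_empty_of_le hab, Ico_eq_empty_of_le (by omega)]
    simp

section Nested

variable {T D R : ℕ} {e : ℕ → ℕ → ℕ} {i i' τ : ℕ → ℕ}
  (hT : 1 ≤ T) (hD : 4 ≤ D)
  (he : ∀ t < T, StrictMonoOn (e t) (Set.Iic (D * R)))
  (hi : ∀ t < T, i t < D ∧ i' t < D ∧ τ t ≤ 1)
  (hs : ∀ t, t + 1 < T → StepRel D R (e t) (i t) (τ t) (e (t + 1)) (i' t))
  (hg : ∀ t, t + 1 < T → GoodLab D (i' t) (i (t + 1)))

include hi in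
theorem sft_b : ∀ t < T, |sft i i' τ t| ≤ t := by
  intro t ht
  exact sft_bound i i' τ T (fun t ht => (hi t ht).2.2) t ht

include hi in
theorem idx_spec {t ρ : ℕ} (ht : t < T) (h1 : T + 1 ≤ ρ) (_h2 : ρ < R - T - 1) :
    (idx (sft i i' τ) t ρ : ℤ) = ρ + sft i i' τ t := by
  have hb := sft_b hi t ht
  rw [abs_le] at hb
  unfold idx
  rw [Int.toNat_of_nonneg]
  omega

/-- left end point. -/
def Lf (D : ℕ) (e : ℕ → ℕ → ℕ) (i i' τ : ℕ → ℕ) (t ρ : ℕ) : ℕ :=
  e t (D * idx (sft i i' τ) t ρ + i t)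

/-- right end point. -/
def Rt (D : ℕ) (e : ℕ → ℕ → ℕ) (i i' τ : ℕ → ℕ) (t ρ : ℕ) : ℕ :=
  e t (D * idx (sft i i' τ) t ρ + i t + 1)

theorem mul_add_lt {D a b x y : ℕ} (h : (a < b ∧ x < D + y) ∨ (a = b ∧ x < y)) :
    D * a + x < D * b + y := by
  rcases h with ⟨h1, h2⟩ | ⟨h1, h2⟩
  · have : D * (a + 1) ≤ D * b := Nat.mul_le_mul_left D h1
    have e : D * (a + 1) = D * a + D := by ring
    omega
  · subst h1; omega

theorem mul_add_le {D R a x : ℕ} (h : a < R) (hx : x ≤ D) : D * a + x ≤ D * R := by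
  have : D * (a + 1) ≤ D * R := Nat.mul_le_mul_left D h
  have e : D * (a + 1) = D * a + D := by ring
  omega

include hi he hs hg in
theorem step_lt {t ρ : ℕ} (ht : t + 1 < T) (h1 : T + 1 ≤ ρ) (h2 : ρ < R - T - 1) :
    Lf D e i i' τ t ρ < Lf D e i i' τ (t + 1) ρ ∧ Rt D e i i' τ (t + 1) ρ < Rt D e i i' τ t ρ := by
  have ht' : t < T := by omega
  have b1 := sft_b hi t ht'
  have b2 := sft_b hi (t + 1) ht
  have s1 := idx_spec hi ht' h1 h2
  have s2 := idx_spec hi ht h1 h2
  have hst : sft i i' τ (t + 1) = sft i i' τ t + τ t - (if i' t + 2 ≤ i (t + 1) then 1 else 0) := rfl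
  rw [abs_le] at b1 b2
  obtain ⟨i1, i2, i3⟩ := hi t ht'
  obtain ⟨j1, j2, j3⟩ := hi (t + 1) ht
  obtain ⟨r1, r2⟩ := hs t ht
  have g := hg t ht
  set r := idx (sft i i' τ) t ρ with hr
  set r' := idx (sft i i' τ) (t + 1) ρ with hr'
  have hrR : r < R := by omega
  have hr'R : r' < R := by omega
  have q1 := r1 r hrR (by omega) (by omega)
  have q2 := r2 r hrR (by omega)
  have hm := he (t + 1) ht
  have u1 : Lf D e i i' τ t ρ = e (t + 1) (D * (r + τ t - 1) + i' t + 1) := q1
  have u2 : Rt D e i i' τ t ρ = e (t + 1) (D * (r + τ t) + i' t) := q2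
  have u3 : Lf D e i i' τ (t + 1) ρ = e (t + 1) (D * r' + i (t + 1)) := rfl
  have u4 : Rt D e i i' τ (t + 1) ρ = e (t + 1) (D * r' + i (t + 1) + 1) := rfl
  rw [u1, u2, u3, u4]
  have m1 : D * (r + τ t - 1) + i' t + 1 ∈ Set.Iic (D * R) := by
    have := mul_add_le (D := D) (R := R) (a := r + τ t - 1) (x := i' t + 1) (by omega) (by omega)
    exact this
  have m2 : D * (r + τ t) + i' t ∈ Set.Iic (D * R) :=
    mul_add_le (D := D) (R := R) (a := r + τ t) (x := i' t) (by omega) (by omega)
  have m3 : D * r' + i (t + 1) ∈ Set.Iic (D * R) :=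
    mul_add_le (D := D) (R := R) (a := r') (x := i (t + 1)) (by omega) (by omega)
  have m4 : D * r' + i (t + 1) + 1 ∈ Set.Iic (D * R) :=
    mul_add_le (D := D) (R := R) (a := r') (x := i (t + 1) + 1) (by omega) (by omega)
  unfold GoodLab at g
  constructor
  · apply hm m1 m3
    have : D * (r + τ t - 1) + (i' t + 1) < D * r' + i (t + 1) := by
      apply mul_add_lt
      split_ifs at hst with hc
      · right; omega
      · left; omega
    omega
  · apply hm m4 m2
    have : D * r' + (i (t + 1) + 1) < D * (r + τ t) + i' t := by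
      apply mul_add_lt
      split_ifs at hst with hc
      · left; omega
      · right; omega
    omega

include hi he hs hg in
theorem nested {ρ : ℕ} (h1 : T + 1 ≤ ρ) (h2 : ρ < R - T - 1) (t : ℕ) :
    ∀ n, t + n < T → Lf D e i i' τ t ρ + n ≤ Lf D e i i' τ (t + n) ρ ∧
      Rt D e i i' τ (t + n) ρ + n ≤ Rt D e i i' τ t ρ := by
  intro n
  induction n with
  | zero => intro _; simp
  | succ n ih =>
      intro hn
      have h3 := ih (by omega)
      have h4 := step_lt he hi hs hg (t := t + n) (by omega) h1 h2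
      have : t + (n + 1) = t + n + 1 := by ring
      rw [this]
      omega

include hi he in
theorem own_lt {t ρ : ℕ} (ht : t < T) (h1 : T + 1 ≤ ρ) (h2 : ρ < R - T - 1) :
    Lf D e i i' τ t ρ < Rt D e i i' τ t ρ := by
  have b1 := sft_b hi t ht
  have s1 := idx_spec hi ht h1 h2
  obtain ⟨i1, i2, i3⟩ := hi t ht
  rw [abs_le] at b1
  set r := idx (sft i i' τ) t ρ with hr
  have hrR : r < R := by omega
  have hm := he t ht
  have u3 : Lf D e i i' τ t ρ = e t (D * r + i t) := rfl
  have u4 : Rt D e i i' τ t ρ = e t (D * r + i t + 1) := rfl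
  rw [u3, u4]
  apply hm
  · exact mul_add_le (D := D) (R := R) (a := r) (x := i t) (by omega) (by omega)
  · exact mul_add_le (D := D) (R := R) (a := r) (x := i t + 1) (by omega) (by omega)
  · omega

include hT hD hi he in
theorem outer_lt {ρ ρ' : ℕ} (h1 : T + 1 ≤ ρ) (h2 : ρ' < R - T - 1) (hρ : ρ < ρ') :
    Rt D e i i' τ 0 ρ < Lf D e i i' τ 0 ρ' := by
  have ht : 0 < T := hT
  have s1 := idx_spec (R := R) hi ht h1 (by omega)
  have s2 := idx_spec (R := R) hi ht (ρ := ρ') (by omega) h2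
  have hz : sft i i' τ 0 = 0 := rfl
  obtain ⟨i1, i2, i3⟩ := hi 0 ht
  have u3 : Lf D e i i' τ 0 ρ' = e 0 (D * idx (sft i i' τ) 0 ρ' + i 0) := rfl
  have u4 : Rt D e i i' τ 0 ρ = e 0 (D * idx (sft i i' τ) 0 ρ + i 0 + 1) := rfl
  rw [u3, u4]
  set r := idx (sft i i' τ) 0 ρ with hr
  set r' := idx (sft i i' τ) 0 ρ' with hr'
  apply he 0 ht
  · exact mul_add_le (D := D) (R := R) (a := r) (x := i 0 + 1) (by omega) (by omega)
  · exact mul_add_le (D := D) (R := R) (a := r') (x := i 0) (by omega) (by omega)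
  · have : D * r + (i 0 + 1) < D * r' + i 0 := by
      apply mul_add_lt
      left; omega
    omega

include hT hi he hs hg in
/-- every left end point of the nest is below every right end point. -/
theorem left_lt_right {ρ : ℕ} (h1 : T + 1 ≤ ρ) (h2 : ρ < R - T - 1) {t t' : ℕ} (ht : t < T)
    (ht' : t' < T) : Lf D e i i' τ t ρ < Rt D e i i' τ t' ρ := by
  have a1 := nested he hi hs hg h1 h2 t (T - 1 - t) (by omega)
  have a2 := nested he hi hs hg h1 h2 t' (T - 1 - t') (by omega)
  have e1 : t + (T - 1 - t) = T - 1 := by omega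
  have e2 : t' + (T - 1 - t') = T - 1 := by omega
  rw [e1] at a1
  rw [e2] at a2
  have a3 := own_lt he hi (t := T - 1) (by omega) h1 h2
  omega

include hT hD hi he hs hg in
/-- end points of different nests. -/
theorem right_lt_left {ρ ρ' : ℕ} (h1 : T + 1 ≤ ρ) (h2 : ρ' < R - T - 1) (hρ : ρ < ρ') {t t' : ℕ}
    (ht : t < T) (ht' : t' < T) : Rt D e i i' τ t ρ < Lf D e i i' τ t' ρ' := by
  have a1 := nested he hi hs hg (ρ := ρ) h1 (by omega) 0 t (by omega)
  have a2 := nested he hi hs hg (ρ := ρ') (by omega) h2 0 t' (by omega)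
  have a3 := outer_lt hT hD he hi h1 h2 hρ
  rw [zero_add] at a1 a2
  omega

end Nested

/-- reindexing of a port vector. -/
theorem vec_eq {T D R : ℕ} {f : ℤ → ℝ}
    (hf : ∀ j : ℤ, (j < 4 * T + 4 ∨ 2 * R - 4 * T - 4 ≤ j) → f j = 0)
    {e : ℕ → ℕ → ℕ} {i i' τ : ℕ → ℕ} (hi : ∀ t < T, i t < D ∧ i' t < D ∧ τ t ≤ 1)
    {t : ℕ} (ht : t < T) :
    vec D R f (e t) (i t) (τ t) = ∑ ρ ∈ Ico (T + 1) (R - T - 1),
      (Finsupp.single (Rt D e i i' τ t ρ) (f (2 * ρ + 1 + (2 * sft i i' τ t + τ t)))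
        - Finsupp.single (Lf D e i i' τ t ρ) (f (2 * ρ + (2 * sft i i' τ t + τ t)))) := by
  have hb := sft_b hi t ht
  rw [abs_le] at hb
  obtain ⟨i1, i2, i3⟩ := hi t ht
  unfold vec
  symm
  have hinj : Set.InjOn (idx (sft i i' τ) t) (Ico (T + 1) (R - T - 1) : Finset ℕ) := by
    intro x hx y hy hxy
    rw [Finset.mem_coe, mem_Ico] at hx hy
    have s1 := idx_spec hi ht hx.1 hx.2
    have s2 := idx_spec hi ht hy.1 hy.2
    omega
  have key : ∀ ρ ∈ Ico (T + 1) (R - T - 1),
      (Finsupp.single (Rt D e i i' τ t ρ) (f (2 * ρ + 1 + (2 * sft i i' τ t + τ t)))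
        - Finsupp.single (Lf D e i i' τ t ρ) (f (2 * ρ + (2 * sft i i' τ t + τ t))) : ℕ →₀ ℝ)
      = (fun r : ℕ => Finsupp.single (e t (D * r + i t + 1)) (f (2 * r + 1 + τ t))
    - Finsupp.single (e t (D * r + i t)) (f (2 * r + τ t))) (idx (sft i i' τ) t ρ) := by
    intro ρ hρ
    rw [mem_Ico] at hρ
    have s1 := idx_spec hi ht hρ.1 hρ.2
    simp only [Rt, Lf]
    rw [s1]
    have e1 : (2 * (ρ : ℤ) + 1 + (2 * sft i i' τ t + τ t)) = 2 * (ρ + sft i i' τ t) + 1 + τ t := by
      ring
    have e2 : (2 * (ρ : ℤ) + (2 * sft i i' τ t + τ t)) = 2 * (ρ + sft i i' τ t) + τ t := by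
      ring
    rw [e1, e2]
  rw [sum_congr rfl key, ← sum_image (f := fun r : ℕ =>
    Finsupp.single (e t (D * r + i t + 1)) (f (2 * r + 1 + τ t))
    - Finsupp.single (e t (D * r + i t)) (f (2 * r + τ t))) hinj]
  apply sum_subset
  · intro r hr
    rw [mem_image] at hr
    obtain ⟨ρ, hρ, rfl⟩ := hr
    rw [mem_Ico] at hρ
    have s1 := idx_spec hi ht hρ.1 hρ.2
    rw [mem_range]
    omega
  · intro r hr hr'
    rw [mem_range] at hr
    have hz : ((r : ℤ) - sft i i' τ t) < T + 1 ∨ (R : ℤ) - T - 1 ≤ r - sft i i' τ t := by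
      by_contra hcon
      push Not at hcon
      apply hr'
      rw [mem_image]
      refine ⟨((r : ℤ) - sft i i' τ t).toNat, ?_, ?_⟩
      · rw [mem_Ico]
        omega
      · unfold idx
        omega
    have z1 : f (2 * r + 1 + τ t) = 0 := by
      apply hf
      omega
    have z2 : f (2 * r + τ t) = 0 := by
      apply hf
      omega
    simp [z1, z2]

/-- the time in slot `u` of the group `g`. -/
def tm (T g u : ℕ) : ℕ := if g % 2 = 0 then u else T - 1 - u

theorem sum_tm {V : Type*} [AddCommMonoid V] (T g : ℕ) (h : ℕ → V) :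
    ∑ u ∈ range T, h (tm T g u) = ∑ t ∈ range T, h t := by
  unfold tm
  split_ifs with hg
  · rfl
  · exact sum_range_reflect h T

theorem nest (hFLAT : S_FLAT) : S_NEST := by
  intro T D R hT hD f hf e i i' τ he hi hs hg
  refine ⟨fun t => 2 * sft i i' τ t + τ t, ?_, ?_⟩
  · intro t ht
    have hb := sft_b hi t ht
    obtain ⟨i1, i2, i3⟩ := hi t ht
    simp only
    rw [abs_le] at hb ⊢
    constructor <;> omega
  intro q hq hunit M hM
  set σ : ℕ → ℤ := fun t => 2 * sft i i' τ t + τ t with hσ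
  have hσb : ∀ t < T, |σ t| ≤ 2 * T + 1 - 2 := by
    intro t ht
    have hb := sft_b hi t ht
    obtain ⟨i1, i2, i3⟩ := hi t ht
    simp only [hσ]
    rw [abs_le] at hb ⊢
    constructor <;> omega
  set pos : ℕ → ℕ → ℕ := fun g u => if g % 2 = 0 then Lf D e i i' τ (tm T g u) (g / 2)
    else Rt D e i i' τ (tm T g u) (g / 2) with hpos
  set a : ℕ → ℕ → ℝ := fun g u => -((-1) ^ g * f (g + σ (tm T g u))) with ha
  have hmain := hFLAT q hq hunit T (Ico (2 * (T + 1)) (2 * (R - T - 1))) a pos hT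
    (by
      intro g hg1 g' hg2 u hu u' hu' hlt
      rw [mem_Ico] at hg1 hg2
      have b1 : T + 1 ≤ g / 2 := by omega
      have b2 : g / 2 < R - T - 1 := by omega
      have b1' : T + 1 ≤ g' / 2 := by omega
      have b2' : g' / 2 < R - T - 1 := by omega
      rcases hlt with hlt | ⟨rfl, hlt⟩
      · have htm : tm T g u < T := by unfold tm; split_ifs <;> omega
        have htm' : tm T g' u' < T := by unfold tm; split_ifs <;> omega
        rcases Nat.lt_or_ge (g / 2) (g' / 2) with hc | hc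
        · have k1 := right_lt_left hT hD he hi hs hg (ρ := g / 2) (ρ' := g' / 2) b1 b2' hc htm htm'
          have k2 := own_lt he hi (t := tm T g u) (ρ := g / 2) htm b1 b2
          have k3 := own_lt he hi (t := tm T g' u') (ρ := g' / 2) htm' b1' b2'
          simp only [hpos]
          split_ifs <;> omega
        · have hge : g' / 2 = g / 2 := by omega
          have p1 : g % 2 = 0 := by omega
          have p2 : ¬ (g' % 2 = 0) := by omega
          simp only [hpos]
          rw [if_pos p1, if_neg p2, hge]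
          exact left_lt_right hT he hi hs hg (ρ := g / 2) b1 b2 htm htm'
      · simp only [hpos, tm]
        split_ifs with hc
        · have k1 := nested he hi hs hg (ρ := g / 2) b1 b2 u (u' - u) (by omega)
          have : u + (u' - u) = u' := by omega
          rw [this] at k1
          omega
        · have k1 := nested he hi hs hg (ρ := g / 2) b1 b2 (T - 1 - u') (u' - u) (by omega)
          have : T - 1 - u' + (u' - u) = T - 1 - u := by omega
          rw [this] at k1
          omega) M hM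
  -- left hand side
  have hL : alt (2 * R) (fun j => ∑ t ∈ range T, f (j + σ t))
      = -∑ g ∈ Ico (2 * (T + 1)) (2 * (R - T - 1)),
          Finsupp.single g (∑ u ∈ range T, a g u) := by
    unfold alt
    rw [← sum_neg_distrib]
    symm
    have hsub : Ico (2 * (T + 1)) (2 * (R - T - 1)) ⊆ range (2 * R) := by
      intro g hg1
      rw [mem_Ico] at hg1
      rw [mem_range]
      omega
    have hz : ∀ g ∈ range (2 * R), g ∉ Ico (2 * (T + 1)) (2 * (R - T - 1)) →
        -Finsupp.single g (∑ u ∈ range T, a g u) = 0 := by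
      intro g hg1 hg2
      rw [mem_range] at hg1
      rw [mem_Ico] at hg2
      have : ∑ u ∈ range T, a g u = 0 := by
        simp only [ha]
        rw [sum_tm T g (fun t => -((-1) ^ g * f (g + σ t)))]
        apply sum_eq_zero
        intro t ht
        rw [mem_range] at ht
        have hb := hσb t ht
        rw [abs_le] at hb
        rw [hf (g + σ t) (by omega)]
        simp
      rw [this]
      simp
    rw [sum_subset hsub hz]
    apply sum_congr rfl
    intro g _
    simp only [ha]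
    rw [sum_tm T g (fun t => -((-1) ^ g * f (g + σ t))), sum_neg_distrib, Finsupp.single_neg,
      neg_neg, mul_sum]
  -- right hand side
  have hR : ∑ t ∈ range T, vec D R f (e t) (i t) (τ t)
      = ∑ g ∈ Ico (2 * (T + 1)) (2 * (R - T - 1)), ∑ u ∈ range T,
          Finsupp.single (pos g u) (a g u) := by
    have h1 : ∀ t ∈ range T, vec D R f (e t) (i t) (τ t)
        = ∑ ρ ∈ Ico (T + 1) (R - T - 1),
      (Finsupp.single (Rt D e i i' τ t ρ) (f (2 * ρ + 1 + σ t))
        - Finsupp.single (Lf D e i i' τ t ρ) (f (2 * ρ + σ t))) := by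
      intro t ht
      exact vec_eq hf hi (mem_range.1 ht)
    rw [sum_congr rfl h1, sum_comm, sum_pairs']
    apply sum_congr rfl
    intro ρ _
    have q1 : ∑ u ∈ range T, Finsupp.single (pos (2 * ρ) u) (a (2 * ρ) u)
        = ∑ t ∈ range T, -Finsupp.single (Lf D e i i' τ t ρ) (f (2 * ρ + σ t)) := by
      rw [← sum_tm T (2 * ρ) (fun t => -Finsupp.single (Lf D e i i' τ t ρ) (f (2 * ρ + σ t)))]
      apply sum_congr rfl
      intro u _
      have p1 : (2 * ρ) % 2 = 0 := by omega
      have p3 : (2 * ρ) / 2 = ρ := by omega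
      simp only [hpos, ha, p1, p3, if_true]
      rw [← Finsupp.single_neg]
      congr 1
      push_cast
      rw [pow_mul]
      norm_num
    have q2 : ∑ u ∈ range T, Finsupp.single (pos (2 * ρ + 1) u) (a (2 * ρ + 1) u)
        = ∑ t ∈ range T, Finsupp.single (Rt D e i i' τ t ρ) (f (2 * ρ + 1 + σ t)) := by
      rw [← sum_tm T (2 * ρ + 1) (fun t => Finsupp.single (Rt D e i i' τ t ρ)
        (f (2 * ρ + 1 + σ t)))]
      apply sum_congr rfl
      intro u _
      have p2 : ¬ ((2 * ρ + 1) % 2 = 0) := by omega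
      have p4 : (2 * ρ + 1) / 2 = ρ := by omega
      simp only [hpos, ha, p4, if_neg p2]
      congr 1
      push_cast
      rw [pow_succ, pow_mul]
      norm_num
    rw [q1, q2, sum_sub_distrib, sum_neg_distrib]
    abel
  -- error term
  have hE : ∑ g ∈ Ico (2 * (T + 1)) (2 * (R - T - 1)), ∑ u ∈ range T, |a g u|
      ≤ T * ∑ j ∈ range (2 * R), |f j| := by
    have h1 : ∀ g ∈ Ico (2 * (T + 1)) (2 * (R - T - 1)), ∑ u ∈ range T, |a g u|
        = ∑ t ∈ range T, |f (g + σ t)| := by
      intro g _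
      rw [← sum_tm T g (fun t => |f (g + σ t)|)]
      apply sum_congr rfl
      intro u _
      simp only [ha]
      rw [abs_neg, abs_mul, abs_pow, abs_neg, abs_one, one_pow, one_mul]
    rw [sum_congr rfl h1, sum_comm]
    have h2 : ∀ t ∈ range T, ∑ g ∈ Ico (2 * (T + 1)) (2 * (R - T - 1)), |f (g + σ t)|
        ≤ ∑ j ∈ range (2 * R), |f j| := by
      intro t ht
      have hb := hσb t (mem_range.1 ht)
      rw [abs_le] at hb
      have h3 : ∀ g ∈ Ico (2 * (T + 1)) (2 * (R - T - 1)), |f (g + σ t)|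
          = (fun j : ℕ => |f j|) ((g : ℤ) + σ t).toNat := by
        intro g hg1
        rw [mem_Ico] at hg1
        simp only
        rw [Int.toNat_of_nonneg (by omega)]
      have hinj : Set.InjOn (fun g : ℕ => ((g : ℤ) + σ t).toNat)
          (Ico (2 * (T + 1)) (2 * (R - T - 1)) : Finset ℕ) := by
        intro x hx y hy hxy
        rw [Finset.mem_coe, mem_Ico] at hx hy
        simp only at hxy
        omega
      rw [sum_congr rfl h3, ← sum_image (g := fun g : ℕ => ((g : ℤ) + σ t).toNat)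
        (f := fun j : ℕ => |f j|) hinj]
      apply sum_le_sum_of_subset_of_nonneg
      · intro r hr
        rw [mem_image] at hr
        obtain ⟨g, hg1, rfl⟩ := hr
        rw [mem_Ico] at hg1
        rw [mem_range]
        omega
      · intro _ _ _
        exact abs_nonneg _
    calc _ ≤ ∑ t ∈ range T, ∑ j ∈ range (2 * R), |f j| := sum_le_sum h2
      _ = _ := by rw [sum_const, card_range, nsmul_eq_mul]
  rw [hL, map_neg, map_neg_eq_map, hR]
  refine hmain.trans ?_
  have hnn : (0 : ℝ) ≤ 2 * T / M := by positivity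
  have := mul_le_mul_of_nonneg_left hE hnn
  linarith

end

end Vale.Agent.P125.NEST
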