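import Vale.Agent.P125.Plan

/-!
# P125, module PROB: path measure of the walk on a multigraph
-/

namespace Vale.Agent.P125

open Finset

namespace Prob

variable {S Ω : Type} [Fintype S] [DecidableEq S] [Fintype Ω] [DecidableEq Ω]
variable (A : Ω → S) (bar : Ω → Ω) (ν : Ω → ℝ)

/-- vertex mass -/
noncomputable def vm (v : S) : ℝ := ∑ η, if A η = v then ν η else 0

omit [Fintype S] [DecidableEq Ω] in
theorem vm_nonneg (hν : ∀ w, 0 ≤ ν w) (v : S) : 0 ≤ vm A ν v := by
  unfold vm
  exact sum_nonneg fun w _ => by split_ifs <;> simp [hν]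

omit [Fintype S] [DecidableEq Ω] in
theorem le_vm (hν : ∀ w, 0 ≤ ν w) (w : Ω) : ν w ≤ vm A ν (A w) := by
  unfold vm
  have h0 : ∀ i ∈ univ, 0 ≤ (if A i = A w then ν i else 0) := by
    intro i _
    split_ifs
    · exact hν i
    · exact le_rfl
  have h := single_le_sum (f := fun η => if A η = A w then ν η else 0) h0 (mem_univ w)
  simpa using h

omit [Fintype S] [DecidableEq Ω] in
theorem stepK_nonneg (hν : ∀ w, 0 ≤ ν w) (w w' : Ω) : 0 ≤ stepK A bar ν w w' := by
  unfold stepK
  split_ifs
  · exact div_nonneg (hν _) (vm_nonneg A ν hν _)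
  · exact le_rfl

omit [Fintype S] [DecidableEq Ω] in
theorem sum_stepK (w : Ω) (h : vm A ν (A (bar w)) ≠ 0) : ∑ x, stepK A bar ν w x = 1 := by
  have h1 : ∀ x, stepK A bar ν w x = (if A x = A (bar w) then ν x else 0) / vm A ν (A (bar w)) := by
    intro x
    unfold stepK
    split_ifs with hx
    · rw [hx]; rfl
    · simp
  simp only [h1]
  rw [← sum_div]
  exact div_self h

omit [Fintype S] [DecidableEq Ω] in
theorem pathW_nonneg (hν : ∀ w, 0 ≤ ν w) (T : ℕ) (w : Fin (T + 1) → Ω) :
    0 ≤ pathW A bar ν T w := by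
  unfold pathW
  exact mul_nonneg (hν _) (prod_nonneg fun t _ => stepK_nonneg A bar ν hν _ _)

omit [Fintype S] [DecidableEq Ω] in
theorem pathW_snoc (T : ℕ) (w : Fin (T + 1) → Ω) (x : Ω) :
    pathW A bar ν (T + 1) (Fin.snoc w x : Fin (T + 2) → Ω)
      = pathW A bar ν T w * stepK A bar ν (w (Fin.last T)) x := by
  unfold pathW
  rw [Fin.prod_univ_castSucc, ← mul_assoc]
  have h0 : (Fin.snoc w x : Fin (T + 2) → Ω) 0 = w 0 := by
    have : (0 : Fin (T + 2)) = Fin.castSucc (0 : Fin (T + 1)) := rfl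
    rw [this, Fin.snoc_castSucc]
  have h1 : ∀ t : Fin T, stepK A bar ν ((Fin.snoc w x : Fin (T + 2) → Ω) t.castSucc.castSucc)
      ((Fin.snoc w x : Fin (T + 2) → Ω) t.castSucc.succ)
      = stepK A bar ν (w t.castSucc) (w t.succ) := by
    intro t
    rw [Fin.snoc_castSucc, Fin.succ_castSucc, Fin.snoc_castSucc]
  have h2 : (Fin.snoc w x : Fin (T + 2) → Ω) (Fin.last T).castSucc = w (Fin.last T) := by
    rw [Fin.snoc_castSucc]
  have h3 : (Fin.snoc w x : Fin (T + 2) → Ω) (Fin.last T).succ = x := by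
    rw [Fin.succ_last, Fin.snoc_last]
  rw [h0, h2, h3]
  simp only [h1]

omit [Fintype S] [DecidableEq S] [DecidableEq Ω] in
theorem sum_snoc (T : ℕ) (F : (Fin (T + 2) → Ω) → ℝ) :
    ∑ w, F w = ∑ w : Fin (T + 1) → Ω, ∑ x, F (Fin.snoc w x : Fin (T + 2) → Ω) := by
  classical
  rw [← (Fin.snocEquiv (fun _ : Fin (T + 2) => Ω)).sum_comp F, Fintype.sum_prod_type, sum_comm]
  rfl

omit [Fintype S] [DecidableEq Ω] in
theorem nu_eq_zero (hν : ∀ w, 0 ≤ ν w) (hbar : ∀ w, ν (bar w) = ν w) (w : Ω)
    (h : vm A ν (A (bar w)) = 0) : ν w = 0 := by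
  have := le_vm A ν hν (bar w)
  rw [h, hbar] at this
  exact le_antisymm this (hν w)

omit [Fintype S] [DecidableEq Ω] in
theorem pathW_last_zero (T : ℕ) (w : Fin (T + 1) → Ω) (h : ν (w (Fin.last T)) = 0) :
    pathW A bar ν T w = 0 := by
  cases T with
  | zero =>
    unfold pathW
    have : (0 : Fin 1) = Fin.last 0 := rfl
    rw [this, h, zero_mul]
  | succ T =>
    unfold pathW
    rw [Fin.prod_univ_castSucc]
    have : stepK A bar ν (w (Fin.last T).castSucc) (w (Fin.last T).succ) = 0 := by
      rw [Fin.succ_last]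
      unfold stepK
      rw [h]
      simp
    rw [this]
    simp

omit [Fintype S] [DecidableEq Ω] in
theorem pathW_mul_sum (hν : ∀ w, 0 ≤ ν w) (hbar : ∀ w, ν (bar w) = ν w) (T : ℕ)
    (w : Fin (T + 1) → Ω) :
    pathW A bar ν T w * ∑ x, stepK A bar ν (w (Fin.last T)) x = pathW A bar ν T w := by
  by_cases h : vm A ν (A (bar (w (Fin.last T)))) = 0
  · rw [pathW_last_zero A bar ν T w (nu_eq_zero A bar ν hν hbar _ h), zero_mul]
  · rw [sum_stepK A bar ν _ h, mul_one]

omit [Fintype S] [DecidableEq Ω] in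
/-- invariance -/
theorem sum_nu_stepK (hb : ∀ w, bar (bar w) = w) (hν : ∀ w, 0 ≤ ν w)
    (hbar : ∀ w, ν (bar w) = ν w) (x : Ω) :
    ∑ a, ν a * stepK A bar ν a x = ν x := by
  have hinv : Function.Involutive bar := hb
  have h1 : ∑ a, ν a * stepK A bar ν a x = ∑ a, ν (bar a) * stepK A bar ν (bar a) x :=
    (Equiv.sum_comp (hinv.toPerm bar) (fun a => ν a * stepK A bar ν a x)).symm
  rw [h1]
  have h2 : ∀ a, ν (bar a) * stepK A bar ν (bar a) x
      = (if A a = A x then ν a else 0) * (ν x / vm A ν (A x)) := by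
    intro a
    unfold stepK
    rw [hb, hbar]
    by_cases h : A x = A a
    · rw [if_pos h, if_pos h.symm]; rfl
    · rw [if_neg h, if_neg (fun h' => h h'.symm)]; simp
  simp only [h2]
  rw [← sum_mul]
  change vm A ν (A x) * (ν x / vm A ν (A x)) = ν x
  by_cases h : vm A ν (A x) = 0
  · have : ν x = 0 := le_antisymm (h ▸ le_vm A ν hν x) (hν x)
    rw [this]; simp
  · field_simp

omit [Fintype S] [DecidableEq Ω] in
theorem marg_last (hb : ∀ w, bar (bar w) = w) (hν : ∀ w, 0 ≤ ν w)
    (hbar : ∀ w, ν (bar w) = ν w) (T : ℕ) : ∀ h : Ω → ℝ,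
    ∑ w : Fin (T + 1) → Ω, pathW A bar ν T w * h (w (Fin.last T)) = ∑ a, ν a * h a := by
  induction T with
  | zero =>
    intro h
    rw [← (Equiv.funUnique (Fin 1) Ω).symm.sum_comp]
    refine sum_congr rfl fun a _ => ?_
    unfold pathW
    simp
  | succ T ih =>
    intro h
    rw [sum_snoc]
    have h1 : ∀ w : Fin (T + 1) → Ω,
        ∑ x, pathW A bar ν (T + 1) (Fin.snoc w x : Fin (T + 2) → Ω)
          * h ((Fin.snoc w x : Fin (T + 2) → Ω) (Fin.last (T + 1)))
        = pathW A bar ν T w * (fun a => ∑ x, stepK A bar ν a x * h x) (w (Fin.last T)) := by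
      intro w
      simp only []
      rw [mul_sum]
      refine sum_congr rfl fun x _ => ?_
      rw [pathW_snoc, Fin.snoc_last, mul_assoc]
    rw [sum_congr rfl fun w _ => h1 w]
    refine (ih (fun a => ∑ x, stepK A bar ν a x * h x)).trans ?_
    simp only [mul_sum]
    rw [sum_comm]
    refine sum_congr rfl fun x _ => ?_
    calc ∑ a, ν a * (stepK A bar ν a x * h x) = (∑ a, ν a * stepK A bar ν a x) * h x := by
          rw [sum_mul]
          exact sum_congr rfl fun a _ => by ring
      _ = ν x * h x := by rw [sum_nu_stepK A bar ν hb hν hbar x]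

omit [Fintype S] [DecidableEq Ω] in
theorem marg_pair (hb : ∀ w, bar (bar w) = w) (hν : ∀ w, 0 ≤ ν w)
    (hbar : ∀ w, ν (bar w) = ν w) (c : Ω → Ω → ℝ) (T : ℕ) : ∀ t : Fin T,
    ∑ w : Fin (T + 1) → Ω, pathW A bar ν T w * c (w t.castSucc) (w t.succ)
      = ∑ a, ν a * ∑ b, stepK A bar ν a b * c a b := by
  induction T with
  | zero => exact fun t => t.elim0
  | succ T ih =>
    intro t
    rw [sum_snoc]
    refine Fin.lastCases ?_ (fun t => ?_) t
    · have h1 : ∀ w : Fin (T + 1) → Ω,
          ∑ x, pathW A bar ν (T + 1) (Fin.snoc w x : Fin (T + 2) → Ω)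
            * c ((Fin.snoc w x : Fin (T + 2) → Ω) (Fin.last T).castSucc)
              ((Fin.snoc w x : Fin (T + 2) → Ω) (Fin.last T).succ)
          = pathW A bar ν T w * (fun a => ∑ x, stepK A bar ν a x * c a x) (w (Fin.last T)) := by
        intro w
        simp only []
        rw [mul_sum]
        refine sum_congr rfl fun x _ => ?_
        rw [pathW_snoc, Fin.succ_last, Fin.snoc_last, Fin.snoc_castSucc, mul_assoc]
      rw [sum_congr rfl fun w _ => h1 w]
      exact marg_last A bar ν hb hν hbar T (fun a => ∑ x, stepK A bar ν a x * c a x)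
    · have h1 : ∀ w : Fin (T + 1) → Ω,
          ∑ x, pathW A bar ν (T + 1) (Fin.snoc w x : Fin (T + 2) → Ω)
            * c ((Fin.snoc w x : Fin (T + 2) → Ω) t.castSucc.castSucc)
              ((Fin.snoc w x : Fin (T + 2) → Ω) t.castSucc.succ)
          = pathW A bar ν T w * c (w t.castSucc) (w t.succ) := by
        intro w
        have : ∀ x, pathW A bar ν (T + 1) (Fin.snoc w x : Fin (T + 2) → Ω)
            * c ((Fin.snoc w x : Fin (T + 2) → Ω) t.castSucc.castSucc)
              ((Fin.snoc w x : Fin (T + 2) → Ω) t.castSucc.succ)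
            = pathW A bar ν T w * stepK A bar ν (w (Fin.last T)) x
              * c (w t.castSucc) (w t.succ) := by
          intro x
          rw [pathW_snoc, Fin.succ_castSucc, Fin.snoc_castSucc, Fin.snoc_castSucc]
        rw [sum_congr rfl fun x _ => this x, ← sum_mul, ← mul_sum,
          pathW_mul_sum A bar ν hν hbar]
      rw [sum_congr rfl fun w _ => h1 w]
      exact ih t

omit [DecidableEq Ω] in
/-- the bound for one pair -/
theorem pair_bound (hb : ∀ w, bar (bar w) = w) (hν : ∀ w, 0 ≤ ν w) (hsum : ∑ w, ν w = 1)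
    (hbar : ∀ w, ν (bar w) = ν w)
    (D : ℕ) (lab : Ω → ℕ) (ε : ℝ) (bad : ℕ → ℕ → Prop) [∀ a b, Decidable (bad a b)]
    (hlab : ∀ w, lab w < D)
    (hbad : ∀ a < D, ((range D).filter (fun b => bad a b)).card ≤ 3)
    (hε : ∑ i ∈ range D, ∑ v, |(∑ w, if A w = v ∧ lab w = i then ν w else 0)
        - (1 / (D : ℝ)) * ∑ w, if A w = v then ν w else 0| ≤ ε) :
    ∑ a, ν a * ∑ b, stepK A bar ν a b * (if bad (lab (bar a)) (lab b) then 1 else 0)
      ≤ 3 * (1 / D) + ε := by
  have hinv : Function.Involutive bar := hb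
  set n : S → ℕ → ℝ := fun v i => ∑ w, if A w = v ∧ lab w = i then ν w else 0 with hn
  set δ : S → ℝ := fun v => ∑ i ∈ range D, |n v i - (1 / (D : ℝ)) * vm A ν v| with hδ
  have hδ0 : ∀ v, 0 ≤ δ v := fun v => sum_nonneg fun i _ => abs_nonneg _
  have hδs : ∑ v, δ v ≤ ε := by
    rw [hδ, sum_comm]
    exact hε
  have h1 : ∑ a, ν a * ∑ b, stepK A bar ν a b * (if bad (lab (bar a)) (lab b) then 1 else 0)
      = ∑ a, ν a * ∑ b, stepK A bar ν (bar a) b * (if bad (lab a) (lab b) then (1:ℝ) else 0) := by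
    rw [← Equiv.sum_comp (hinv.toPerm bar) (fun a => ν a * ∑ b, stepK A bar ν a b *
      (if bad (lab (bar a)) (lab b) then (1:ℝ) else 0))]
    refine sum_congr rfl fun a _ => ?_
    change ν (bar a) * ∑ b, stepK A bar ν (bar a) b *
      (if bad (lab (bar (bar a))) (lab b) then (1:ℝ) else 0) = _
    rw [hbar, hb]
  rw [h1]
  have h2 : ∀ a, ∑ b, stepK A bar ν (bar a) b * (if bad (lab a) (lab b) then (1:ℝ) else 0)
      = (∑ j ∈ (range D).filter (fun j => bad (lab a) j), n (A a) j) / vm A ν (A a) := by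
    intro a
    have e1 : ∀ b, stepK A bar ν (bar a) b * (if bad (lab a) (lab b) then (1:ℝ) else 0)
        = (∑ j ∈ (range D).filter (fun j => bad (lab a) j),
            if A b = A a ∧ lab b = j then ν b else 0) / vm A ν (A a) := by
      intro b
      have e2 : stepK A bar ν (bar a) b = (if A b = A a then ν b else 0) / vm A ν (A a) := by
        unfold stepK
        rw [hb]
        split_ifs with h
        · rw [h]; rfl
        · simp
      rw [e2, div_mul_eq_mul_div]
      congr 1
      by_cases hA : A b = A a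
      · simp only [hA, true_and, if_true]
        by_cases hbd : bad (lab a) (lab b)
        · rw [if_pos hbd, mul_one, sum_eq_single (lab b)]
          · simp
          · intro j _ hj
            rw [if_neg (fun h => hj h.symm)]
          · intro hj
            exact absurd (mem_filter.2 ⟨mem_range.2 (hlab b), hbd⟩) hj
        · rw [if_neg hbd, mul_zero]
          symm
          refine sum_eq_zero fun j hj => ?_
          rw [if_neg]
          rintro rfl
          exact hbd (mem_filter.1 hj).2
      · simp [hA]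
    rw [sum_congr rfl fun b _ => e1 b, ← sum_div, sum_comm]
  have h3 : ∀ a, ν a * ∑ b, stepK A bar ν (bar a) b * (if bad (lab a) (lab b) then (1:ℝ) else 0)
      ≤ ν a * (3 * (1 / (D : ℝ)) + δ (A a) / vm A ν (A a)) := by
    intro a
    refine mul_le_mul_of_nonneg_left ?_ (hν a)
    rw [h2 a]
    by_cases hz : vm A ν (A a) = 0
    · rw [hz]
      simp only [div_zero, add_zero]
      positivity
    have hpos : 0 < vm A ν (A a) := lt_of_le_of_ne (vm_nonneg A ν hν _) (Ne.symm hz)
    rw [div_le_iff₀ hpos, add_mul, div_mul_cancel₀ _ hz]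
    calc ∑ j ∈ (range D).filter (fun j => bad (lab a) j), n (A a) j
        ≤ ∑ j ∈ (range D).filter (fun j => bad (lab a) j),
            ((1 / (D : ℝ)) * vm A ν (A a) + |n (A a) j - (1 / (D : ℝ)) * vm A ν (A a)|) := by
          refine sum_le_sum fun j _ => ?_
          have := le_abs_self (n (A a) j - (1 / (D : ℝ)) * vm A ν (A a))
          linarith
      _ = ((range D).filter (fun j => bad (lab a) j)).card * ((1 / (D : ℝ)) * vm A ν (A a))
          + ∑ j ∈ (range D).filter (fun j => bad (lab a) j),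
            |n (A a) j - (1 / (D : ℝ)) * vm A ν (A a)| := by
          rw [sum_add_distrib, sum_const, nsmul_eq_mul]
      _ ≤ 3 * (1 / (D : ℝ)) * vm A ν (A a) + δ (A a) := by
          refine add_le_add ?_ ?_
          · have hc : (((range D).filter (fun j => bad (lab a) j)).card : ℝ) ≤ 3 := by
              exact_mod_cast hbad (lab a) (hlab a)
            rw [mul_assoc]
            exact mul_le_mul_of_nonneg_right hc (by positivity)
          · exact sum_le_sum_of_subset_of_nonneg (filter_subset _ _) fun _ _ _ => abs_nonneg _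
  calc ∑ a, ν a * ∑ b, stepK A bar ν (bar a) b * (if bad (lab a) (lab b) then (1:ℝ) else 0)
      ≤ ∑ a, ν a * (3 * (1 / (D : ℝ)) + δ (A a) / vm A ν (A a)) := sum_le_sum fun a _ => h3 a
    _ = 3 * (1 / (D : ℝ)) + ∑ a, ν a * (δ (A a) / vm A ν (A a)) := by
        simp only [mul_add]
        rw [sum_add_distrib, ← sum_mul, hsum, one_mul]
    _ = 3 * (1 / (D : ℝ)) + ∑ v, vm A ν v * (δ v / vm A ν v) := by
        congr 1
        have : ∀ a, ν a * (δ (A a) / vm A ν (A a))
            = ∑ v, (if A a = v then ν a else 0) * (δ v / vm A ν v) := by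
          intro a
          rw [sum_eq_single (A a)]
          · simp
          · intro v _ hv
            rw [if_neg (fun h => hv h.symm), zero_mul]
          · intro h; exact absurd (mem_univ _) h
        rw [sum_congr rfl fun a _ => this a, sum_comm]
        refine sum_congr rfl fun v _ => ?_
        rw [← sum_mul]
        rfl
    _ ≤ 3 * (1 / (D : ℝ)) + ∑ v, δ v := by
        refine add_le_add le_rfl (sum_le_sum fun v _ => ?_)
        by_cases hz : vm A ν v = 0
        · rw [hz, zero_mul]; exact hδ0 v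
        · rw [mul_div_cancel₀ _ hz]
    _ ≤ 3 * (1 / D) + ε := by linarith

end Prob

/-- **PROB.** -/
theorem prob : S_PROB := by
  intro S Ω _ _ _ _ A bar ν hb hν hsum hbar T
  refine ⟨fun w => Prob.pathW_nonneg A bar ν hν T w, ?_, ?_⟩
  · have h := Prob.marg_last A bar ν hb hν hbar T (fun _ => 1)
    simpa [hsum] using h
  · intro D lab ε bad _ hD hlab hε hbad hdev
    have hc : ∀ w : Fin (T + 1) → Ω,
        pathW A bar ν T w *
          (if ∃ t : Fin T, bad (lab (bar (w t.castSucc))) (lab (w t.succ)) then 1 else 0)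
        ≤ ∑ t : Fin T, pathW A bar ν T w *
          (fun a b => if bad (lab (bar a)) (lab b) then (1:ℝ) else 0) (w t.castSucc) (w t.succ) := by
      intro w
      rw [← mul_sum]
      refine mul_le_mul_of_nonneg_left ?_ (Prob.pathW_nonneg A bar ν hν T w)
      split_ifs with h
      · obtain ⟨t, ht⟩ := h
        have := single_le_sum (f := fun t : Fin T =>
          (fun a b => if bad (lab (bar a)) (lab b) then (1:ℝ) else 0) (w t.castSucc) (w t.succ))
          (fun i _ => by dsimp only; split_ifs <;> norm_num) (mem_univ t)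
        refine le_trans ?_ this
        simp only []
        rw [if_pos ht]
      · exact sum_nonneg fun i _ => by dsimp only; split_ifs <;> norm_num
    calc _ ≤ ∑ w : Fin (T + 1) → Ω, ∑ t : Fin T, pathW A bar ν T w *
          (fun a b => if bad (lab (bar a)) (lab b) then (1:ℝ) else 0) (w t.castSucc) (w t.succ) :=
          sum_le_sum fun w _ => hc w
      _ = ∑ t : Fin T, ∑ w : Fin (T + 1) → Ω, pathW A bar ν T w *
          (fun a b => if bad (lab (bar a)) (lab b) then (1:ℝ) else 0) (w t.castSucc) (w t.succ) :=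
          sum_comm
      _ ≤ ∑ _t : Fin T, (3 * (1 / (D : ℝ)) + ε) := by
          refine sum_le_sum fun t _ => ?_
          exact (Prob.marg_pair A bar ν hb hν hbar
            (fun a b => if bad (lab (bar a)) (lab b) then (1:ℝ) else 0) T t).le.trans
            (Prob.pair_bound A bar ν hb hν hsum hbar D lab ε bad hlab hbad hdev)
      _ = T * (3 * (1 / (D : ℝ)) + ε) := by
          rw [sum_const, card_univ, Fintype.card_fin, nsmul_eq_mul]
      _ ≤ 3 * T * (1 / D + ε) := by
          have : (0:ℝ) ≤ T := Nat.cast_nonneg T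
          nlinarith [mul_nonneg this hε]

end Vale.Agent.P125
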