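import Vale.Agent.P125.Plan

/-!
# P125, module RENORM: an equivalent uniformly convex norm from tree values
-/

namespace Vale.Agent.P125
namespace Renorm

open Tr

variable {X : Type*} [NormedAddCommGroup X] [NormedSpace ℝ X]

/-- Negation of a tree. -/
def neg : Tr X → Tr X
  | .leaf x => .leaf (-x)
  | .mix l t s => .mix l (neg t) (neg s)
  | .big t s => .big (neg t) (neg s)

lemma root_neg (t : Tr X) : (neg t).root = - t.root := by
  induction t with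
  | leaf x => simp [neg, root]
  | mix l t s ht hs => simp only [neg, root, ht, hs, smul_neg]; abel
  | big t s ht hs => simp only [neg, root, ht, hs, smul_add, smul_neg]; abel

omit [NormedSpace ℝ X] in
lemma val_neg (t : Tr X) : (neg t).val = t.val := by
  induction t with
  | leaf x => simp [neg, val]
  | mix l t s ht hs => simp only [neg, val, ht, hs]
  | big t s ht hs => simp only [neg, val, ht, hs]

lemma valid_neg {ε : ℝ} (t : Tr X) (h : t.Valid ε) : (neg t).Valid ε := by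
  induction t with
  | leaf x => simpa [neg, Valid] using h
  | mix l t s ht hs =>
    obtain ⟨h1, h2, h3, h4⟩ := h
    exact ⟨h1, h2, ht h3, hs h4⟩
  | big t s ht hs =>
    obtain ⟨h1, h3, h4⟩ := h
    refine ⟨?_, ht h3, hs h4⟩
    rw [root_neg, root_neg, neg_sub_neg, norm_sub_rev]
    exact h1

lemma val_nonneg {ε : ℝ} (t : Tr X) (h : t.Valid ε) : 0 ≤ t.val := by
  induction t with
  | leaf x => simp [val]
  | mix l t s ht hs =>
    obtain ⟨h1, h2, h3, h4⟩ := h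
    have a := ht h3
    have b := hs h4
    simp only [val]
    have : 0 ≤ 1 - l := by linarith
    positivity
  | big t s ht hs =>
    obtain ⟨h1, h3, h4⟩ := h
    have a := ht h3
    have b := hs h4
    simp only [val]
    positivity

/-- The set of values of the valid trees with root `x`. -/
def vals (ε : ℝ) (x : X) : Set ℝ := {v | ∃ t : Tr X, t.Valid ε ∧ t.root = x ∧ t.val = v}

/-- The convex functional. -/
noncomputable def phi (ε : ℝ) (x : X) : ℝ := sInf (vals ε x)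

lemma bddBelow_vals (ε : ℝ) (x : X) : BddBelow (vals ε x) := by
  refine ⟨0, ?_⟩
  rintro v ⟨t, h1, -, rfl⟩
  exact val_nonneg t h1

lemma phi_le {ε : ℝ} (t : Tr X) (h : t.Valid ε) {x : X} (hx : t.root = x) : phi ε x ≤ t.val :=
  csInf_le (bddBelow_vals ε x) ⟨t, h, hx, rfl⟩

lemma nonempty_vals {ε : ℝ} {x : X} (hx : ‖x‖ ≤ 1) : (vals ε x).Nonempty :=
  ⟨1, .leaf x, hx, rfl, rfl⟩

lemma exists_tree {ε : ℝ} {x : X} (hx : ‖x‖ ≤ 1) {η : ℝ} (hη : 0 < η) :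
    ∃ t : Tr X, t.Valid ε ∧ t.root = x ∧ t.val < phi ε x + η := by
  have h : sInf (vals ε x) < phi ε x + η := by
    have : sInf (vals ε x) = phi ε x := rfl
    linarith
  obtain ⟨v, ⟨t, h1, h2, rfl⟩, hv⟩ := exists_lt_of_csInf_lt (nonempty_vals hx) h
  exact ⟨t, h1, h2, hv⟩

lemma phi_le_one {ε : ℝ} {x : X} (hx : ‖x‖ ≤ 1) : phi ε x ≤ 1 :=
  phi_le (.leaf x) hx rfl

lemma le_phi {ε c : ℝ} (hc : ∀ t : Tr X, t.Valid ε → c ≤ t.val) {x : X} (hx : ‖x‖ ≤ 1) :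
    c ≤ phi ε x := by
  refine le_csInf (nonempty_vals hx) ?_
  rintro v ⟨t, h1, -, rfl⟩
  exact hc t h1

lemma phi_neg_le {ε : ℝ} {x : X} (hx : ‖x‖ ≤ 1) : phi ε (-x) ≤ phi ε x := by
  refine le_of_forall_pos_le_add fun η hη => ?_
  obtain ⟨t, h1, h2, h3⟩ := exists_tree (ε := ε) hx hη
  have := phi_le (neg t) (valid_neg t h1) (x := -x) (by rw [root_neg, h2])
  rw [val_neg] at this
  linarith

lemma phi_neg {ε : ℝ} {x : X} (hx : ‖x‖ ≤ 1) : phi ε (-x) = phi ε x := by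
  refine le_antisymm (phi_neg_le hx) ?_
  have := phi_neg_le (ε := ε) (x := -x) (by rwa [norm_neg])
  rwa [neg_neg] at this

lemma phi_mix {ε : ℝ} {x y : X} (hx : ‖x‖ ≤ 1) (hy : ‖y‖ ≤ 1) {l : ℝ} (h0 : 0 ≤ l) (h1 : l ≤ 1) :
    phi ε (l • x + (1 - l) • y) ≤ l * phi ε x + (1 - l) * phi ε y := by
  refine le_of_forall_pos_le_add fun η hη => ?_
  obtain ⟨t, t1, t2, t3⟩ := exists_tree (ε := ε) hx hη
  obtain ⟨s, s1, s2, s3⟩ := exists_tree (ε := ε) hy hη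
  have := phi_le (ε := ε) (.mix l t s) ⟨h0, h1, t1, s1⟩ (x := l • x + (1 - l) • y)
    (by simp [root, t2, s2])
  have e : (Tr.mix l t s).val = l * t.val + (1 - l) * s.val := rfl
  rw [e] at this
  nlinarith

lemma phi_big {ε : ℝ} {x y : X} (hx : ‖x‖ ≤ 1) (hy : ‖y‖ ≤ 1) (hxy : ε ≤ ‖x - y‖) :
    phi ε ((1 / 2 : ℝ) • (x + y)) ≤ (1 / 4) * (phi ε x + phi ε y) := by
  refine le_of_forall_pos_le_add fun η hη => ?_
  obtain ⟨t, t1, t2, t3⟩ := exists_tree (ε := ε) hx hη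
  obtain ⟨s, s1, s2, s3⟩ := exists_tree (ε := ε) hy hη
  have := phi_le (ε := ε) (.big t s) ⟨by rwa [t2, s2], t1, s1⟩ (x := (1 / 2 : ℝ) • (x + y))
    (by simp [root, t2, s2])
  have e : (Tr.big t s).val = (1 / 4) * (t.val + s.val) := rfl
  rw [e] at this
  nlinarith

/-- `psi_k x = phi (1/(k+1)) x - phi (1/(k+1)) 0`. -/
noncomputable def psi (k : ℕ) (x : X) : ℝ := phi (1 / ((k : ℝ) + 1)) x - phi (1 / ((k : ℝ) + 1)) (0 : X)

lemma psi_nonneg (k : ℕ) {x : X} (hx : ‖x‖ ≤ 1) : 0 ≤ psi k x := by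
  have h := phi_mix (ε := 1 / ((k : ℝ) + 1)) hx (y := -x) (by rwa [norm_neg]) (l := 1 / 2)
    (by norm_num) (by norm_num)
  rw [phi_neg hx] at h
  have e : (1 / 2 : ℝ) • x + (1 - 1 / 2 : ℝ) • (-x) = 0 := by
    rw [smul_neg]; norm_num
  rw [e] at h
  unfold psi
  linarith

lemma phi_nonneg {ε : ℝ} {x : X} (hx : ‖x‖ ≤ 1) : 0 ≤ phi ε x :=
  le_phi (fun t ht => val_nonneg t ht) hx

lemma psi_le_one (k : ℕ) {x : X} (hx : ‖x‖ ≤ 1) : psi k x ≤ 1 := by
  have h1 := phi_le_one (ε := 1 / ((k : ℝ) + 1)) hx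
  have h2 := phi_nonneg (ε := 1 / ((k : ℝ) + 1)) (x := (0 : X)) (by simp)
  unfold psi
  linarith

lemma psi_zero (k : ℕ) : psi k (0 : X) = 0 := by simp [psi]

lemma psi_neg (k : ℕ) {x : X} (hx : ‖x‖ ≤ 1) : psi k (-x) = psi k x := by
  unfold psi; rw [phi_neg hx]

lemma psi_mix (k : ℕ) {x y : X} (hx : ‖x‖ ≤ 1) (hy : ‖y‖ ≤ 1) {l : ℝ} (h0 : 0 ≤ l) (h1 : l ≤ 1) :
    psi k (l • x + (1 - l) • y) ≤ l * psi k x + (1 - l) * psi k y := by
  have := phi_mix (ε := 1 / ((k : ℝ) + 1)) hx hy h0 h1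
  unfold psi
  linarith

lemma psi_big (k : ℕ) {c : ℝ} (hc : ∀ t : Tr X, t.Valid (1 / ((k : ℝ) + 1)) → c ≤ t.val)
    {x y : X} (hx : ‖x‖ ≤ 1) (hy : ‖y‖ ≤ 1) (hxy : 1 / ((k : ℝ) + 1) ≤ ‖x - y‖) :
    psi k ((1 / 2 : ℝ) • (x + y)) ≤ (psi k x + psi k y) / 2 - c / 2 := by
  have h := phi_big (ε := 1 / ((k : ℝ) + 1)) hx hy hxy
  have h1 := le_phi hc hx
  have h2 := le_phi hc hy
  unfold psi
  linarith

lemma norm_mix {x y : X} (hx : ‖x‖ ≤ 1) (hy : ‖y‖ ≤ 1) {l : ℝ} (h0 : 0 ≤ l) (h1 : l ≤ 1) :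
    ‖l • x + (1 - l) • y‖ ≤ 1 := by
  have h2 : 0 ≤ 1 - l := by linarith
  calc ‖l • x + (1 - l) • y‖ ≤ ‖l • x‖ + ‖(1 - l) • y‖ := norm_add_le _ _
    _ = l * ‖x‖ + (1 - l) * ‖y‖ := by
        rw [norm_smul, norm_smul, Real.norm_of_nonneg h0, Real.norm_of_nonneg h2]
    _ ≤ l * 1 + (1 - l) * 1 := by gcongr
    _ = 1 := by ring

/-- The weighted sum of the `psi_k`. -/
noncomputable def Psi (x : X) : ℝ := ∑' k : ℕ, (1 / 2 : ℝ) ^ (k + 1) * psi k x

lemma hasSum_geo : HasSum (fun k : ℕ => (1 / 2 : ℝ) ^ (k + 1)) 1 := by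
  have h := hasSum_geometric_two.mul_left (1 / 2 : ℝ)
  have e : (fun k : ℕ => (1 / 2 : ℝ) ^ (k + 1)) = fun k : ℕ => (1 / 2 : ℝ) * (1 / 2) ^ k := by
    funext k; rw [pow_succ]; ring
  rw [e]
  simpa using h

lemma summable_psi {x : X} (hx : ‖x‖ ≤ 1) : Summable fun k : ℕ => (1 / 2 : ℝ) ^ (k + 1) * psi k x := by
  refine Summable.of_nonneg_of_le (fun k => ?_) (fun k => ?_) hasSum_geo.summable
  · exact mul_nonneg (by positivity) (psi_nonneg k hx)
  · exact mul_le_of_le_one_right (by positivity) (psi_le_one k hx)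

lemma Psi_nonneg {x : X} (hx : ‖x‖ ≤ 1) : 0 ≤ Psi x :=
  tsum_nonneg fun k => mul_nonneg (by positivity) (psi_nonneg k hx)

lemma Psi_neg {x : X} (hx : ‖x‖ ≤ 1) : Psi (-x) = Psi x := by
  unfold Psi
  congr 1
  funext k
  rw [psi_neg k hx]

lemma Psi_mix {x y : X} (hx : ‖x‖ ≤ 1) (hy : ‖y‖ ≤ 1) {l : ℝ} (h0 : 0 ≤ l) (h1 : l ≤ 1) :
    Psi (l • x + (1 - l) • y) ≤ l * Psi x + (1 - l) * Psi y := by
  unfold Psi
  rw [← tsum_mul_left, ← tsum_mul_left, ← ((summable_psi hx).mul_left l).tsum_add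
    ((summable_psi hy).mul_left (1 - l))]
  refine (summable_psi (norm_mix hx hy h0 h1)).tsum_le_tsum (fun k => ?_)
    (((summable_psi hx).mul_left l).add ((summable_psi hy).mul_left (1 - l)))
  have := psi_mix k hx hy h0 h1
  have h2 : (0 : ℝ) < (1 / 2) ^ (k + 1) := by positivity
  nlinarith

lemma Psi_le_norm {x : X} (hx : ‖x‖ ≤ 1) : Psi x ≤ ‖x‖ := by
  rcases eq_or_ne x 0 with rfl | hx0
  · simp [Psi, psi_zero]
  have hpos : 0 < ‖x‖ := norm_pos_iff.mpr hx0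
  have hu : ‖(‖x‖⁻¹ : ℝ) • x‖ ≤ 1 := by
    rw [norm_smul, norm_inv, norm_norm, inv_mul_cancel₀ hpos.ne']
  have h := Psi_mix hu (y := (0 : X)) (by simp) hpos.le hx
  have e : ‖x‖ • (‖x‖⁻¹ : ℝ) • x + (1 - ‖x‖) • (0 : X) = x := by
    rw [smul_smul, mul_inv_cancel₀ hpos.ne', one_smul, smul_zero, add_zero]
  have e0 : Psi (0 : X) = 0 := by simp [Psi, psi_zero]
  rw [e, e0] at h
  have h2 : Psi ((‖x‖⁻¹ : ℝ) • x) ≤ 1 := by
    unfold Psi
    calc _ ≤ ∑' k : ℕ, (1 / 2 : ℝ) ^ (k + 1) := (summable_psi hu).tsum_le_tsum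
          (fun k => mul_le_of_le_one_right (by positivity) (psi_le_one k hu)) hasSum_geo.summable
      _ = 1 := hasSum_geo.tsum_eq
  nlinarith

lemma Psi_big (k : ℕ) {c : ℝ} (hc : ∀ t : Tr X, t.Valid (1 / ((k : ℝ) + 1)) → c ≤ t.val)
    {x y : X} (hx : ‖x‖ ≤ 1) (hy : ‖y‖ ≤ 1) (hxy : 1 / ((k : ℝ) + 1) ≤ ‖x - y‖) :
    Psi ((1 / 2 : ℝ) • (x + y)) ≤ (Psi x + Psi y) / 2 - (1 / 2 : ℝ) ^ (k + 1) * (c / 2) := by
  have hm : ‖(1 / 2 : ℝ) • (x + y)‖ ≤ 1 := by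
    have := norm_mix hx hy (l := 1 / 2) (by norm_num) (by norm_num)
    have e : (1 / 2 : ℝ) • x + (1 - 1 / 2 : ℝ) • y = (1 / 2 : ℝ) • (x + y) := by
      rw [smul_add]; norm_num
    rwa [e] at this
  have hconv : ∀ j, psi j ((1 / 2 : ℝ) • (x + y)) ≤ (psi j x + psi j y) / 2 := by
    intro j
    have := psi_mix j hx hy (l := 1 / 2) (by norm_num) (by norm_num)
    have e : (1 / 2 : ℝ) • x + (1 - 1 / 2 : ℝ) • y = (1 / 2 : ℝ) • (x + y) := by
      rw [smul_add]; norm_num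
    rw [e] at this
    linarith
  have hs1 := summable_psi hm
  have hs2 := ((summable_psi hx).add (summable_psi hy)).div_const 2
  have hs3 := hs2.sub hs1
  have key : (1 / 2 : ℝ) ^ (k + 1) * (c / 2) ≤
      ∑' j : ℕ, (((1 / 2 : ℝ) ^ (j + 1) * psi j x + (1 / 2 : ℝ) ^ (j + 1) * psi j y) / 2
        - (1 / 2 : ℝ) ^ (j + 1) * psi j ((1 / 2 : ℝ) • (x + y))) := by
    have h1 := hs3.le_tsum k (fun j _ => by
      have := hconv j
      have h2 : (0 : ℝ) < (1 / 2) ^ (j + 1) := by positivity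
      nlinarith)
    refine le_trans ?_ h1
    have h3 := psi_big k hc hx hy hxy
    have h2 : (0 : ℝ) < (1 / 2) ^ (k + 1) := by positivity
    nlinarith
  rw [hs2.tsum_sub hs1, tsum_div_const, (summable_psi hx).tsum_add (summable_psi hy)] at key
  unfold Psi
  linarith

/-- The uniformly convex function. -/
noncomputable def F (x : X) : ℝ := ‖x‖ + Psi x

lemma norm_le_F {x : X} (hx : ‖x‖ ≤ 1) : ‖x‖ ≤ F x := by
  have := Psi_nonneg hx
  unfold F; linarith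

lemma F_le {x : X} (hx : ‖x‖ ≤ 1) : F x ≤ 2 * ‖x‖ := by
  have := Psi_le_norm hx
  unfold F; linarith

lemma F_neg {x : X} (hx : ‖x‖ ≤ 1) : F (-x) = F x := by
  unfold F; rw [norm_neg, Psi_neg hx]

lemma F_mix {x y : X} (hx : ‖x‖ ≤ 1) (hy : ‖y‖ ≤ 1) {l : ℝ} (h0 : 0 ≤ l) (h1 : l ≤ 1) :
    F (l • x + (1 - l) • y) ≤ l * F x + (1 - l) * F y := by
  have h2 : 0 ≤ 1 - l := by linarith
  have h3 : ‖l • x + (1 - l) • y‖ ≤ l * ‖x‖ + (1 - l) * ‖y‖ := by
    calc ‖l • x + (1 - l) • y‖ ≤ ‖l • x‖ + ‖(1 - l) • y‖ := norm_add_le _ _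
      _ = l * ‖x‖ + (1 - l) * ‖y‖ := by
          rw [norm_smul, norm_smul, Real.norm_of_nonneg h0, Real.norm_of_nonneg h2]
  have := Psi_mix hx hy h0 h1
  unfold F
  linarith

lemma F_big (k : ℕ) {c : ℝ} (hc : ∀ t : Tr X, t.Valid (1 / ((k : ℝ) + 1)) → c ≤ t.val)
    {x y : X} (hx : ‖x‖ ≤ 1) (hy : ‖y‖ ≤ 1) (hxy : 1 / ((k : ℝ) + 1) ≤ ‖x - y‖) :
    F ((1 / 2 : ℝ) • (x + y)) ≤ (F x + F y) / 2 - (1 / 2 : ℝ) ^ (k + 1) * (c / 2) := by
  have h := Psi_big k hc hx hy hxy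
  have h3 : ‖(1 / 2 : ℝ) • (x + y)‖ ≤ (‖x‖ + ‖y‖) / 2 := by
    rw [norm_smul]
    have := norm_add_le x y
    rw [Real.norm_of_nonneg (by norm_num)]
    linarith
  unfold F
  linarith

/-- The unit ball of the new norm. -/
def C (X : Type*) [NormedAddCommGroup X] [NormedSpace ℝ X] : Set X := {x | ‖x‖ ≤ 1 ∧ F x ≤ 1}

lemma mem_C_of_norm {x : X} (hx : ‖x‖ ≤ 1 / 2) : x ∈ C X := by
  have h1 : ‖x‖ ≤ 1 := by linarith
  exact ⟨h1, by have := F_le h1; linarith⟩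

lemma mix_mem_C {x y : X} (hx : x ∈ C X) (hy : y ∈ C X) {l : ℝ} (h0 : 0 ≤ l) (h1 : l ≤ 1) :
    l • x + (1 - l) • y ∈ C X := by
  refine ⟨norm_mix hx.1 hy.1 h0 h1, (F_mix hx.1 hy.1 h0 h1).trans ?_⟩
  have h2 : 0 ≤ 1 - l := by linarith
  have := hx.2
  have := hy.2
  nlinarith

lemma neg_mem_C {x : X} (hx : x ∈ C X) : -x ∈ C X :=
  ⟨by rw [norm_neg]; exact hx.1, by rw [F_neg hx.1]; exact hx.2⟩

lemma convex_C : Convex ℝ (C X) := by
  intro x hx y hy a b ha hb hab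
  have hb' : b = 1 - a := by linarith
  rw [hb']
  exact mix_mem_C hx hy ha (by linarith)

lemma zero_mem_C : (0 : X) ∈ C X := mem_C_of_norm (by simp)

lemma balanced_C : Balanced ℝ (C X) := by
  rw [balanced_iff_smul_mem]
  intro a ha x hx
  rw [Real.norm_eq_abs] at ha
  rcases le_total 0 a with h | h
  · have := mix_mem_C hx zero_mem_C h (by rwa [abs_of_nonneg h] at ha)
    simpa using this
  · have := mix_mem_C (neg_mem_C hx) zero_mem_C (l := -a) (by linarith)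
      (by rwa [abs_of_nonpos h] at ha)
    simpa using this

lemma C_mem_nhds : C X ∈ nhds (0 : X) := by
  refine Filter.mem_of_superset (Metric.closedBall_mem_nhds (0 : X) (by norm_num : (0 : ℝ) < 1 / 2)) ?_
  intro x hx
  exact mem_C_of_norm (by simpa using hx)

lemma absorbent_C : Absorbent ℝ (C X) := absorbent_nhds_zero C_mem_nhds

/-- The new norm. -/
noncomputable def N (X : Type*) [NormedAddCommGroup X] [NormedSpace ℝ X] : Seminorm ℝ X :=
  gaugeSeminorm (𝕜 := ℝ) balanced_C convex_C (absorbent_C (X := X))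

lemma N_apply (x : X) : N X x = gauge (C X) x := rfl

lemma N_le_one {x : X} (hx : x ∈ C X) : N X x ≤ 1 := by
  rw [N_apply]; exact gauge_le_one_of_mem hx

lemma mem_C {x : X} (hx : N X x < 1) : x ∈ C X := by
  rw [N_apply] at hx
  exact setOfPred_gauge_lt_one_subset_self convex_C zero_mem_C absorbent_C hx

lemma norm_le_N (x : X) : ‖x‖ ≤ N X x := by
  refine le_of_forall_gt_imp_ge_of_dense fun r hr => ?_
  have hr0 : 0 < r := lt_of_le_of_lt (apply_nonneg (N X) x) hr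
  have h : N X (r⁻¹ • x) < 1 := by
    rw [map_smul_eq_mul, Real.norm_of_nonneg (by positivity), inv_mul_lt_iff₀ hr0]
    simpa using hr
  have h2 := (mem_C h).1
  rw [norm_smul, Real.norm_of_nonneg (by positivity : (0:ℝ) ≤ r⁻¹), inv_mul_le_iff₀ hr0] at h2
  linarith

lemma N_le (x : X) : N X x ≤ 2 * ‖x‖ := by
  rcases eq_or_ne x 0 with rfl | hx0
  · simp
  have hpos : 0 < ‖x‖ := norm_pos_iff.mpr hx0
  have h : N X ((2 * ‖x‖)⁻¹ • x) ≤ 1 := by
    refine N_le_one (mem_C_of_norm ?_)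
    rw [norm_smul, Real.norm_of_nonneg (by positivity : (0:ℝ) ≤ (2 * ‖x‖)⁻¹), mul_inv, mul_assoc,
      inv_mul_cancel₀ hpos.ne']
    norm_num
  rw [map_smul_eq_mul, Real.norm_of_nonneg (by positivity), inv_mul_le_iff₀ (by positivity)] at h
  linarith

/-- The key gain: a point with `F z ≤ 1 - a` has `N z ≤ 1/(1+c)`. -/
lemma N_gain {z : X} {a : ℝ} (ha : 0 < a) (ha1 : a < 1) (hz1 : ‖z‖ ≤ 1) (hz : F z ≤ 1 - a) :
    N X z ≤ 1 / (1 + a / 2 * (a / (1 - a))) := by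
  have h1a : 0 < 1 - a := by linarith
  have hza : ‖z‖ ≤ 1 - a := (norm_le_F hz1).trans hz
  have hw : ‖((1 - a)⁻¹ : ℝ) • z‖ ≤ 1 := by
    rw [norm_smul, Real.norm_of_nonneg (by positivity : (0:ℝ) ≤ (1 - a)⁻¹), inv_mul_le_iff₀ h1a]
    linarith
  have hFw : F (((1 - a)⁻¹ : ℝ) • z) ≤ 2 := by
    have := F_le hw
    linarith
  have hmem : (1 + a / 2 * (a / (1 - a))) • z ∈ C X := by
    have e : (1 + a / 2 * (a / (1 - a))) • z = (a / 2) • (((1 - a)⁻¹ : ℝ) • z) + (1 - a / 2) • z := by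
      rw [smul_smul, ← add_smul]
      congr 1
      field_simp
      ring
    rw [e]
    refine ⟨norm_mix hw hz1 (by positivity) (by linarith),
      (F_mix hw hz1 (by positivity) (by linarith)).trans ?_⟩
    nlinarith
  have hpos : 0 < 1 + a / 2 * (a / (1 - a)) := by positivity
  have h := N_le_one hmem
  rw [map_smul_eq_mul, Real.norm_of_nonneg hpos.le] at h
  rw [le_div_iff₀ hpos]
  linarith

theorem uc (hyp : ∀ ε > 0, ∃ c > 0, ∀ t : Tr X, t.Valid ε → c ≤ t.val) :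
    UniformlyConvexSN (N X) := by
  intro ε hε
  obtain ⟨k, hk⟩ := exists_nat_one_div_lt (show (0 : ℝ) < ε / 4 by positivity)
  obtain ⟨c, hc0, hc⟩ := hyp (1 / ((k : ℝ) + 1)) (by positivity)
  have hc1 : c ≤ 1 := hc (.leaf 0) (by simp [Valid])
  set a : ℝ := (1 / 2 : ℝ) ^ (k + 1) * (c / 2) with ha_def
  have ha : 0 < a := by positivity
  have ha1 : a < 1 := by
    have h1 : (1 / 2 : ℝ) ^ (k + 1) ≤ 1 := pow_le_one₀ (by norm_num) (by norm_num)
    have h2 : 0 < (1 / 2 : ℝ) ^ (k + 1) := by positivity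
    nlinarith
  have h1a : 0 < 1 - a := by linarith
  have hb : 0 < a / 2 * (a / (1 - a)) := by positivity
  refine ⟨1 - 1 / (1 + a / 2 * (a / (1 - a))), ?_, ?_⟩
  · have : 1 / (1 + a / 2 * (a / (1 - a))) < 1 := by
      rw [div_lt_one (by positivity)]; linarith
    linarith
  intro x y hx hy hxy
  rw [sub_sub_cancel]
  -- for every `1/2 ≤ s < 1`
  have key : ∀ s : ℝ, 1 / 2 ≤ s → s < 1 →
      s * N X ((1 / 2 : ℝ) • (x + y)) ≤ 1 / (1 + a / 2 * (a / (1 - a))) := by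
    intro s hs hs1
    have hs0 : 0 < s := by linarith
    have hsx : s • x ∈ C X := by
      apply mem_C
      rw [map_smul_eq_mul, Real.norm_of_nonneg hs0.le]
      have := apply_nonneg (N X) x
      nlinarith
    have hsy : s • y ∈ C X := by
      apply mem_C
      rw [map_smul_eq_mul, Real.norm_of_nonneg hs0.le]
      have := apply_nonneg (N X) y
      nlinarith
    have hd : 1 / ((k : ℝ) + 1) ≤ ‖s • x - s • y‖ := by
      rw [← smul_sub, norm_smul, Real.norm_of_nonneg hs0.le]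
      have h1 := N_le (x - y)
      have h2 := norm_nonneg (x - y)
      nlinarith
    have hF := F_big k hc hsx.1 hsy.1 hd
    have hFx := hsx.2
    have hFy := hsy.2
    have hFz : F ((1 / 2 : ℝ) • (s • x + s • y)) ≤ 1 - a := by linarith
    have hz1 : ‖(1 / 2 : ℝ) • (s • x + s • y)‖ ≤ 1 := by
      have := norm_mix hsx.1 hsy.1 (l := 1 / 2) (by norm_num) (by norm_num)
      have e : (1 / 2 : ℝ) • s • x + (1 - 1 / 2 : ℝ) • s • y = (1 / 2 : ℝ) • (s • x + s • y) := by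
        rw [smul_add]; norm_num
      rwa [e] at this
    have := N_gain ha ha1 hz1 hFz
    have e : (1 / 2 : ℝ) • (s • x + s • y) = s • ((1 / 2 : ℝ) • (x + y)) := by
      rw [← smul_add, smul_comm]
    rw [e, map_smul_eq_mul, Real.norm_of_nonneg hs0.le] at this
    exact this
  refine le_of_tendsto (f := fun s : ℝ => s * N X ((1 / 2 : ℝ) • (x + y)))
    (x := nhdsWithin 1 (Set.Iio 1)) ?_ ?_
  · have : Filter.Tendsto (fun s : ℝ => s * N X ((1 / 2 : ℝ) • (x + y))) (nhds 1)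
        (nhds (1 * N X ((1 / 2 : ℝ) • (x + y)))) := (continuous_id.mul continuous_const).tendsto 1
    rw [one_mul] at this
    exact this.mono_left nhdsWithin_le_nhds
  · have h1 : ∀ᶠ s : ℝ in nhdsWithin 1 (Set.Iio 1), s ∈ Set.Ioo (1 / 2 : ℝ) 1 :=
      Ioo_mem_nhdsLT (by norm_num)
    filter_upwards [h1] with s hs
    exact key s hs.1.le hs.2

end Renorm

theorem renorm : S_RENORM := by
  intro X _ _ hyp
  exact ⟨Renorm.N X, ⟨1, one_pos, 2, two_pos, fun x => ⟨by rw [one_mul]; exact Renorm.norm_le_N x,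
    Renorm.N_le x⟩⟩, Renorm.uc hyp⟩

end Vale.Agent.P125
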