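import Mathlib

/-!
# P125: Markov type p > 1 implies superreflexive -- module statements

Every module `X` is a proposition `S_X`; the file `Vale/Agent/P125/X.lean` proves
`theorem x : S_X` (other needed modules are taken as hypotheses).
-/

namespace Vale.Agent.P125

open Finset

noncomputable section

/-! ## Definitions -/

/-- A seminorm `q` has Markov type `p` with constant `K`. -/
def MarkovTypeSN {V : Type*} [AddCommGroup V] [Module ℝ V] (q : Seminorm ℝ V) (p K : ℝ) : Prop :=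
  ∀ (S : Type) [Fintype S] [DecidableEq S] (π : S → ℝ) (P : Matrix S S ℝ),
    (∀ i, 0 ≤ π i) → (∑ i, π i = 1) → (∀ i j, 0 ≤ P i j) → (∀ i, ∑ j, P i j = 1) →
    (∀ i j, π i * P i j = π j * P j i) → ∀ (f : S → V) (t : ℕ), 1 ≤ t →
    ∑ i, ∑ j, π i * (P ^ t) i j * q (f j - f i) ^ p
      ≤ K ^ p * t * ∑ i, ∑ j, π i * P i j * q (f j - f i) ^ p

/-- Invariance under spreading. -/
def Spreading (q : Seminorm ℝ (ℕ →₀ ℝ)) : Prop :=
  ∀ φ : ℕ → ℕ, StrictMono φ → ∀ a, q (Finsupp.mapDomain φ a) = q a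

/-- A good spreading seminorm: spreading, unit vectors of norm at most one, and
`q a` dominates `θ` times every tail sum. -/
structure Good (q : Seminorm ℝ (ℕ →₀ ℝ)) (θ : ℝ) : Prop where
  spreading : Spreading q
  unit : ∀ j, q (Finsupp.single j 1) ≤ 1
  tail : ∀ (a : ℕ →₀ ℝ) (i : ℕ), θ * |∑ j ∈ a.support.filter (fun j => i ≤ j), a j| ≤ q a

/-- The vector `e_j` is sent to the average of `e_{jM}, ..., e_{jM+M-1}`. -/
def blockAvg (M : ℕ) : (ℕ →₀ ℝ) →ₗ[ℝ] (ℕ →₀ ℝ) :=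
  Finsupp.linearCombination ℝ (fun j => (1 / (M : ℝ)) • ∑ l ∈ range M, Finsupp.single (j * M + l) (1 : ℝ))

/-- the alternating vector `∑_{j<J} (-1)^j f(j) e_j`. -/
def alt (J : ℕ) (f : ℤ → ℝ) : ℕ →₀ ℝ :=
  ∑ j ∈ range J, Finsupp.single j ((-1) ^ j * f j)

/-- tent function of height `n` and centre `o`. -/
def tent (n : ℕ) (o : ℤ) (j : ℤ) : ℝ := ((max 0 ((n : ℤ) - |j - o|) : ℤ) : ℝ)

/-- transition kernel of the walk on the multigraph with directed edges `Ω`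
(tail map `A`, edge reversal `bar`, weights `ν`). -/
def stepK {S Ω : Type} [Fintype Ω] [DecidableEq S] (A : Ω → S) (bar : Ω → Ω) (ν : Ω → ℝ)
    (w w' : Ω) : ℝ :=
  if A w' = A (bar w) then ν w' / (∑ η, if A η = A w' then ν η else 0) else 0

/-- weight of a path of `T+1` directed edges. -/
def pathW {S Ω : Type} [Fintype Ω] [DecidableEq S] (A : Ω → S) (bar : Ω → Ω) (ν : Ω → ℝ)
    (T : ℕ) (w : Fin (T + 1) → Ω) : ℝ :=
  ν (w 0) * ∏ t : Fin T, stepK A bar ν (w t.castSucc) (w t.succ)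

/-- the vector of the port `i` (with parity `τ`) of the vertex `e`. -/
def vec (D R : ℕ) (f : ℤ → ℝ) (e : ℕ → ℕ) (i τ : ℕ) : ℕ →₀ ℝ :=
  ∑ r ∈ range R, (Finsupp.single (e (D * r + i + 1)) (f (2 * r + 1 + τ))
    - Finsupp.single (e (D * r + i)) (f (2 * r + τ)))

/-- the crossing relation seen from the port `(e,i,τ)`; it arrives at `e'` through the label `i'`. -/
def StepRel (D R : ℕ) (e : ℕ → ℕ) (i τ : ℕ) (e' : ℕ → ℕ) (i' : ℕ) : Prop :=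
  (∀ ρ < R, 1 ≤ ρ + τ → ρ + τ ≤ R → e (D * ρ + i) = e' (D * (ρ + τ - 1) + i' + 1)) ∧
  (∀ ρ < R, ρ + τ < R → e (D * ρ + i + 1) = e' (D * (ρ + τ) + i'))

/-- labels `a`, `b` are not (cyclically) equal or adjacent. -/
def GoodLab (D a b : ℕ) : Prop := (a + 2 ≤ b ∧ b + 1 < D + a) ∨ (b + 2 ≤ a ∧ a + 1 < D + b)

instance (D a b : ℕ) : Decidable (GoodLab D a b) := by unfold GoodLab; infer_instance

/-- Uniform convexity of a seminorm. -/
def UniformlyConvexSN {X : Type*} [AddCommGroup X] [Module ℝ X] (N : Seminorm ℝ X) : Prop :=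
  ∀ ε > 0, ∃ δ > 0, ∀ x y, N x ≤ 1 → N y ≤ 1 → ε ≤ N (x - y) → N ((1 / 2 : ℝ) • (x + y)) ≤ 1 - δ

/-- Trees: leaves, free convex combinations, and big midpoints. -/
inductive Tr (X : Type*) where
  | leaf : X → Tr X
  | mix : ℝ → Tr X → Tr X → Tr X
  | big : Tr X → Tr X → Tr X

namespace Tr
variable {X : Type*} [NormedAddCommGroup X] [NormedSpace ℝ X]

/-- The root (barycentre) of a tree. -/
def root : Tr X → X
  | leaf x => x
  | mix l t s => l • root t + (1 - l) • root s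
  | big t s => (1 / 2 : ℝ) • (root t + root s)

/-- Validity: leaves in the unit ball, big nodes have `ε`-separated children. -/
def Valid (ε : ℝ) : Tr X → Prop
  | leaf x => ‖x‖ ≤ 1
  | mix l t s => 0 ≤ l ∧ l ≤ 1 ∧ Valid ε t ∧ Valid ε s
  | big t s => ε ≤ ‖root t - root s‖ ∧ Valid ε t ∧ Valid ε s

/-- The expectation of `2^{-J}`, `J` = number of big nodes met. -/
def val : Tr X → ℝ
  | leaf _ => 1
  | mix l t s => l * val t + (1 - l) * val s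
  | big t s => (1 / 4) * (val t + val s)

end Tr

/-! ## Module statements -/

/-- LIN: linearisation of Markov type. Lift the walk on `S` to `S × [-N,N]^Ω` (rejecting moves that
leave the box), function `(s,z) ↦ (1/2) ∑ z_ω g ω`, and let `N → ∞`. -/
def S_LIN : Prop :=
  ∀ (V : Type) [AddCommGroup V] [Module ℝ V] (q : Seminorm ℝ V) (p K : ℝ), 1 ≤ p → 0 ≤ K →
    MarkovTypeSN q p K →
  ∀ (S Ω : Type) [Fintype S] [DecidableEq S] [Fintype Ω] [DecidableEq Ω]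
    (A : Ω → S) (bar : Ω → Ω) (ν : Ω → ℝ) (g : Ω → V),
    (∀ w, bar (bar w) = w) → (∀ w, 0 ≤ ν w) → ∑ w, ν w = 1 → (∀ w, ν (bar w) = ν w) →
    (∀ w, g (bar w) = - g w) → ∀ T : ℕ,
    ∑ w : Fin (T + 1) → Ω, pathW A bar ν T w * q (∑ t, g (w t)) ^ p
      ≤ K ^ p * (T + 1 : ℕ) * ∑ w, ν w * q (g w) ^ p

/-- PROB: total mass, nonnegativity, and the probability of meeting a bad pair of labels. -/
def S_PROB : Prop :=
  ∀ (S Ω : Type) [Fintype S] [DecidableEq S] [Fintype Ω] [DecidableEq Ω]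
    (A : Ω → S) (bar : Ω → Ω) (ν : Ω → ℝ),
    (∀ w, bar (bar w) = w) → (∀ w, 0 ≤ ν w) → ∑ w, ν w = 1 → (∀ w, ν (bar w) = ν w) →
  ∀ T : ℕ, (∀ w, 0 ≤ pathW A bar ν T w) ∧ ∑ w : Fin (T + 1) → Ω, pathW A bar ν T w = 1 ∧
  ∀ (D : ℕ) (lab : Ω → ℕ) (ε : ℝ) (bad : ℕ → ℕ → Prop) [∀ a b, Decidable (bad a b)],
    1 ≤ D → (∀ w, lab w < D) → 0 ≤ ε →
    (∀ a < D, ((range D).filter (fun b => bad a b)).card ≤ 3) →
    (∑ i ∈ range D, ∑ v, |(∑ w, if A w = v ∧ lab w = i then ν w else 0)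
        - (1 / (D : ℝ)) * ∑ w, if A w = v then ν w else 0| ≤ ε) →
    (∑ w : Fin (T + 1) → Ω, pathW A bar ν T w *
      (if ∃ t : Fin T, bad (lab (bar (w t.castSucc))) (lab (w t.succ)) then 1 else 0))
      ≤ 3 * T * (1 / D + ε)

/-- MEAS: approximately spreadable finitely supported measures on increasing tuples. -/
def S_MEAS : Prop :=
  ∀ (m L : ℕ) (ε : ℝ), 0 < ε → ∃ (B : ℕ) (μ : (Fin L → Fin B) → ℝ),
    (∀ G, 0 ≤ μ G) ∧ ∑ G, μ G = 1 ∧ (∀ G, μ G ≠ 0 → StrictMono G) ∧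
    ∀ φ ψ : Fin m → Fin L, StrictMono φ → StrictMono ψ →
      ∑ H : Fin m → Fin B, |(∑ G, if G ∘ φ = H then μ G else 0)
        - (∑ G, if G ∘ ψ = H then μ G else 0)| ≤ ε

/-- SPREAD: from finite arrays to a good spreading seminorm (iterated ultralimits). -/
def S_SPREAD : Prop :=
  ∀ (p K θ : ℝ), 1 ≤ p → 0 ≤ K → 0 < θ →
    (∀ n : ℕ, ∃ N : Seminorm ℝ (ℕ →₀ ℝ), (∀ j, N (Finsupp.single j 1) ≤ 1) ∧
      (∀ (a : ℕ →₀ ℝ) (i : ℕ), (∀ j, n ≤ j → a j = 0) →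
        θ * |∑ j ∈ a.support.filter (fun j => i ≤ j), a j| ≤ N a) ∧ MarkovTypeSN N p K) →
    ∃ q : Seminorm ℝ (ℕ →₀ ℝ), Good q θ ∧ MarkovTypeSN q p K

/-- SP2: spreading for finite families indexed by a finset of naturals. -/
def S_SP2 : Prop :=
  ∀ q : Seminorm ℝ (ℕ →₀ ℝ), Spreading q → ∀ (J : Finset ℕ) (a : ℕ → ℝ) (pos pos' : ℕ → ℕ),
    StrictMonoOn pos J → StrictMonoOn pos' J →
    q (∑ j ∈ J, Finsupp.single (pos j) (a j)) = q (∑ j ∈ J, Finsupp.single (pos' j) (a j))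

/-- BLK: block averages of a good seminorm are good, with the same Markov type; and
`blockAvg M ∘ blockAvg M'` is `blockAvg (M * M')`. -/
def S_BLK : Prop :=
  (∀ (q : Seminorm ℝ (ℕ →₀ ℝ)) (θ : ℝ) (M : ℕ), 1 ≤ M → Good q θ → Good (q.comp (blockAvg M)) θ) ∧
  (∀ (q : Seminorm ℝ (ℕ →₀ ℝ)) (p K : ℝ) (M : ℕ), MarkovTypeSN q p K →
    MarkovTypeSN (q.comp (blockAvg M)) p K) ∧
  (∀ (M M' : ℕ), 1 ≤ M → 1 ≤ M' → ∀ a, blockAvg M (blockAvg M' a) = blockAvg (M * M') a)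

/-- FLAT: the flattening lemma. Groups `g ∈ 𝒢`, slots `u < k`; average over the `M-k+1` shifts of
the group inside the block `[gM, gM+M)`. -/
def S_FLAT : Prop :=
  ∀ q : Seminorm ℝ (ℕ →₀ ℝ), Spreading q → (∀ j, q (Finsupp.single j 1) ≤ 1) →
  ∀ (k : ℕ) (𝒢 : Finset ℕ) (a : ℕ → ℕ → ℝ) (pos : ℕ → ℕ → ℕ), 1 ≤ k →
    (∀ g ∈ 𝒢, ∀ g' ∈ 𝒢, ∀ u < k, ∀ u' < k, (g < g' ∨ (g = g' ∧ u < u')) → pos g u < pos g' u') →
    ∀ M : ℕ, k ≤ M →
    q (blockAvg M (∑ g ∈ 𝒢, Finsupp.single g (∑ u ∈ range k, a g u)))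
      ≤ q (∑ g ∈ 𝒢, ∑ u ∈ range k, Finsupp.single (pos g u) (a g u))
        + 2 * k / M * ∑ g ∈ 𝒢, ∑ u ∈ range k, |a g u|

/-- TENT: shifting a tent changes the alternating vector relatively little. -/
def S_TENT : Prop :=
  ∀ (q : Seminorm ℝ (ℕ →₀ ℝ)) (θ : ℝ), 0 < θ → Good q θ → ∀ (n J : ℕ) (o s : ℤ), 1 ≤ n → Even n →
    (n : ℤ) ≤ o → (n : ℤ) ≤ o + s → o + n ≤ J → o + s + n ≤ J →
    θ * (n / 2) ≤ q (alt J (tent n o)) ∧
    q (alt J (tent n (o + s)) - alt J (tent n o))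
      ≤ 4 * |(s : ℝ)| / n * (1 + 1 / θ) * q (alt J (tent n o))

/-- UP: the norm of a port vector. -/
def S_UP : Prop :=
  ∀ q : Seminorm ℝ (ℕ →₀ ℝ), Spreading q → ∀ (D R : ℕ) (f : ℤ → ℝ) (e : ℕ → ℕ) (i τ : ℕ), 2 ≤ D →
    i < D → τ ≤ 1 → StrictMonoOn e (Set.Iic (D * R)) → f 0 = 0 → f (2 * R) = 0 →
    q (vec D R f e i τ) = q (alt (2 * R) f)

/-- PAT: existence of the crossing patterns. -/
def S_PAT : Prop :=
  ∀ D R : ℕ, 4 ≤ D → 1 ≤ R → ∃ (L : ℕ) (φ : Bool → ℕ → ℕ → ℕ),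
    (∀ σ, ∀ i < D, StrictMono (φ σ i) ∧ ∀ k ≤ D * R, φ σ i k < L) ∧
    ∀ i < D, ∀ i' < D, (∀ ρ, 1 ≤ ρ → φ true i (D * ρ + i) = φ false i' (D * (ρ - 1) + i' + 1)) ∧
      (∀ ρ, φ true i (D * ρ + i + 1) = φ false i' (D * ρ + i'))

/-- NEST: along a path whose labels are good, the own gaps are nested, hence (by flattening) the
sum of the port vectors is large. -/
def S_NEST : Prop :=
  ∀ (T D R : ℕ), 1 ≤ T → 4 ≤ D → ∀ f : ℤ → ℝ,
    (∀ j : ℤ, (j < 4 * T + 4 ∨ 2 * R - 4 * T - 4 ≤ j) → f j = 0) →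
  ∀ (e : ℕ → ℕ → ℕ) (i i' τ : ℕ → ℕ), (∀ t < T, StrictMonoOn (e t) (Set.Iic (D * R))) →
    (∀ t < T, i t < D ∧ i' t < D ∧ τ t ≤ 1) →
    (∀ t, t + 1 < T → StepRel D R (e t) (i t) (τ t) (e (t + 1)) (i' t)) →
    (∀ t, t + 1 < T → GoodLab D (i' t) (i (t + 1))) →
  ∃ σ : ℕ → ℤ, (∀ t < T, |σ t| ≤ 2 * T + 1) ∧
    ∀ q : Seminorm ℝ (ℕ →₀ ℝ), Spreading q → (∀ j, q (Finsupp.single j 1) ≤ 1) →
    ∀ M : ℕ, T ≤ M →
    q (blockAvg M (alt (2 * R) (fun j => ∑ t ∈ range T, f (j + σ t))))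
      ≤ q (∑ t ∈ range T, vec D R f (e t) (i t) (τ t))
        + 2 * T / M * (T * ∑ j ∈ range (2 * R), |f j|)

/-- CORE: there is no good spreading seminorm with Markov type `p > 1`. -/
def S_CORE : Prop :=
  ∀ (p K θ : ℝ), 1 < p → 0 ≤ K → 0 < θ → ¬ ∃ q : Seminorm ℝ (ℕ →₀ ℝ), Good q θ ∧ MarkovTypeSN q p K

/-- TREE: trees of small value give arrays in `L_p(Ω, X)`, which has Markov type `p`. -/
def S_TREE.{u} : Prop :=
  ∀ (X : Type u) [NormedAddCommGroup X] [NormedSpace ℝ X] (p K ε : ℝ), 1 ≤ p → 0 ≤ K → 0 < ε →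
    MarkovTypeSN (normSeminorm ℝ X) p K →
    (∀ c > 0, ∃ t : Tr X, t.Valid ε ∧ t.val < c) →
    ∀ n : ℕ, ∃ N : Seminorm ℝ (ℕ →₀ ℝ), (∀ j, N (Finsupp.single j 1) ≤ 1) ∧
      (∀ (a : ℕ →₀ ℝ) (i : ℕ), (∀ j, n ≤ j → a j = 0) →
        (ε / 4) * |∑ j ∈ a.support.filter (fun j => i ≤ j), a j| ≤ N a) ∧ MarkovTypeSN N p K

/-- RENORM: if for each `ε` the values of valid trees are bounded below, there is an equivalent
uniformly convex norm. -/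
def S_RENORM.{u} : Prop :=
  ∀ (X : Type u) [NormedAddCommGroup X] [NormedSpace ℝ X],
    (∀ ε > 0, ∃ c > 0, ∀ t : Tr X, t.Valid ε → c ≤ t.val) →
    ∃ N : Seminorm ℝ X, (∃ a > 0, ∃ b > 0, ∀ x, a * ‖x‖ ≤ N x ∧ N x ≤ b * ‖x‖) ∧
      UniformlyConvexSN N

end

end Vale.Agent.P125
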