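import Mathlib
import Vale.Agent.P125.Plan

/-!
# P125: modules SP2 and BLK
-/

namespace Vale.Agent.P125.SP2BLK

open Vale.Agent.P125 Finset

noncomputable section

/-! ## SP2 -/

theorem sp2_aux (q : Seminorm ℝ (ℕ →₀ ℝ)) (hq : Spreading q) (J : Finset ℕ) (a : ℕ → ℝ)
    (pos : ℕ → ℕ) (hpos : StrictMonoOn pos J) :
    q (∑ j ∈ J, Finsupp.single (pos j) (a j)) =
      q (∑ k : Fin J.card, Finsupp.single (k : ℕ) (a (J.orderEmbOfFin rfl k))) := by
  set e := J.orderEmbOfFin (rfl : J.card = J.card) with he
  have hsum : ∑ j ∈ J, Finsupp.single (pos j) (a j) =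
      ∑ k : Fin J.card, Finsupp.single (pos (e k)) (a (e k)) := by
    conv_lhs => rw [← Finset.map_orderEmbOfFin_univ J rfl]
    rw [Finset.sum_map]
    rfl
  have hmem : ∀ k : Fin J.card, e k ∈ J := fun k => Finset.orderEmbOfFin_mem J rfl k
  let φ : ℕ → ℕ := fun n => if h : n < J.card then pos (e ⟨n, h⟩) else J.sup pos + 1 + n
  have hφ1 : ∀ k : Fin J.card, φ k = pos (e k) := by
    intro k
    simp [φ, k.2]
  have hφ : StrictMono φ := by
    intro n m hnm
    by_cases hm : m < J.card
    · have hn : n < J.card := lt_trans hnm hm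
      simp only [φ, hm, hn, dif_pos]
      apply hpos (hmem _) (hmem _)
      exact e.strictMono (by simpa using hnm)
    · by_cases hn : n < J.card
      · simp only [φ, hm, hn, dif_pos, dif_neg, not_false_eq_true]
        have : pos (e ⟨n, hn⟩) ≤ J.sup pos := Finset.le_sup (f := pos) (hmem _)
        omega
      · simp only [φ, hm, hn, dif_neg, not_false_eq_true]
        omega
  rw [hsum, ← hq φ hφ (∑ k : Fin J.card, Finsupp.single (k : ℕ) (a (e k)))]
  congr 1
  rw [Finsupp.mapDomain_finsetSum]
  refine Finset.sum_congr rfl fun k _ => ?_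
  rw [Finsupp.mapDomain_single, hφ1]

theorem sp2 : S_SP2 := by
  intro q hq J a pos pos' h h'
  rw [sp2_aux q hq J a pos h, sp2_aux q hq J a pos' h']

/-! ## BLK -/

theorem blockAvg_single (M j : ℕ) (x : ℝ) :
    blockAvg M (Finsupp.single j x) =
      x • ((1 / (M : ℝ)) • ∑ l ∈ range M, Finsupp.single (j * M + l) (1 : ℝ)) := by
  simp [blockAvg, Finsupp.linearCombination_single]

/-- the tail functional -/
def tl (i : ℕ) : (ℕ →₀ ℝ) →ₗ[ℝ] ℝ :=
  Finsupp.linearCombination ℝ (fun j => if i ≤ j then (1 : ℝ) else 0)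

theorem tl_eq (i : ℕ) (a : ℕ →₀ ℝ) :
    tl i a = ∑ j ∈ a.support.filter (fun j => i ≤ j), a j := by
  rw [tl, Finsupp.linearCombination_apply, Finsupp.sum, Finset.sum_filter]
  refine Finset.sum_congr rfl fun j _ => ?_
  by_cases h : i ≤ j <;> simp [h]

theorem tl_blockAvg (M : ℕ) (hM : 1 ≤ M) (i : ℕ) (a : ℕ →₀ ℝ) :
    tl (i * M) (blockAvg M a) = tl i a := by
  have hMR : (M : ℝ) ≠ 0 := by positivity
  have : (tl (i * M)).comp (blockAvg M) = tl i := by
    apply Finsupp.lhom_ext
    intro j x
    rw [LinearMap.comp_apply, blockAvg_single]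
    simp only [map_smul, map_sum, tl, Finsupp.linearCombination_single, smul_eq_mul]
    have hl : ∀ l ∈ range M, (1 : ℝ) * (if i * M ≤ j * M + l then (1 : ℝ) else 0)
        = if i ≤ j then 1 else 0 := by
      intro l hl
      rw [Finset.mem_range] at hl
      by_cases h : i ≤ j
      · have : i * M ≤ j * M + l := le_trans (Nat.mul_le_mul_right M h) (Nat.le_add_right _ _)
        simp [h, this]
      · have : ¬ i * M ≤ j * M + l := by
          have h1 : (j + 1) * M ≤ i * M := Nat.mul_le_mul_right M (by omega)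
          have h2 : (j + 1) * M = j * M + M := by ring
          omega
        simp [h, this]
    rw [Finset.sum_congr rfl hl]
    by_cases h : i ≤ j
    · simp [h, hMR]
    · simp [h]
  exact congrArg (fun L => L a) this

theorem spreading_blockAvg (q : Seminorm ℝ (ℕ →₀ ℝ)) (hq : Spreading q) (M : ℕ) (hM : 1 ≤ M) :
    Spreading (q.comp (blockAvg M)) := by
  intro φ hφ a
  let ψ : ℕ → ℕ := fun n => φ (n / M) * M + n % M
  have hψ : StrictMono ψ := by
    intro n m hnm
    have hn : n % M < M := Nat.mod_lt _ hM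
    have h1 : n / M ≤ m / M := Nat.div_le_div_right hnm.le
    rcases h1.lt_or_eq with h | h
    · have h2 : φ (n / M) + 1 ≤ φ (m / M) := hφ h
      have h3 : (φ (n / M) + 1) * M ≤ φ (m / M) * M := Nat.mul_le_mul_right M h2
      have h4 : (φ (n / M) + 1) * M = φ (n / M) * M + M := by ring
      simp only [ψ]
      omega
    · have h2 : n % M < m % M := by
        have e1 := Nat.div_add_mod n M
        have e2 := Nat.div_add_mod m M
        rw [h] at e1
        omega
      simp only [ψ]
      rw [h]
      omega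
  have hcomm : (blockAvg M).comp (Finsupp.lmapDomain ℝ ℝ φ) =
      (Finsupp.lmapDomain ℝ ℝ ψ).comp (blockAvg M) := by
    apply Finsupp.lhom_ext
    intro j x
    simp only [LinearMap.comp_apply, Finsupp.lmapDomain_apply, Finsupp.mapDomain_single,
      blockAvg_single]
    rw [← Finsupp.lmapDomain_apply ℝ ℝ]
    simp only [map_smul, map_sum, Finsupp.lmapDomain_apply, Finsupp.mapDomain_single]
    congr 2
    refine Finset.sum_congr rfl fun l hl => ?_
    rw [Finset.mem_range] at hl
    have e1 : (j * M + l) / M = j := by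
      rw [mul_comm, Nat.mul_add_div (by omega), Nat.div_eq_of_lt hl, add_zero]
    have e2 : (j * M + l) % M = l := by
      rw [mul_comm, Nat.mul_add_mod, Nat.mod_eq_of_lt hl]
    simp only [ψ, e1, e2]
  have h := congrArg (fun L => L a) hcomm
  simp only [LinearMap.comp_apply, Finsupp.lmapDomain_apply] at h
  rw [Seminorm.comp_apply, Seminorm.comp_apply, h, hq ψ hψ]

theorem blk_good (q : Seminorm ℝ (ℕ →₀ ℝ)) (θ : ℝ) (M : ℕ) (hM : 1 ≤ M) (hq : Good q θ) :
    Good (q.comp (blockAvg M)) θ where
  spreading := spreading_blockAvg q hq.spreading M hM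
  unit := by
    intro j
    rw [Seminorm.comp_apply, blockAvg_single, one_smul, map_smul_eq_mul]
    have hMR : (0 : ℝ) < M := by exact_mod_cast hM
    have h1 : q (∑ l ∈ range M, Finsupp.single (j * M + l) (1 : ℝ)) ≤ M := by
      refine le_trans (Finset.le_sum_of_subadditive q (map_zero q).le (map_add_le_add q) (range M) _) ?_
      refine le_trans (Finset.sum_le_sum fun l _ => hq.unit (j * M + l)) ?_
      simp
    rw [Real.norm_of_nonneg (by positivity)]
    calc 1 / (M : ℝ) * q (∑ l ∈ range M, Finsupp.single (j * M + l) (1 : ℝ))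
        ≤ 1 / (M : ℝ) * M := by gcongr
      _ = 1 := by field_simp
  tail := by
    intro a i
    rw [Seminorm.comp_apply, ← tl_eq, ← tl_blockAvg M hM, tl_eq]
    exact hq.tail _ _

theorem blk_markov (q : Seminorm ℝ (ℕ →₀ ℝ)) (p K : ℝ) (M : ℕ) (hq : MarkovTypeSN q p K) :
    MarkovTypeSN (q.comp (blockAvg M)) p K := by
  intro S _ _ π P h1 h2 h3 h4 h5 f t ht
  have := hq S π P h1 h2 h3 h4 h5 (fun s => blockAvg M (f s)) t ht
  simpa only [Seminorm.comp_apply, map_sub] using this

theorem blk_comp (M M' : ℕ) (hM : 1 ≤ M) (a : ℕ →₀ ℝ) :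
    blockAvg M (blockAvg M' a) = blockAvg (M * M') a := by
  have : (blockAvg M).comp (blockAvg M') = blockAvg (M * M') := by
    apply Finsupp.lhom_ext
    intro j x
    rw [LinearMap.comp_apply, blockAvg_single, blockAvg_single]
    simp only [map_smul, map_sum, blockAvg_single, one_smul]
    rw [← Finset.smul_sum, smul_smul (1 / (M' : ℝ))]
    congr 1
    have hc : (1 / (M' : ℝ)) * (1 / (M : ℝ)) = 1 / ((M * M' : ℕ) : ℝ) := by
      push_cast
      rw [one_div_mul_one_div, mul_comm]
    rw [hc]
    congr 1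
    rw [Finset.sum_comm' (t' := range M) (s' := fun _ => range M') (by simp)]
    rw [← Finset.sum_product']
    refine Finset.sum_bij' (fun x _ => x.2 * M + x.1) (fun n _ => (n % M, n / M)) ?_ ?_ ?_ ?_ ?_
    · rintro ⟨k, l⟩ h
      simp only [Finset.mem_product, Finset.mem_range] at h ⊢
      have : (l + 1) * M ≤ M' * M := Nat.mul_le_mul_right M h.2
      have e : (l + 1) * M = l * M + M := by ring
      have e' : M' * M = M * M' := by ring
      omega
    · intro n h
      simp only [Finset.mem_product, Finset.mem_range] at h ⊢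
      exact ⟨Nat.mod_lt _ hM, Nat.div_lt_of_lt_mul h⟩
    · rintro ⟨k, l⟩ h
      simp only [Finset.mem_product, Finset.mem_range] at h ⊢
      have e1 : (l * M + k) / M = l := by
        rw [mul_comm, Nat.mul_add_div (by omega), Nat.div_eq_of_lt h.1, add_zero]
      have e2 : (l * M + k) % M = k := by
        rw [mul_comm, Nat.mul_add_mod, Nat.mod_eq_of_lt h.1]
      rw [e1, e2]
    · intro n h
      simp only
      exact Nat.div_add_mod' n M
    · rintro ⟨k, l⟩ h
      congr 1
      ring
  exact congrArg (fun L => L a) this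

theorem blk : S_BLK :=
  ⟨fun q θ M hM hq => blk_good q θ M hM hq, fun q p K M hq => blk_markov q p K M hq,
    fun M M' hM _ a => blk_comp M M' hM a⟩

end

end Vale.Agent.P125.SP2BLK
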