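import Vale.Agent.P125.Plan

/-!
# P125 SPREAD: good spreading seminorms by iterated ultralimits (helper28)
-/

namespace Vale.Agent.P125.SPREAD

open Vale.Agent.P125 Finset Filter Topology

noncomputable section

/-- the free ultrafilter -/
abbrev U : Filter ℕ := ((hyperfilter ℕ : Ultrafilter ℕ) : Filter ℕ)

/-- ultralimit of a real sequence -/
def ulim (f : ℕ → ℝ) : ℝ := limUnder U f

lemma ulim_tendsto {f : ℕ → ℝ} {C : ℝ} (h : ∀ n, |f n| ≤ C) : Tendsto f U (𝓝 (ulim f)) := by
  apply tendsto_nhds_limUnder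
  have hc : IsCompact (Set.Icc (-C) C) := isCompact_Icc
  obtain ⟨x, -, hx⟩ := hc.ultrafilter_le_nhds ((hyperfilter ℕ).map f) (by
    rw [Filter.le_principal_iff]
    exact Filter.mem_map.mpr (Filter.mem_of_superset Filter.univ_mem
      (fun n _ => abs_le.mp (h n))))
  exact ⟨x, hx⟩

lemma ulim_eq {f : ℕ → ℝ} {x : ℝ} (h : Tendsto f U (𝓝 x)) : ulim f = x := h.limUnder_eq

lemma ulim_const (c : ℝ) : ulim (fun _ => c) = c := ulim_eq tendsto_const_nhds

/-- the iterated limit of `N` along coefficient lists -/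
def G (N : (ℕ →₀ ℝ) → ℝ) : List ℝ → (ℕ →₀ ℝ) → ℝ
  | [], v => N v
  | x :: xs, v => ulim (fun n => G N xs (v + Finsupp.single n x))

section basic

variable (N : Seminorm ℝ (ℕ →₀ ℝ)) (hN : ∀ j, N (Finsupp.single j 1) ≤ 1)

include hN in
lemma N_single (n : ℕ) (x : ℝ) : N (Finsupp.single n x) ≤ |x| := by
  have : Finsupp.single n x = x • Finsupp.single n (1 : ℝ) := by simp
  rw [this, map_smul_eq_mul, Real.norm_eq_abs]
  calc |x| * N (Finsupp.single n 1) ≤ |x| * 1 := by gcongr; exact hN n
    _ = |x| := mul_one _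

include hN in
lemma G_bound (xs : List ℝ) : ∀ v, 0 ≤ G N xs v ∧ G N xs v ≤ N v + (xs.map (fun x => |x|)).sum := by
  induction xs with
  | nil => intro v; exact ⟨apply_nonneg N v, by simp [G]⟩
  | cons x xs ih =>
    intro v
    have h1 : ∀ n, G N xs (v + Finsupp.single n x) ≤ N v + (|x| + (xs.map (fun x => |x|)).sum) := by
      intro n
      have h2 := (ih (v + Finsupp.single n x)).2
      have h3 := map_add_le_add N v (Finsupp.single n x)
      have h4 := N_single N hN n x
      linarith
    have h5 : Tendsto (fun n => G N xs (v + Finsupp.single n x)) U (𝓝 (G N (x :: xs) v)) := by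
      apply ulim_tendsto (C := N v + (|x| + (xs.map (fun x => |x|)).sum))
      intro n
      rw [abs_of_nonneg (ih _).1]
      exact h1 n
    refine ⟨ge_of_tendsto' h5 (fun n => (ih _).1), ?_⟩
    simp only [List.map_cons, List.sum_cons]
    exact le_of_tendsto' h5 h1

include hN in
lemma G_tendsto (x : ℝ) (xs : List ℝ) (v : ℕ →₀ ℝ) :
    Tendsto (fun n => G N xs (v + Finsupp.single n x)) U (𝓝 (G N (x :: xs) v)) := by
  apply ulim_tendsto (C := N v + (|x| + (xs.map (fun x => |x|)).sum))
  intro n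
  rw [abs_of_nonneg (G_bound N hN xs _).1]
  have h2 := (G_bound N hN xs (v + Finsupp.single n x)).2
  have h3 := map_add_le_add N v (Finsupp.single n x)
  have h4 := N_single N hN n x
  linarith

lemma G_zero_cons (xs : List ℝ) (v : ℕ →₀ ℝ) : G N (0 :: xs) v = G N xs v := by
  show ulim (fun n => G N xs (v + Finsupp.single n 0)) = _
  simp [ulim_const]

lemma G_filter (xs : List ℝ) : ∀ v, G N (xs.filter (fun x => x ≠ 0)) v = G N xs v := by
  induction xs with
  | nil => intro v; simp
  | cons x xs ih =>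
    intro v
    by_cases hx : x = 0
    · subst hx
      rw [G_zero_cons]
      simp only [ne_eq, not_true_eq_false, decide_false, Bool.false_eq_true, not_false_eq_true,
        List.filter_cons_of_neg]
      exact ih v
    · rw [List.filter_cons_of_pos (by simpa using hx)]
      show ulim _ = ulim _
      congr 1
      funext n
      exact ih _

include hN in
lemma G_add (l : List ℕ) (a b : ℕ → ℝ) : ∀ v w,
    G N (l.map (fun j => a j + b j)) (v + w) ≤ G N (l.map a) v + G N (l.map b) w := by
  induction l with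
  | nil => intro v w; exact map_add_le_add N v w
  | cons k l ih =>
    intro v w
    simp only [List.map_cons]
    refine le_of_tendsto_of_tendsto' (G_tendsto N hN _ _ _)
      ((G_tendsto N hN _ _ _).add (G_tendsto N hN _ _ _)) (fun n => ?_)
    have := ih (v + Finsupp.single n (a k)) (w + Finsupp.single n (b k))
    have e : v + w + Finsupp.single n (a k + b k)
        = v + Finsupp.single n (a k) + (w + Finsupp.single n (b k)) := by
      rw [Finsupp.single_add]; abel
    rw [e]
    exact this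

include hN in
lemma G_smul (l : List ℕ) (a : ℕ → ℝ) (c : ℝ) : ∀ v,
    G N (l.map (fun j => c * a j)) (c • v) = |c| * G N (l.map a) v := by
  induction l with
  | nil => intro v; simp [G, map_smul_eq_mul]
  | cons k l ih =>
    intro v
    simp only [List.map_cons]
    refine tendsto_nhds_unique (G_tendsto N hN _ _ _)
      (((G_tendsto N hN (a k) (l.map a) v).const_mul |c|).congr (fun n => ?_))
    rw [← ih]
    congr 1
    rw [smul_add, Finsupp.smul_single, smul_eq_mul]

include hN in
lemma G_markov {p K : ℝ} (hp : 1 ≤ p) (hM : MarkovTypeSN N p K)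
    {S : Type} [Fintype S] [DecidableEq S] (π : S → ℝ) (P : Matrix S S ℝ)
    (h1 : ∀ i, 0 ≤ π i) (h2 : ∑ i, π i = 1) (h3 : ∀ i j, 0 ≤ P i j) (h4 : ∀ i, ∑ j, P i j = 1)
    (h5 : ∀ i j, π i * P i j = π j * P j i) (t : ℕ) (ht : 1 ≤ t) (x : S → ℕ → ℝ)
    (l : List ℕ) : ∀ v : S → (ℕ →₀ ℝ),
    ∑ i, ∑ j, π i * (P ^ t) i j * (G N (l.map (fun k => x j k - x i k)) (v j - v i)) ^ p
      ≤ K ^ p * t * ∑ i, ∑ j, π i * P i j *
        (G N (l.map (fun k => x j k - x i k)) (v j - v i)) ^ p := by
  induction l with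
  | nil => intro v; exact hM S π P h1 h2 h3 h4 h5 v t ht
  | cons k l ih =>
    intro v
    simp only [List.map_cons]
    have key : ∀ i j : S, Tendsto (fun n => (G N (l.map (fun k => x j k - x i k))
        ((v j + Finsupp.single n (x j k)) - (v i + Finsupp.single n (x i k)))) ^ p) U
        (𝓝 ((G N ((x j k - x i k) :: l.map (fun k => x j k - x i k)) (v j - v i)) ^ p)) := by
      intro i j
      have h6 := G_tendsto N hN (x j k - x i k) (l.map (fun k => x j k - x i k)) (v j - v i)
      have h7 := h6.rpow_const (p := p) (Or.inr (by linarith))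
      refine h7.congr (fun n => ?_)
      congr 2
      rw [Finsupp.single_sub]
      abel
    refine le_of_tendsto_of_tendsto'
      (tendsto_finsetSum _ (fun i _ => tendsto_finsetSum _ (fun j _ => (key i j).const_mul _)))
      (((tendsto_finsetSum _ (fun i _ => tendsto_finsetSum _
        (fun j _ => (key i j).const_mul _)))).const_mul _) (fun n => ?_)
    exact ih (fun i => v i + Finsupp.single n (x i k))

/-- the tail sum functional -/
def tail (i : ℕ) (a : ℕ →₀ ℝ) : ℝ := ∑ j ∈ a.support.filter (fun j => i ≤ j), a j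

lemma tail_eq_sum (i : ℕ) (a : ℕ →₀ ℝ) : tail i a = a.sum (fun j x => if i ≤ j then x else 0) := by
  unfold tail Finsupp.sum
  rw [Finset.sum_filter]

lemma tail_add (i : ℕ) (a b : ℕ →₀ ℝ) : tail i (a + b) = tail i a + tail i b := by
  rw [tail_eq_sum, tail_eq_sum, tail_eq_sum]
  apply Finsupp.sum_add_index'
  · intro j; simp
  · intro j x y; split_ifs <;> simp

lemma tail_single {i n : ℕ} (h : i ≤ n) (x : ℝ) : tail i (Finsupp.single n x) = x := by
  rw [tail_eq_sum, Finsupp.sum_single_index] <;> simp [h]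

lemma tail_zero_of {i : ℕ} {a : ℕ →₀ ℝ} (h : ∀ j, i ≤ j → a j = 0) : tail i a = 0 := by
  unfold tail
  apply Finset.sum_eq_zero
  intro j hj
  rw [Finset.mem_filter] at hj
  exact h j hj.2

lemma U_ge (i : ℕ) : ∀ᶠ n in U, i ≤ n :=
  Nat.hyperfilter_le_atTop (eventually_ge_atTop i)

include hN in
lemma G_tail {θ : ℝ} (hθ : 0 < θ) (hT : ∀ (a : ℕ →₀ ℝ) (i : ℕ), θ * |tail i a| ≤ N a)
    (i : ℕ) (xs : List ℝ) : ∀ v, θ * |tail i v + xs.sum| ≤ G N xs v := by
  induction xs with
  | nil => intro v; simpa [G] using hT v i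
  | cons x xs ih =>
    intro v
    refine ge_of_tendsto (G_tendsto N hN x xs v) ?_
    filter_upwards [U_ge i] with n hn
    have := ih (v + Finsupp.single n x)
    rw [tail_add, tail_single hn] at this
    rw [List.sum_cons, ← add_assoc]
    exact this

include hN in
lemma G_tail' {θ : ℝ} (hθ : 0 < θ) (hT : ∀ (a : ℕ →₀ ℝ) (i : ℕ), θ * |tail i a| ≤ N a)
    (ys zs : List ℝ) : ∀ v, θ * |zs.sum| ≤ G N (ys ++ zs) v := by
  induction ys with
  | nil =>
    intro v
    have h := G_tail N hN hθ hT (v.support.sup id + 1) zs v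
    rw [tail_zero_of, zero_add] at h
    · exact h
    · intro j hj
      by_contra hne
      have : j ∈ v.support := by simpa using hne
      have := Finset.le_sup (f := id) this
      simp only [id] at this
      omega
  | cons y ys ih =>
    intro v
    exact ge_of_tendsto' (G_tendsto N hN y (ys ++ zs) v) (fun n => ih _)

end basic

/-! ### the spreading seminorm -/

/-- a bound for the support -/
def bd (a : ℕ →₀ ℝ) : ℕ := a.support.sup id + 1

lemma lt_bd {a : ℕ →₀ ℝ} {j : ℕ} (h : a j ≠ 0) : j < bd a := by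
  have h1 : j ∈ a.support := by simpa using h
  have := Finset.le_sup (f := id) h1
  simp only [id] at this
  unfold bd
  omega

/-- the spread version -/
def Q (N : (ℕ →₀ ℝ) → ℝ) (a : ℕ →₀ ℝ) : ℝ := G N ((List.range (bd a)).map a) 0

lemma filter_range (a : ℕ → ℝ) (m : ℕ) :
    ((List.range m).map a).filter (fun x => x ≠ 0)
      = ((List.range m).filter (fun j => a j ≠ 0)).map a := by
  rw [List.filter_map]
  rfl

lemma filt_eq {a : ℕ → ℝ} {m m' : ℕ} (h : ∀ j, a j ≠ 0 → j < m) (h' : ∀ j, a j ≠ 0 → j < m') :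
    (List.range m).filter (fun j => a j ≠ 0) = (List.range m').filter (fun j => a j ≠ 0) := by
  apply List.Pairwise.eq_of_mem_iff (r := (· < ·))
  · exact List.Pairwise.filter _ List.pairwise_lt_range
  · exact List.Pairwise.filter _ List.pairwise_lt_range
  · intro j
    simp only [List.mem_filter, List.mem_range, decide_eq_true_eq]
    exact ⟨fun hj => ⟨h' j hj.2, hj.2⟩, fun hj => ⟨h j hj.2, hj.2⟩⟩

lemma Q_eq (N : Seminorm ℝ (ℕ →₀ ℝ)) (a : ℕ →₀ ℝ) {m : ℕ} (h : ∀ j, a j ≠ 0 → j < m) :
    Q N a = G N ((List.range m).map a) 0 := by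
  unfold Q
  rw [← G_filter, ← G_filter N ((List.range m).map a), filter_range, filter_range,
    filt_eq (fun j hj => lt_bd hj) h]

lemma Q_spread (N : Seminorm ℝ (ℕ →₀ ℝ)) (φ : ℕ → ℕ) (hφ : StrictMono φ) (a : ℕ →₀ ℝ) :
    Q N (Finsupp.mapDomain φ a) = Q N a := by
  unfold Q
  rw [← G_filter, ← G_filter N ((List.range (bd a)).map a), filter_range, filter_range]
  have hmd : ∀ j, Finsupp.mapDomain φ a (φ j) = a j := fun j =>
    Finsupp.mapDomain_apply hφ.injective a j
  have key : (List.range (bd (Finsupp.mapDomain φ a))).filter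
      (fun j => Finsupp.mapDomain φ a j ≠ 0)
      = ((List.range (bd a)).filter (fun j => a j ≠ 0)).map φ := by
    apply List.Pairwise.eq_of_mem_iff (r := (· < ·))
    · exact List.Pairwise.filter _ List.pairwise_lt_range
    · rw [List.pairwise_map]
      exact (List.Pairwise.filter _ List.pairwise_lt_range).imp (fun h => hφ h)
    · intro j
      simp only [List.mem_filter, List.mem_range, decide_eq_true_eq, List.mem_map]
      constructor
      · rintro ⟨-, hj⟩
        have hr : j ∈ Set.range φ := by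
          by_contra hn
          exact hj (Finsupp.mapDomain_of_notMem_range a j hn)
        obtain ⟨k, rfl⟩ := hr
        rw [hmd] at hj
        exact ⟨k, ⟨lt_bd hj, hj⟩, rfl⟩
      · rintro ⟨k, ⟨-, hk⟩, rfl⟩
        rw [← hmd] at hk
        exact ⟨lt_bd hk, hk⟩
  rw [key, List.map_map]
  congr 1
  apply List.map_congr_left
  intro j _
  exact hmd j

/-- the spreading seminorm -/
def Qsn (N : Seminorm ℝ (ℕ →₀ ℝ)) (hN : ∀ j, N (Finsupp.single j 1) ≤ 1) :
    Seminorm ℝ (ℕ →₀ ℝ) :=
  Seminorm.of (Q N)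
    (by
      intro a b
      set m := max (bd a) (bd b) with hm
      have ha : ∀ j, a j ≠ 0 → j < m := fun j hj => lt_of_lt_of_le (lt_bd hj) (le_max_left _ _)
      have hb : ∀ j, b j ≠ 0 → j < m := fun j hj => lt_of_lt_of_le (lt_bd hj) (le_max_right _ _)
      have hab : ∀ j, (a + b) j ≠ 0 → j < m := by
        intro j hj
        by_cases h : a j = 0
        · apply hb
          intro h'
          apply hj
          simp [h, h']
        · exact ha j h
      rw [Q_eq N a ha, Q_eq N b hb, Q_eq N (a + b) hab]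
      have := G_add N hN (List.range m) a b 0 0
      rw [add_zero] at this
      exact this)
    (by
      intro c a
      have hca : ∀ j, (c • a) j ≠ 0 → j < bd a := by
        intro j hj
        apply lt_bd
        intro h
        apply hj
        simp [h]
      rw [Q_eq N (c • a) hca, Q_eq N a (fun j => lt_bd)]
      have := G_smul N hN (List.range (bd a)) a c 0
      rw [smul_zero] at this
      exact this)

lemma Q_markov (N : Seminorm ℝ (ℕ →₀ ℝ)) (hN : ∀ j, N (Finsupp.single j 1) ≤ 1) {p K : ℝ}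
    (hp : 1 ≤ p) (hM : MarkovTypeSN N p K) : MarkovTypeSN (Qsn N hN) p K := by
  intro S _ _ π P h1 h2 h3 h4 h5 f t ht
  obtain ⟨m, hm⟩ : ∃ m, ∀ i, bd (f i) ≤ m :=
    ⟨Finset.univ.sup (fun i => bd (f i)), fun i =>
      Finset.le_sup (f := fun i => bd (f i)) (Finset.mem_univ i)⟩
  have key : ∀ i j, (Qsn N hN) (f j - f i)
      = G N ((List.range m).map (fun k => f j k - f i k)) ((0 : S → (ℕ →₀ ℝ)) j
        - (0 : S → (ℕ →₀ ℝ)) i) := by
    intro i j
    show Q N (f j - f i) = _
    rw [Q_eq N (f j - f i) (m := m)]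
    · simp only [Pi.zero_apply, sub_zero]
      rfl
    · intro k hk
      by_cases h : f j k = 0
      · refine lt_of_lt_of_le (lt_bd (a := f i) ?_) (hm i)
        intro h'
        apply hk
        simp [h, h']
      · exact lt_of_lt_of_le (lt_bd h) (hm j)
  simp only [key]
  exact G_markov N hN hp hM π P h1 h2 h3 h4 h5 t ht (fun i => f i) (List.range m) 0

lemma Q_good (N : Seminorm ℝ (ℕ →₀ ℝ)) (hN : ∀ j, N (Finsupp.single j 1) ≤ 1) {θ : ℝ}
    (hθ : 0 < θ) (hT : ∀ (a : ℕ →₀ ℝ) (i : ℕ), θ * |tail i a| ≤ N a) : Good (Qsn N hN) θ := by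
  refine ⟨fun φ hφ a => Q_spread N φ hφ a, ?_, ?_⟩
  · intro j
    show Q N (Finsupp.single j 1) ≤ 1
    have e : Finsupp.single j (1 : ℝ) = Finsupp.mapDomain (fun k => k + j) (Finsupp.single 0 1) := by
      rw [Finsupp.mapDomain_single]; simp
    rw [e, Q_spread N _ (fun a b h => by simpa using h)]
    rw [Q_eq N (Finsupp.single 0 1) (m := 1)]
    · have h := (G_bound N hN ((List.range 1).map (Finsupp.single 0 (1 : ℝ))) 0).2
      simpa using h
    · intro k hk
      by_contra hlt
      apply hk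
      rw [Finsupp.single_apply, if_neg]
      omega
  · intro a i
    show θ * |∑ j ∈ a.support.filter (fun j => i ≤ j), a j| ≤ Q N a
    set m := max (bd a) i with hm
    rw [Q_eq N a (m := m) (fun j hj => lt_of_lt_of_le (lt_bd hj) (le_max_left _ _))]
    obtain ⟨d, hd⟩ : ∃ d, m = i + d := ⟨m - i, by omega⟩
    have hr : List.range m = List.range i ++ (List.range d).map (fun k => i + k) := by
      rw [hd, List.range_add]
    rw [hr, List.map_append]
    have h := G_tail' N hN hθ hT ((List.range i).map a)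
      (((List.range d).map (fun k => i + k)).map a) 0
    have hs : (((List.range d).map (fun k => i + k)).map a).sum
        = ∑ j ∈ a.support.filter (fun j => i ≤ j), a j := by
      rw [List.map_map]
      have e1 : ((List.range d).map (a ∘ fun k => i + k)).sum = ∑ k ∈ Finset.range d, a (i + k) := by
        rw [← List.sum_toFinset _ List.nodup_range]
        congr 1
        ext x; simp
      have e2 : ∑ k ∈ Finset.range d, a (i + k) = ∑ j ∈ Finset.Ico i m, a j := by
        rw [Finset.sum_Ico_eq_sum_range, hd, Nat.add_sub_cancel_left]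
      rw [e1, e2]
      symm
      apply Finset.sum_subset
      · intro j hj
        rw [Finset.mem_filter, Finsupp.mem_support_iff] at hj
        rw [Finset.mem_Ico]
        exact ⟨hj.2, lt_of_lt_of_le (lt_bd hj.1) (le_max_left _ _)⟩
      · intro j hj hj'
        rw [Finset.mem_Ico] at hj
        by_contra hne
        exact hj' (Finset.mem_filter.mpr ⟨Finsupp.mem_support_iff.mpr hne, hj.1⟩)
    rw [hs] at h
    exact h

/-- first ultralimit -/
def N0 (Ns : ℕ → Seminorm ℝ (ℕ →₀ ℝ)) (a : ℕ →₀ ℝ) : ℝ := ulim (fun n => Ns n a)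

lemma Ns_bound (N : Seminorm ℝ (ℕ →₀ ℝ)) (hN : ∀ j, N (Finsupp.single j 1) ≤ 1)
    (a : ℕ →₀ ℝ) : N a ≤ a.sum (fun _ x => |x|) := by
  have e : a = ∑ j ∈ a.support, Finsupp.single j (a j) := by
    conv_lhs => rw [← Finsupp.sum_single a]
    rfl
  have h := Finset.le_sum_of_subadditive N (map_zero N).le (fun x y => map_add_le_add N x y)
    a.support (fun j => Finsupp.single j (a j))
  rw [← e] at h
  refine h.trans ?_
  unfold Finsupp.sum
  exact Finset.sum_le_sum (fun j _ => N_single N hN j (a j))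

lemma N0_tendsto (Ns : ℕ → Seminorm ℝ (ℕ →₀ ℝ)) (hN : ∀ n j, Ns n (Finsupp.single j 1) ≤ 1)
    (a : ℕ →₀ ℝ) : Tendsto (fun n => Ns n a) U (𝓝 (N0 Ns a)) := by
  apply ulim_tendsto (C := a.sum (fun _ x => |x|))
  intro n
  rw [abs_of_nonneg (apply_nonneg _ _)]
  exact Ns_bound (Ns n) (hN n) a

/-- the first ultralimit as a seminorm -/
def N1 (Ns : ℕ → Seminorm ℝ (ℕ →₀ ℝ)) (hN : ∀ n j, Ns n (Finsupp.single j 1) ≤ 1) :
    Seminorm ℝ (ℕ →₀ ℝ) :=
  Seminorm.of (N0 Ns)
    (fun a b => le_of_tendsto_of_tendsto' (N0_tendsto Ns hN (a + b))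
      ((N0_tendsto Ns hN a).add (N0_tendsto Ns hN b)) (fun n => map_add_le_add (Ns n) a b))
    (fun c a => tendsto_nhds_unique (N0_tendsto Ns hN (c • a))
      (((N0_tendsto Ns hN a).const_mul ‖c‖).congr
        (fun n => (map_smul_eq_mul (Ns n) c a).symm)))

end

/-- SPREAD -/
theorem spread : S_SPREAD := by
  intro p K θ hp hK hθ h
  choose Ns hN hT hM using h
  have hT' : ∀ (a : ℕ →₀ ℝ) (i : ℕ), θ * |tail i a| ≤ N1 Ns hN a := by
    intro a i
    refine ge_of_tendsto (N0_tendsto Ns hN a) ?_
    filter_upwards [U_ge (bd a)] with n hn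
    refine hT n a i (fun j hj => ?_)
    by_contra hne
    have := lt_bd hne
    omega
  have hN' : ∀ j, N1 Ns hN (Finsupp.single j 1) ≤ 1 := fun j =>
    le_of_tendsto' (N0_tendsto Ns hN (Finsupp.single j 1)) (fun n => hN n j)
  have hM' : MarkovTypeSN (N1 Ns hN) p K := by
    intro S _ _ π P h1 h2 h3 h4 h5 f t ht
    have key : ∀ i j : S, Tendsto (fun n => (Ns n (f j - f i)) ^ p) U
        (𝓝 ((N1 Ns hN (f j - f i)) ^ p)) := fun i j =>
      (N0_tendsto Ns hN (f j - f i)).rpow_const (p := p) (Or.inr (by linarith))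
    refine le_of_tendsto_of_tendsto'
      (tendsto_finsetSum _ (fun i _ => tendsto_finsetSum _ (fun j _ => (key i j).const_mul _)))
      (((tendsto_finsetSum _ (fun i _ => tendsto_finsetSum _
        (fun j _ => (key i j).const_mul _)))).const_mul _) (fun n => ?_)
    exact hM n S π P h1 h2 h3 h4 h5 f t ht
  exact ⟨Qsn (N1 Ns hN) hN', Q_good _ hN' hθ hT', Q_markov _ hN' hp hM'⟩

end Vale.Agent.P125.SPREAD
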