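import Vale.Agent.P125.Plan

/-!
# P125, module TENT: shifting a tent changes the alternating vector relatively little
-/

namespace Vale.Agent.P125.TENT

open Finset Vale.Agent.P125

noncomputable section

/-- the vector with coordinates `a j`, `j < L` -/
def E (L : ℕ) (a : ℕ → ℝ) : ℕ →₀ ℝ := ∑ j ∈ range L, Finsupp.single j (a j)

lemma q_single (q : Seminorm ℝ (ℕ →₀ ℝ)) (hu : ∀ j, q (Finsupp.single j 1) ≤ 1) (j : ℕ) (c : ℝ) :
    q (Finsupp.single j c) ≤ |c| := by
  have h : (Finsupp.single j c : ℕ →₀ ℝ) = c • Finsupp.single j 1 := by simp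
  rw [h, map_smul_eq_mul, Real.norm_eq_abs]
  have := mul_le_mul_of_nonneg_left (hu j) (abs_nonneg c)
  simpa using this

lemma q_sum (q : Seminorm ℝ (ℕ →₀ ℝ)) {ι : Type*} (s : Finset ι) (g : ι → (ℕ →₀ ℝ)) :
    q (∑ i ∈ s, g i) ≤ ∑ i ∈ s, q (g i) :=
  Finset.le_sum_of_subadditive q (map_zero q).le (map_add_le_add q) s g

lemma q_shift (q : Seminorm ℝ (ℕ →₀ ℝ)) (hu : ∀ j, q (Finsupp.single j 1) ≤ 1) (M : ℕ) (c : ℝ)
    (j : ℕ) :
    q (∑ m ∈ range M, Finsupp.single (j + m) c - ∑ m ∈ range M, Finsupp.single m c)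
      ≤ 2 * j * |c| := by
  induction j with
  | zero => simp
  | succ j ih =>
    have h1 : (∑ m ∈ range M, Finsupp.single (j + 1 + m) c : ℕ →₀ ℝ)
        - ∑ m ∈ range M, Finsupp.single (j + m) c
        = Finsupp.single (j + M) c - Finsupp.single j c := by
      rw [← Finset.sum_sub_distrib]
      have := Finset.sum_range_sub (fun m => (Finsupp.single (j + m) c : ℕ →₀ ℝ)) M
      simp only [add_zero] at this
      rw [← this]
      refine Finset.sum_congr rfl fun m _ => ?_
      rw [show j + 1 + m = j + (m + 1) by ring]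
    have h2 : (∑ m ∈ range M, Finsupp.single (j + 1 + m) c : ℕ →₀ ℝ)
        - ∑ m ∈ range M, Finsupp.single m c
        = (Finsupp.single (j + M) c - Finsupp.single j c)
          + (∑ m ∈ range M, Finsupp.single (j + m) c - ∑ m ∈ range M, Finsupp.single m c) := by
      rw [← h1]; abel
    rw [h2]
    have h3 : q (Finsupp.single (j + M) c - Finsupp.single j c) ≤ |c| + |c| :=
      (map_sub_le_add q _ _).trans (add_le_add (q_single q hu _ c) (q_single q hu _ c))
    have h4 := (map_add_le_add q (Finsupp.single (j + M) c - Finsupp.single j c)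
      (∑ m ∈ range M, Finsupp.single (j + m) c - ∑ m ∈ range M, Finsupp.single m c))
    push_cast
    linarith

lemma group_removal (hSP2 : S_SP2) (q : Seminorm ℝ (ℕ →₀ ℝ)) (hs : Spreading q)
    (hu : ∀ j, q (Finsupp.single j 1) ≤ 1) (a : ℕ → ℝ) (x y J : ℕ) (hxy : x ≤ y) (hyJ : y ≤ J) :
    q (∑ j ∈ range x, Finsupp.single j (a j) + ∑ j ∈ Ico y J, Finsupp.single j (a j))
      ≤ q (E J a) + |∑ j ∈ Ico x y, a j| := by
  set Q := q (E J a) with hQ
  set s := ∑ j ∈ Ico x y, a j with hsdef
  set R := q (∑ j ∈ range x, Finsupp.single j (a j) + ∑ j ∈ Ico y J, Finsupp.single j (a j)) with hR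
  set C := ∑ j ∈ Ico x y, 2 * (j : ℝ) * |a j| with hC
  have split : ∀ F : ℕ → (ℕ →₀ ℝ), ∑ j ∈ range J, F j
      = ∑ j ∈ range x, F j + ∑ j ∈ Ico x y, F j + ∑ j ∈ Ico y J, F j := by
    intro F
    rw [Finset.sum_range_add_sum_Ico F hxy, Finset.sum_range_add_sum_Ico F hyJ]
  have key : ∀ M : ℕ, (M : ℝ) * R ≤ M * Q + M * |s| + C := by
    intro M
    -- the placements
    set pos : ℕ → ℕ → ℕ := fun m j => if j < x then j else if j < y then j + m else j + M with hpos
    have hQm : ∀ m ∈ range M, q (∑ j ∈ range J, Finsupp.single (pos m j) (a j)) = Q := by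
      intro m hm
      rw [Finset.mem_range] at hm
      rw [hQ, E]
      refine hSP2 q hs (range J) a (pos m) (fun j => j) ?_ ?_
      · intro i _ j _ hij
        simp only [hpos]
        split_ifs <;> omega
      · intro i _ j _ hij
        exact hij
    have hb : ∀ m, ∑ j ∈ range x, (Finsupp.single (pos m j) (a j) : ℕ →₀ ℝ)
        = ∑ j ∈ range x, Finsupp.single j (a j) := by
      intro m
      refine Finset.sum_congr rfl fun j hj => ?_
      rw [Finset.mem_range] at hj
      simp [hpos, hj]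
    have hg : ∀ m, ∑ j ∈ Ico x y, (Finsupp.single (pos m j) (a j) : ℕ →₀ ℝ)
        = ∑ j ∈ Ico x y, Finsupp.single (j + m) (a j) := by
      intro m
      refine Finset.sum_congr rfl fun j hj => ?_
      rw [Finset.mem_Ico] at hj
      simp [hpos, not_lt.mpr hj.1, hj.2]
    have hc : ∀ m, ∑ j ∈ Ico y J, (Finsupp.single (pos m j) (a j) : ℕ →₀ ℝ)
        = ∑ j ∈ Ico y J, Finsupp.single (j + M) (a j) := by
      intro m
      refine Finset.sum_congr rfl fun j hj => ?_
      rw [Finset.mem_Ico] at hj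
      simp [hpos, not_lt.mpr hj.1, not_lt.mpr (hxy.trans hj.1)]
    set b := ∑ j ∈ range x, (Finsupp.single j (a j) : ℕ →₀ ℝ) with hbdef
    set c' := ∑ j ∈ Ico y J, (Finsupp.single (j + M) (a j) : ℕ →₀ ℝ) with hcdef
    -- the outer part after moving
    have hR' : q (b + c') = R := by
      have e1 : b + c' = ∑ j ∈ range x ∪ Ico y J,
          Finsupp.single (if j < x then j else j + M) (a j) := by
        rw [Finset.sum_union]
        · rw [hbdef, hcdef]
          congr 1
          · refine Finset.sum_congr rfl fun j hj => ?_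
            rw [Finset.mem_range] at hj
            simp [hj]
          · refine Finset.sum_congr rfl fun j hj => ?_
            rw [Finset.mem_Ico] at hj
            simp [not_lt.mpr (hxy.trans hj.1)]
        · rw [Finset.disjoint_left]
          intro j hj hj'
          rw [Finset.mem_range] at hj
          rw [Finset.mem_Ico] at hj'
          omega
      have e2 : b + ∑ j ∈ Ico y J, Finsupp.single j (a j) = ∑ j ∈ range x ∪ Ico y J,
          Finsupp.single j (a j) := by
        rw [Finset.sum_union]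
        rw [Finset.disjoint_left]
        intro j hj hj'
        rw [Finset.mem_range] at hj
        rw [Finset.mem_Ico] at hj'
        omega
      rw [hR, e1, e2]
      refine hSP2 q hs _ a (fun j => if j < x then j else j + M) (fun j => j) ?_ ?_
      · intro i _ j _ hij
        simp only
        split_ifs <;> omega
      · intro i _ j _ hij
        exact hij
    have htot : ∑ m ∈ range M, ∑ j ∈ range J, (Finsupp.single (pos m j) (a j) : ℕ →₀ ℝ)
        = (M : ℝ) • (b + c') + ∑ m ∈ range M, ∑ j ∈ Ico x y, Finsupp.single (j + m) (a j) := by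
      have : ∀ m ∈ range M, ∑ j ∈ range J, (Finsupp.single (pos m j) (a j) : ℕ →₀ ℝ)
          = (b + c') + ∑ j ∈ Ico x y, Finsupp.single (j + m) (a j) := by
        intro m _
        rw [split, hb, hg, hc]
        abel
      rw [Finset.sum_congr rfl this, Finset.sum_add_distrib, Finset.sum_const, Finset.card_range,
        Nat.cast_smul_eq_nsmul]
    have h1 : q (∑ m ∈ range M, ∑ j ∈ range J, (Finsupp.single (pos m j) (a j) : ℕ →₀ ℝ))
        ≤ M * Q := by
      refine (q_sum q _ _).trans ?_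
      rw [Finset.sum_congr rfl hQm]
      simp
    have h2 : q (∑ m ∈ range M, ∑ j ∈ Ico x y, (Finsupp.single (j + m) (a j) : ℕ →₀ ℝ))
        ≤ M * |s| + C := by
      rw [Finset.sum_comm]
      have e : ∑ j ∈ Ico x y, ∑ m ∈ range M, (Finsupp.single (j + m) (a j) : ℕ →₀ ℝ)
          = ∑ m ∈ range M, Finsupp.single m s
            + ∑ j ∈ Ico x y, (∑ m ∈ range M, Finsupp.single (j + m) (a j)
              - ∑ m ∈ range M, Finsupp.single m (a j)) := by
        rw [Finset.sum_sub_distrib]
        have : ∑ j ∈ Ico x y, ∑ m ∈ range M, (Finsupp.single m (a j) : ℕ →₀ ℝ)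
            = ∑ m ∈ range M, Finsupp.single m s := by
          rw [Finset.sum_comm]
          refine Finset.sum_congr rfl fun m _ => ?_
          rw [hsdef, Finsupp.single_finsetSum]
        rw [this]; abel
      rw [e]
      refine (map_add_le_add q _ _).trans (add_le_add ?_ ?_)
      · refine (q_sum q _ _).trans ?_
        refine (Finset.sum_le_sum fun m _ => q_single q hu m s).trans ?_
        simp
      · refine (q_sum q _ _).trans ?_
        exact Finset.sum_le_sum fun j _ => q_shift q hu M (a j) j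
    have h3 : (M : ℝ) * R = q ((M : ℝ) • (b + c')) := by
      rw [map_smul_eq_mul, hR', Real.norm_eq_abs, abs_of_nonneg (Nat.cast_nonneg M)]
    have h4 : (M : ℝ) • (b + c')
        = ∑ m ∈ range M, ∑ j ∈ range J, (Finsupp.single (pos m j) (a j) : ℕ →₀ ℝ)
          - ∑ m ∈ range M, ∑ j ∈ Ico x y, Finsupp.single (j + m) (a j) := by
      rw [htot]; abel
    rw [h3, h4]
    refine (map_sub_le_add q _ _).trans ?_
    linarith
  by_contra hcon
  push Not at hcon
  have hd : 0 < R - Q - |s| := by linarith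
  obtain ⟨M, hM⟩ := exists_nat_gt (C / (R - Q - |s|))
  have := key M
  rw [div_lt_iff₀ hd] at hM
  nlinarith

/-! ## alternating vectors -/

lemma alt_eq (J : ℕ) (f : ℤ → ℝ) : alt J f = E J (fun j => (-1) ^ j * f j) := rfl

lemma alt_add (J : ℕ) (f g : ℤ → ℝ) : alt J (fun j => f j + g j) = alt J f + alt J g := by
  rw [alt, alt, alt, ← Finset.sum_add_distrib]
  refine Finset.sum_congr rfl fun j _ => ?_
  rw [← Finsupp.single_add, mul_add]

lemma alt_sub (J : ℕ) (f g : ℤ → ℝ) : alt J (fun j => f j - g j) = alt J f - alt J g := by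
  rw [alt, alt, alt, ← Finset.sum_sub_distrib]
  refine Finset.sum_congr rfl fun j _ => ?_
  rw [← Finsupp.single_sub, mul_sub]

lemma alt_congr (J : ℕ) (f g : ℤ → ℝ) (h : ∀ j : ℕ, j < J → f j = g j) : alt J f = alt J g := by
  rw [alt, alt]
  refine Finset.sum_congr rfl fun j hj => ?_
  rw [h j (Finset.mem_range.mp hj)]

/-- terms beyond the support do not matter -/
lemma alt_ext (J J' : ℕ) (f : ℤ → ℝ) (hJ : J ≤ J') (hf : ∀ j : ℕ, J ≤ j → f j = 0) :
    alt J' f = alt J f := by
  rw [alt, alt, ← Finset.sum_range_add_sum_Ico _ hJ]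
  have : ∑ j ∈ Ico J J', (Finsupp.single j ((-1) ^ j * f j) : ℕ →₀ ℝ) = 0 := by
    refine Finset.sum_eq_zero fun j hj => ?_
    rw [Finset.mem_Ico] at hj
    rw [hf j hj.1]; simp
  rw [this, add_zero]

/-- the norm of an alternating vector on a window only depends on the values in the window -/
lemma q_window (hSP2 : S_SP2) (q : Seminorm ℝ (ℕ →₀ ℝ)) (hs : Spreading q) (x n : ℕ) (f : ℕ → ℝ) :
    q (∑ j ∈ Ico x (x + n), Finsupp.single j ((-1) ^ j * f j))
      = q (∑ k ∈ range n, Finsupp.single k ((-1) ^ k * f (x + k))) := by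
  rw [Finset.sum_Ico_eq_sum_range, Nat.add_sub_cancel_left]
  have h1 : ∑ k ∈ range n, (Finsupp.single (x + k) ((-1 : ℝ) ^ (x + k) * f (x + k)) : ℕ →₀ ℝ)
      = ((-1 : ℝ) ^ x) • ∑ k ∈ range n, Finsupp.single (x + k) ((-1) ^ k * f (x + k)) := by
    rw [Finset.smul_sum]
    refine Finset.sum_congr rfl fun k _ => ?_
    rw [Finsupp.smul_single, smul_eq_mul, pow_add, mul_assoc]
  rw [h1, map_smul_eq_mul]
  have h2 : ‖((-1 : ℝ) ^ x)‖ = 1 := by simp
  rw [h2, one_mul]
  refine hSP2 q hs (range n) (fun k => (-1) ^ k * f (x + k)) (fun k => x + k) (fun k => k) ?_ ?_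
  · intro i _ j _ hij
    simp only; omega
  · intro i _ j _ hij
    exact hij

/-! ## alternating sums -/

lemma s0 (m : ℕ) : ∑ k ∈ range (2 * m), ((-1 : ℝ) ^ k) = 0 := by
  induction m with
  | zero => simp
  | succ m ih =>
    rw [show 2 * (m + 1) = 2 * m + 1 + 1 by ring, Finset.sum_range_succ, Finset.sum_range_succ, ih]
    simp [pow_succ, pow_mul]

lemma s1 (m : ℕ) : ∑ k ∈ range (2 * m), ((-1 : ℝ) ^ k) * k = -m := by
  induction m with
  | zero => simp
  | succ m ih =>
    rw [show 2 * (m + 1) = 2 * m + 1 + 1 by ring, Finset.sum_range_succ, Finset.sum_range_succ, ih]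
    simp [pow_succ, pow_mul]
    ring

lemma sAff (m : ℕ) (u v : ℝ) : ∑ k ∈ range (2 * m), ((-1 : ℝ) ^ k) * (u + v * k) = - (v * m) := by
  have : ∀ k ∈ range (2 * m), ((-1 : ℝ) ^ k) * (u + v * k) = u * (-1) ^ k + v * ((-1) ^ k * k) := by
    intro k _; ring
  rw [Finset.sum_congr rfl this, Finset.sum_add_distrib, ← Finset.mul_sum, ← Finset.mul_sum, s0, s1]
  ring

lemma abs_window (x m : ℕ) (u v : ℝ) (f : ℕ → ℝ)
    (hf : ∀ k, k < 2 * m → f (x + k) = u + v * k) :
    |∑ j ∈ Ico x (x + 2 * m), (-1 : ℝ) ^ j * f j| = |v| * m := by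
  rw [Finset.sum_Ico_eq_sum_range, Nat.add_sub_cancel_left]
  have : ∀ k ∈ range (2 * m), (-1 : ℝ) ^ (x + k) * f (x + k)
      = (-1) ^ x * ((-1) ^ k * (u + v * k)) := by
    intro k hk
    rw [hf k (Finset.mem_range.mp hk), pow_add]; ring
  rw [Finset.sum_congr rfl this, ← Finset.mul_sum, sAff, abs_mul, abs_neg, abs_mul]
  simp

/-! ## tents -/

lemma tent_zero (n : ℕ) (o j : ℤ) (h : (n : ℤ) ≤ |j - o|) : tent n o j = 0 := by
  rw [tent, max_eq_left (by linarith)]; simp

lemma tent_left (n : ℕ) (o j : ℤ) (h1 : o - n ≤ j) (h2 : j ≤ o) :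
    tent n o j = (n : ℝ) - (o - j) := by
  rw [tent, abs_of_nonpos (by linarith), max_eq_right (by linarith)]; push_cast; ring

lemma tent_right (n : ℕ) (o j : ℤ) (h1 : o ≤ j) (h2 : j ≤ o + n) :
    tent n o j = (n : ℝ) - (j - o) := by
  rw [tent, abs_of_nonneg (by linarith), max_eq_right (by linarith)]; push_cast; ring

/-- `kap n` : the norm of `n` consecutive alternating signs -/
def kap (q : Seminorm ℝ (ℕ →₀ ℝ)) (n : ℕ) : ℝ :=
  q (∑ k ∈ range n, Finsupp.single k ((-1) ^ k * (1 : ℝ)))

lemma q_ones (hSP2 : S_SP2) (q : Seminorm ℝ (ℕ →₀ ℝ)) (hs : Spreading q) (x n : ℕ) :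
    q (∑ j ∈ Ico x (x + n), Finsupp.single j ((-1) ^ j * (1 : ℝ))) = kap q n :=
  q_window hSP2 q hs x n (fun _ => 1)

/-- one step -/
lemma step_le (hSP2 : S_SP2) (q : Seminorm ℝ (ℕ →₀ ℝ)) (hs : Spreading q) (n J c : ℕ)
    (hn : n ≤ c) (hJ : c + 1 + n ≤ J) :
    q (alt J (tent n ((c + 1 : ℕ) : ℤ)) - alt J (tent n (c : ℤ))) ≤ 2 * kap q n := by
  have h : alt J (tent n ((c + 1 : ℕ) : ℤ)) - alt J (tent n (c : ℤ))
      = ∑ j ∈ Ico (c + 1) (c + 1 + n), Finsupp.single j ((-1) ^ j * (1 : ℝ))
        - ∑ j ∈ Ico (c + 1 - n) (c + 1 - n + n), Finsupp.single j ((-1) ^ j * (1 : ℝ)) := by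
    have ind : ∀ x y : ℕ, y ≤ J → ∑ j ∈ Ico x y, (Finsupp.single j ((-1) ^ j * (1 : ℝ)) : ℕ →₀ ℝ)
        = ∑ j ∈ range J, Finsupp.single j ((-1) ^ j * (if x ≤ j ∧ j < y then (1 : ℝ) else 0)) := by
      intro x y hy
      have : Ico x y = (range J).filter (fun j => x ≤ j ∧ j < y) := by
        ext j; simp only [Finset.mem_Ico, Finset.mem_filter, Finset.mem_range]; omega
      rw [this, Finset.sum_filter]
      refine Finset.sum_congr rfl fun j _ => ?_
      split_ifs <;> simp
    rw [ind _ _ (by omega), ind _ _ (by omega), ← Finset.sum_sub_distrib, ← alt_sub, alt]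
    refine Finset.sum_congr rfl fun j hj => ?_
    rw [← Finsupp.single_sub, ← mul_sub]
    congr 2
    have hcn : c + 1 - n + n = c + 1 := by omega
    rw [hcn]
    rcases lt_or_ge j (c + 1 - n) with h1 | h1
    · rw [tent_zero n _ _ (by rw [abs_of_nonpos (by push_cast; omega)]; push_cast; omega),
        tent_zero n _ _ (by rw [abs_of_nonpos (by push_cast; omega)]; push_cast; omega),
        if_neg (by omega), if_neg (by omega)]
    · rcases lt_or_ge j (c + 1) with h2 | h2
      · rw [tent_left n _ _ (by push_cast; omega) (by push_cast; omega),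
          tent_left n _ _ (by omega) (by omega), if_neg (by omega), if_pos (by omega)]
        push_cast; ring
      · rcases lt_or_ge j (c + 1 + n) with h3 | h3
        · rw [tent_right n _ _ (by push_cast; omega) (by push_cast; omega),
            tent_right n _ _ (by omega) (by omega), if_pos (by omega), if_neg (by omega)]
          push_cast; ring
        · rw [tent_zero n _ _ (by rw [abs_of_nonneg (by push_cast; omega)]; push_cast; omega),
            tent_zero n _ _ (by rw [abs_of_nonneg (by push_cast; omega)]; push_cast; omega),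
            if_neg (by omega), if_neg (by omega)]
  rw [h]
  refine (map_sub_le_add q _ _).trans ?_
  rw [q_ones hSP2 q hs, q_ones hSP2 q hs]
  linarith

lemma steps_le (hSP2 : S_SP2) (q : Seminorm ℝ (ℕ →₀ ℝ)) (hs : Spreading q) (n J c : ℕ)
    (hn : n ≤ c) (k : ℕ) (hJ : c + k + n ≤ J) :
    q (alt J (tent n ((c + k : ℕ) : ℤ)) - alt J (tent n (c : ℤ))) ≤ 2 * k * kap q n := by
  induction k with
  | zero => simp
  | succ k ih =>
    have h1 := ih (by omega)
    have h2 := step_le hSP2 q hs n J (c + k) (by omega) (by omega)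
    have e : alt J (tent n ((c + (k + 1) : ℕ) : ℤ)) - alt J (tent n (c : ℤ))
        = (alt J (tent n ((c + k + 1 : ℕ) : ℤ)) - alt J (tent n ((c + k : ℕ) : ℤ)))
          + (alt J (tent n ((c + k : ℕ) : ℤ)) - alt J (tent n (c : ℤ))) := by
      rw [show c + (k + 1) = c + k + 1 by ring]; abel
    rw [e]
    refine (map_add_le_add q _ _).trans ?_
    push_cast at h1 h2 ⊢
    nlinarith

lemma tent_shift (n : ℕ) (o j t : ℤ) : tent n (o + t) (j + t) = tent n o j := by
  rw [tent, tent, show j + t - (o + t) = j - o by ring]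

/-- translation invariance -/
lemma q_tent_shift (hSP2 : S_SP2) (q : Seminorm ℝ (ℕ →₀ ℝ)) (hs : Spreading q) (n J c k : ℕ)
    (hn : n ≤ c) (hJ : c + n ≤ J) :
    q (alt (k + J) (tent n ((c + k : ℕ) : ℤ))) = q (alt J (tent n (c : ℤ))) := by
  have h0 : alt (k + J) (tent n ((c + k : ℕ) : ℤ))
      = ∑ j ∈ Ico k (k + J), Finsupp.single j ((-1) ^ j * tent n ((c + k : ℕ) : ℤ) j) := by
    rw [alt, ← Finset.sum_range_add_sum_Ico _ (Nat.le_add_right k J)]
    have : ∑ j ∈ range k, (Finsupp.single j ((-1) ^ j * tent n ((c + k : ℕ) : ℤ) j) : ℕ →₀ ℝ) = 0 := by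
      refine Finset.sum_eq_zero fun j hj => ?_
      rw [Finset.mem_range] at hj
      rw [tent_zero n _ _ (by rw [abs_of_nonpos (by push_cast; omega)]; push_cast; omega)]
      simp
    rw [this, zero_add]
  rw [h0, q_window hSP2 q hs k J (fun j => tent n ((c + k : ℕ) : ℤ) j), alt]
  congr 1
  refine Finset.sum_congr rfl fun j _ => ?_
  have := tent_shift n c j k
  push_cast
  rw [add_comm (k : ℤ) j, this]

/-- the lower bound for the norm of a tent -/
lemma tail_le (q : Seminorm ℝ (ℕ →₀ ℝ)) (θ : ℝ) (hθ : 0 < θ) (hq : Good q θ) (m J c : ℕ)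
    (hJ : c + 2 * m ≤ J) :
    θ * m ≤ q (alt J (tent (2 * m) (c : ℤ))) := by
  have h := hq.tail (alt J (tent (2 * m) (c : ℤ))) c
  have hval : ∀ j, (alt J (tent (2 * m) (c : ℤ))) j
      = if j < J then (-1) ^ j * tent (2 * m) (c : ℤ) j else 0 := by
    intro j
    rw [alt, Finsupp.finsetSum_apply]
    simp only [Finsupp.single_apply]
    rw [Finset.sum_ite_eq' (range J) j]
    simp
  have hsum : ∑ j ∈ (alt J (tent (2 * m) (c : ℤ))).support.filter (fun j => c ≤ j),
      (alt J (tent (2 * m) (c : ℤ))) j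
      = ∑ j ∈ Ico c (c + 2 * m), (-1 : ℝ) ^ j * tent (2 * m) (c : ℤ) j := by
    have hsub : (alt J (tent (2 * m) (c : ℤ))).support.filter (fun j => c ≤ j)
        ⊆ Ico c (c + 2 * m) := by
      intro j hj
      rw [Finset.mem_filter, Finsupp.mem_support_iff, hval] at hj
      rw [Finset.mem_Ico]
      refine ⟨hj.2, ?_⟩
      by_contra hcon
      push Not at hcon
      apply hj.1
      rw [tent_zero _ _ _ (by rw [abs_of_nonneg (by omega)]; push_cast; omega)]
      simp
    rw [Finset.sum_subset hsub]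
    · refine Finset.sum_congr rfl fun j hj => ?_
      rw [Finset.mem_Ico] at hj
      rw [hval, if_pos (by omega)]
    · intro j hj hj'
      rw [Finset.mem_Ico] at hj
      rw [Finset.mem_filter, Finsupp.mem_support_iff] at hj'
      by_contra hne
      exact hj' ⟨hne, hj.1⟩
  rw [hsum] at h
  have h2 := abs_window c m (2 * m : ℝ) (-1) (fun j => tent (2 * m) (c : ℤ) j) (by
    intro k hk
    rw [tent_right _ _ _ (by push_cast; omega) (by push_cast; omega)]
    push_cast; ring)
  rw [h2] at h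
  simpa using h

/-- the upper bound for `kap` -/
lemma kap_le (hSP2 : S_SP2) (q : Seminorm ℝ (ℕ →₀ ℝ)) (θ : ℝ) (hθ : 0 < θ) (hq : Good q θ)
    (m J c : ℕ) (hc : 2 * m ≤ c) (hJ : c + 2 * m ≤ J) :
    (2 * m : ℝ) * kap q (2 * m) ≤ 2 * q (alt J (tent (2 * m) (c : ℤ))) + 2 * m := by
  have hs := hq.spreading
  have hu := hq.unit
  set n := 2 * m with hn
  set N := q (alt J (tent n (c : ℤ))) with hN
  -- everything in a large window
  set J' := c + 2 * n + 1 with hJ'
  set f : ℤ → ℝ := fun j => tent n (c : ℤ) j + tent n ((c + n : ℕ) : ℤ) j with hf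
  have hq1 : q (alt J' (tent n (c : ℤ))) = N := by
    have e1 : alt J' (tent n (c : ℤ)) = alt (c + n) (tent n (c : ℤ)) :=
      alt_ext _ _ _ (by omega) (fun j hj => tent_zero _ _ _ (by
        rw [abs_of_nonneg (by omega)]; omega))
    have e2 : alt J (tent n (c : ℤ)) = alt (c + n) (tent n (c : ℤ)) :=
      alt_ext _ _ _ (by omega) (fun j hj => tent_zero _ _ _ (by
        rw [abs_of_nonneg (by omega)]; omega))
    rw [hN, e1, e2]
  have hq2 : q (alt J' (tent n ((c + n : ℕ) : ℤ))) = N := by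
    have := q_tent_shift hSP2 q hs n (c + n + 1) c n hc (by omega)
    have e : n + (c + n + 1) = J' := by omega
    rw [e] at this
    have e1 : alt (c + n + 1) (tent n (c : ℤ)) = alt (c + n) (tent n (c : ℤ)) :=
      alt_ext _ _ _ (by omega) (fun j hj => tent_zero _ _ _ (by
        rw [abs_of_nonneg (by omega)]; omega))
    have e2 : alt J (tent n (c : ℤ)) = alt (c + n) (tent n (c : ℤ)) :=
      alt_ext _ _ _ (by omega) (fun j hj => tent_zero _ _ _ (by
        rw [abs_of_nonneg (by omega)]; omega))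
    rw [this, hN, e1, e2]
  have hq3 : q (alt J' f) ≤ 2 * N := by
    rw [hf, alt_add]
    refine (map_add_le_add q _ _).trans ?_
    rw [hq1, hq2]; linarith
  -- values of `f`
  have f1 : ∀ j : ℕ, j < c + 1 - n → f j = 0 := by
    intro j hj
    rw [hf]; simp only
    rw [tent_zero _ _ _ (by rw [abs_of_nonpos (by omega)]; omega),
      tent_zero _ _ _ (by rw [abs_of_nonpos (by push_cast; omega)]; push_cast; omega), add_zero]
  have f2 : ∀ k : ℕ, k < n → f ((c + 1 - n + k : ℕ) : ℤ) = 1 + 1 * k := by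
    intro k hk
    rw [hf]; simp only
    rw [tent_left _ _ _ (by omega) (by omega),
      tent_zero _ _ _ (by rw [abs_of_nonpos (by push_cast; omega)]; push_cast; omega), add_zero]
    have : ((c + 1 - n + k : ℕ) : ℤ) = (c : ℤ) + 1 - n + k := by omega
    rw [this]; push_cast; ring
  have f3 : ∀ j : ℕ, c + 1 ≤ j → j < c + n + 1 → f j = n := by
    intro j h1 h2
    rw [hf]; simp only
    rw [tent_right _ _ _ (by omega) (by omega),
      tent_left _ _ _ (by push_cast; omega) (by push_cast; omega)]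
    push_cast; ring
  have f4 : ∀ k : ℕ, k < n → f ((c + n + 1 + k : ℕ) : ℤ) = ((n : ℝ) - 1) + (-1) * k := by
    intro k hk
    rw [hf]; simp only
    rw [tent_zero _ _ _ (by rw [abs_of_nonneg (by push_cast; omega)]; push_cast; omega), zero_add,
      tent_right _ _ _ (by push_cast; omega) (by push_cast; omega)]
    push_cast; ring
  -- first removal
  have g1 := group_removal hSP2 q hs hu (fun j => (-1) ^ j * f j) (c + n + 1) J' J' (by omega) le_rfl
  rw [Finset.Ico_self, Finset.sum_empty, add_zero] at g1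
  have a1 := abs_window (c + n + 1) m ((n : ℝ) - 1) (-1) (fun j => f j) (by
    intro k hk; exact f4 k hk)
  rw [show c + n + 1 + 2 * m = J' by omega] at a1
  rw [a1] at g1
  -- second removal
  have g2 := group_removal hSP2 q hs hu (fun j => (-1) ^ j * f j) (c + 1 - n) (c + 1) (c + n + 1)
    (by omega) (by omega)
  have z : ∑ j ∈ range (c + 1 - n), (Finsupp.single j ((-1) ^ j * f j) : ℕ →₀ ℝ) = 0 := by
    refine Finset.sum_eq_zero fun j hj => ?_
    rw [Finset.mem_range] at hj
    rw [f1 j hj]; simp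
  rw [z, zero_add] at g2
  have a2 := abs_window (c + 1 - n) m 1 1 (fun j => f j) (by
    intro k hk; exact f2 k hk)
  rw [show c + 1 - n + 2 * m = c + 1 by omega] at a2
  rw [a2] at g2
  have k1 : q (∑ j ∈ Ico (c + 1) (c + n + 1), Finsupp.single j ((-1) ^ j * f j)) = n * kap q n := by
    have e : ∑ j ∈ Ico (c + 1) (c + n + 1), (Finsupp.single j ((-1) ^ j * f j) : ℕ →₀ ℝ)
        = (n : ℝ) • ∑ j ∈ Ico (c + 1) (c + 1 + n), Finsupp.single j ((-1) ^ j * (1 : ℝ)) := by
      rw [Finset.smul_sum, show c + 1 + n = c + n + 1 by ring]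
      refine Finset.sum_congr rfl fun j hj => ?_
      rw [Finset.mem_Ico] at hj
      rw [f3 j hj.1 hj.2, Finsupp.smul_single, smul_eq_mul]
      congr 1; ring
    rw [e, map_smul_eq_mul, q_ones hSP2 q hs]
    simp
  rw [k1] at g2
  have h3 : q (E J' (fun j => (-1) ^ j * f j)) ≤ 2 * N := hq3
  have h4 : q (E (c + n + 1) (fun j => (-1) ^ j * f j))
      ≤ q (E J' (fun j => (-1) ^ j * f j)) + |(-1 : ℝ)| * m := g1
  have hnc : (n : ℝ) = 2 * m := by rw [hn]; push_cast; ring
  rw [hnc] at g2
  simp only [abs_neg, abs_one, one_mul] at g2 h4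
  linarith

/-- **module TENT** -/
theorem tent_main (hSP2 : S_SP2) : S_TENT := by
  intro q θ hθ hq n J o s hn1 hev ho hos hoJ hosJ
  obtain ⟨m, hm⟩ := hev
  have hm' : n = 2 * m := by omega
  subst hm'
  have hm1 : 1 ≤ m := by omega
  obtain ⟨c, rfl⟩ : ∃ c : ℕ, o = c := ⟨o.toNat, by omega⟩
  obtain ⟨c', hc'⟩ : ∃ c' : ℕ, (c : ℤ) + s = c' := ⟨((c : ℤ) + s).toNat, by omega⟩
  have t1 := tail_le q θ hθ hq m J c (by omega)
  refine ⟨?_, ?_⟩
  · push_cast
    have : θ * (2 * (m : ℝ) / 2) = θ * m := by ring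
    rw [this]; exact t1
  · set N := q (alt J (tent (2 * m) (c : ℤ))) with hN
    have k1 := kap_le hSP2 q θ hθ hq m J c (by omega) (by omega)
    rw [← hN] at k1
    have k2 : q (alt J (tent (2 * m) ((c : ℤ) + s)) - alt J (tent (2 * m) (c : ℤ)))
        ≤ 2 * |(s : ℝ)| * kap q (2 * m) := by
      rcases le_total c c' with h | h
      · obtain ⟨k, hk⟩ := Nat.exists_eq_add_of_le h
        have hsk : s = k := by omega
        have := steps_le hSP2 q hq.spreading (2 * m) J c (by omega) k (by omega)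
        rw [hsk, show ((c : ℤ) + (k : ℤ)) = ((c + k : ℕ) : ℤ) by push_cast; ring]
        simpa using this
      · obtain ⟨k, hk⟩ := Nat.exists_eq_add_of_le h
        have hsk : s = -k := by omega
        have := steps_le hSP2 q hq.spreading (2 * m) J c' (by omega) k (by omega)
        rw [map_sub_rev, hc', hsk]
        rw [← hk] at this
        simpa using this
    refine k2.trans ?_
    have hmpos : (0 : ℝ) < 2 * m := by
      have : (1 : ℝ) ≤ m := by exact_mod_cast hm1
      linarith
    have hNpos : (2 * m : ℝ) ≤ 2 / θ * N := by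
      have : (m : ℝ) ≤ N / θ := by rw [le_div_iff₀ hθ]; linarith
      have e : 2 / θ * N = 2 * (N / θ) := by ring
      rw [e]; linarith
    have k3 : kap q (2 * m) ≤ 2 / (2 * m) * (1 + 1 / θ) * N := by
      have : kap q (2 * m) ≤ (2 * N + 2 / θ * N) / (2 * m) := by
        rw [le_div_iff₀ hmpos]; linarith
      refine this.trans (le_of_eq ?_)
      field_simp
    have k4 := mul_le_mul_of_nonneg_left k3 (show 0 ≤ 2 * |(s : ℝ)| by positivity)
    refine k4.trans (le_of_eq ?_)
    push_cast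
    ring

end

end Vale.Agent.P125.TENT
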