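import Vale.Agent.P125.Plan

/-!
# P125, module TREE
-/

namespace Vale.Agent.P125.TREE

open Vale.Agent.P125 Finset

noncomputable section

/-! ## Weighted `L_p` sums of seminorms -/

section lp

variable {V : Type*} [AddCommGroup V] [Module ℝ V] {Ω : Type} [Fintype Ω]

/-- weighted `L_p` sum of seminorms -/
def lpSN (μ : Ω → ℝ) (hμ : ∀ w, 0 ≤ μ w) (q : Ω → Seminorm ℝ V) (p : ℝ) (hp : 1 ≤ p) :
    Seminorm ℝ V :=
  Seminorm.of (fun a => (∑ w, μ w * q w a ^ p) ^ (1 / p))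
    (by
      intro a b
      have hp0 : 0 < p := lt_of_lt_of_le one_pos hp
      have key : ∀ c : V, ∑ w, μ w * q w c ^ p = ∑ w, (μ w ^ (1 / p) * q w c) ^ p := by
        intro c
        refine Finset.sum_congr rfl fun w _ => ?_
        rw [Real.mul_rpow (Real.rpow_nonneg (hμ w) _) (apply_nonneg (q w) c), ← Real.rpow_mul (hμ w),
          one_div, inv_mul_cancel₀ hp0.ne', Real.rpow_one]
      rw [key a, key b]
      refine le_trans ?_ (Real.Lp_add_le_of_nonneg Finset.univ hp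
        (fun w _ => mul_nonneg (Real.rpow_nonneg (hμ w) _) (apply_nonneg (q w) a))
        (fun w _ => mul_nonneg (Real.rpow_nonneg (hμ w) _) (apply_nonneg (q w) b)))
      rw [key (a + b)]
      refine Real.rpow_le_rpow (Finset.sum_nonneg fun w _ => Real.rpow_nonneg
        (mul_nonneg (Real.rpow_nonneg (hμ w) _) (apply_nonneg (q w) _)) _) ?_ (by positivity)
      refine Finset.sum_le_sum fun w _ => ?_
      refine Real.rpow_le_rpow (mul_nonneg (Real.rpow_nonneg (hμ w) _) (apply_nonneg (q w) _)) ?_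
        hp0.le
      rw [← mul_add]
      exact mul_le_mul_of_nonneg_left (map_add_le_add (q w) a b) (Real.rpow_nonneg (hμ w) _))
    (by
      intro c a
      have hp0 : 0 < p := lt_of_lt_of_le one_pos hp
      have h1 : ∑ w, μ w * q w (c • a) ^ p = ‖c‖ ^ p * ∑ w, μ w * q w a ^ p := by
        rw [Finset.mul_sum]
        refine Finset.sum_congr rfl fun w _ => ?_
        rw [map_smul_eq_mul, Real.mul_rpow (norm_nonneg c) (apply_nonneg (q w) a)]
        ring
      rw [h1, Real.mul_rpow (Real.rpow_nonneg (norm_nonneg c) _)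
        (Finset.sum_nonneg fun w _ => mul_nonneg (hμ w) (Real.rpow_nonneg (apply_nonneg (q w) _) _)),
        ← Real.rpow_mul (norm_nonneg c), one_div, mul_inv_cancel₀ hp0.ne', Real.rpow_one])

variable {μ : Ω → ℝ} {hμ : ∀ w, 0 ≤ μ w} {q : Ω → Seminorm ℝ V} {p : ℝ} {hp : 1 ≤ p}

theorem lpSN_apply (a : V) : lpSN μ hμ q p hp a = (∑ w, μ w * q w a ^ p) ^ (1 / p) := rfl

theorem lpSN_rpow (a : V) : (lpSN μ hμ q p hp a) ^ p = ∑ w, μ w * q w a ^ p := by
  have hp0 : 0 < p := lt_of_lt_of_le one_pos hp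
  rw [lpSN_apply, ← Real.rpow_mul (Finset.sum_nonneg fun w _ => mul_nonneg (hμ w)
    (Real.rpow_nonneg (apply_nonneg (q w) _) _)), one_div, inv_mul_cancel₀ hp0.ne', Real.rpow_one]

theorem lpSN_markov {K : ℝ} (h : ∀ w, MarkovTypeSN (q w) p K) :
    MarkovTypeSN (lpSN μ hμ q p hp) p K := by
  intro S _ _ π P h1 h2 h3 h4 h5 f t ht
  have swap : ∀ c : S → S → ℝ, ∑ i, ∑ j, c i j * (lpSN μ hμ q p hp (f j - f i)) ^ p
      = ∑ w, μ w * ∑ i, ∑ j, c i j * q w (f j - f i) ^ p := by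
    intro c
    have e : ∑ w, μ w * ∑ i, ∑ j, c i j * q w (f j - f i) ^ p
        = ∑ i, ∑ j, ∑ w, μ w * (c i j * q w (f j - f i) ^ p) := by
      simp only [Finset.mul_sum]
      rw [Finset.sum_comm]
      exact Finset.sum_congr rfl fun i _ => Finset.sum_comm
    rw [e]
    refine Finset.sum_congr rfl fun i _ => Finset.sum_congr rfl fun j _ => ?_
    rw [lpSN_rpow, Finset.mul_sum]
    exact Finset.sum_congr rfl fun w _ => by ring
  rw [swap (fun i j => π i * (P ^ t) i j), swap (fun i j => π i * P i j), Finset.mul_sum]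
  refine Finset.sum_le_sum fun w _ => ?_
  have := h w S π P h1 h2 h3 h4 h5 f t ht
  calc μ w * ∑ i, ∑ j, π i * (P ^ t) i j * q w (f j - f i) ^ p
      ≤ μ w * (K ^ p * t * ∑ i, ∑ j, π i * P i j * q w (f j - f i) ^ p) :=
        mul_le_mul_of_nonneg_left this (hμ w)
    _ = _ := by ring

theorem le_lpSN (hsum : ∑ w, μ w = 1) (a : V) : ∑ w, μ w * q w a ≤ lpSN μ hμ q p hp a := by
  have hp0 : 0 < p := lt_of_lt_of_le one_pos hp
  have h1 := Real.rpow_arith_mean_le_arith_mean_rpow Finset.univ μ (fun w => q w a)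
    (fun w _ => hμ w) hsum (fun w _ => apply_nonneg (q w) a) hp
  rw [← lpSN_rpow (hμ := hμ) (hp := hp)] at h1
  exact (Real.rpow_le_rpow_iff (Finset.sum_nonneg fun w _ => mul_nonneg (hμ w)
    (apply_nonneg (q w) a)) (apply_nonneg _ _) hp0).mp h1

theorem lpSN_le_one (hsum : ∑ w, μ w = 1) (a : V) (h : ∀ w, q w a ≤ 1) :
    lpSN μ hμ q p hp a ≤ 1 := by
  have hp0 : 0 < p := lt_of_lt_of_le one_pos hp
  rw [lpSN_apply]
  have h1 : ∑ w, μ w * q w a ^ p ≤ 1 := by
    rw [← hsum]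
    refine Finset.sum_le_sum fun w _ => ?_
    exact mul_le_of_le_one_right (hμ w) (Real.rpow_le_one (apply_nonneg (q w) a) (h w) hp0.le)
  exact Real.rpow_le_one (Finset.sum_nonneg fun w _ => mul_nonneg (hμ w)
    (Real.rpow_nonneg (apply_nonneg (q w) _) _)) h1 (by positivity)

end lp

/-! ## Trees -/

section trees

variable {X : Type*} [NormedAddCommGroup X] [NormedSpace ℝ X]

/-- probability of meeting more than `i` big nodes. -/
def Pr : Tr X → ℕ → ℝ
  | Tr.leaf _, _ => 0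
  | Tr.mix l t s, i => l * Pr t i + (1 - l) * Pr s i
  | Tr.big _ _, 0 => 1
  | Tr.big t s, (i + 1) => (1 / 2) * (Pr t i + Pr s i)

theorem val_nonneg {ε : ℝ} (t : Tr X) (h : t.Valid ε) : 0 ≤ t.val := by
  induction t with
  | leaf x => simp [Tr.val]
  | mix l t s iht ihs =>
    obtain ⟨h1, h2, h3, h4⟩ := h
    have := iht h3
    have := ihs h4
    simp only [Tr.val]
    have h5 : 0 ≤ 1 - l := by linarith
    positivity
  | big t s iht ihs =>
    obtain ⟨_, h3, h4⟩ := h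
    have := iht h3
    have := ihs h4
    simp only [Tr.val]
    positivity

theorem val_ge {ε : ℝ} (t : Tr X) (h : t.Valid ε) (i : ℕ) :
    (1 / 2 : ℝ) ^ i * (1 - Pr t i) ≤ t.val := by
  induction t generalizing i with
  | leaf x =>
    simp only [Tr.val, Pr, sub_zero, mul_one]
    exact pow_le_one₀ (by norm_num) (by norm_num)
  | mix l t s iht ihs =>
    obtain ⟨h1, h2, h3, h4⟩ := h
    have e1 := mul_le_mul_of_nonneg_left (iht h3 i) h1
    have e2 := mul_le_mul_of_nonneg_left (ihs h4 i) (by linarith : 0 ≤ 1 - l)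
    simp only [Tr.val, Pr]
    nlinarith
  | big t s iht ihs =>
    have hv := val_nonneg (Tr.big t s) h
    obtain ⟨_, h3, h4⟩ := h
    cases i with
    | zero => simpa [Pr] using hv
    | succ i =>
      have e1 := iht h3 i
      have e2 := ihs h4 i
      simp only [Tr.val, Pr, pow_succ]
      nlinarith

theorem norm_root_le {ε : ℝ} (t : Tr X) (h : t.Valid ε) : ‖t.root‖ ≤ 1 := by
  induction t with
  | leaf x => exact h
  | mix l t s iht ihs =>
    obtain ⟨h1, h2, h3, h4⟩ := h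
    have e1 := iht h3
    have e2 := ihs h4
    simp only [Tr.root]
    calc ‖l • t.root + (1 - l) • s.root‖ ≤ ‖l • t.root‖ + ‖(1 - l) • s.root‖ := norm_add_le _ _
      _ = l * ‖t.root‖ + (1 - l) * ‖s.root‖ := by
        rw [norm_smul, norm_smul, Real.norm_eq_abs, Real.norm_eq_abs, abs_of_nonneg h1,
          abs_of_nonneg (by linarith : 0 ≤ 1 - l)]
      _ ≤ 1 := by nlinarith
  | big t s iht ihs =>
    obtain ⟨_, h3, h4⟩ := h
    have e1 := iht h3
    have e2 := ihs h4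
    simp only [Tr.root]
    rw [norm_smul]
    have := norm_add_le t.root s.root
    norm_num
    linarith

/-- The array attached to a tree. -/
structure Arr (X : Type*) [NormedAddCommGroup X] [NormedSpace ℝ X] (ε : ℝ) (r : X) (Pr : ℕ → ℝ)
    (Ω : Type) [Fintype Ω] where
  μ : Ω → ℝ
  μ_nonneg : ∀ w, 0 ≤ μ w
  μ_sum : ∑ w, μ w = 1
  x : ℕ → Ω → X
  x_le : ∀ j w, ‖x j w‖ ≤ 1
  x_mean : ∀ j, ∑ w, μ w • x j w = r
  L : ℕ → (Ω → X) →ₗ[ℝ] ℝ
  L_le : ∀ i y, |L i y| ≤ ∑ w, μ w * ‖y w‖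
  L_const : ∀ i (v : X), L i (fun _ => v) = 0
  m : ℕ → ℝ
  L_lt : ∀ i j, j < i → L i (x j) = 0
  L_ge : ∀ i j, i ≤ j → L i (x j) = m i
  m_ge : ∀ i, (ε / 2) * Pr i ≤ m i

/-- leaf -/
def Arr.leaf {ε : ℝ} (x : X) (hx : ‖x‖ ≤ 1) : Arr X ε x (fun _ => 0) Unit where
  μ := fun _ => 1
  μ_nonneg := fun _ => zero_le_one
  μ_sum := by simp
  x := fun _ _ => x
  x_le := fun _ _ => hx
  x_mean := fun _ => by simp
  L := fun _ => 0
  L_le := fun i y => by simp
  L_const := fun i v => by simp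
  m := fun _ => 0
  L_lt := fun i j _ => by simp
  L_ge := fun i j _ => by simp
  m_ge := fun i => by simp

/-- restriction to the left summand -/
def lft {Ω₁ Ω₂ : Type} : (Ω₁ ⊕ Ω₂ → X) →ₗ[ℝ] (Ω₁ → X) where
  toFun y := fun w => y (Sum.inl w)
  map_add' _ _ := rfl
  map_smul' _ _ := rfl

/-- restriction to the right summand -/
def rgt {Ω₁ Ω₂ : Type} : (Ω₁ ⊕ Ω₂ → X) →ₗ[ℝ] (Ω₂ → X) where
  toFun y := fun w => y (Sum.inr w)
  map_add' _ _ := rfl
  map_smul' _ _ := rfl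

@[simp] theorem lft_apply {Ω₁ Ω₂ : Type} (y : Ω₁ ⊕ Ω₂ → X) (w : Ω₁) : lft y w = y (Sum.inl w) := rfl
@[simp] theorem rgt_apply {Ω₁ Ω₂ : Type} (y : Ω₁ ⊕ Ω₂ → X) (w : Ω₂) : rgt y w = y (Sum.inr w) := rfl

/-- mixing -/
def Arr.mix {ε : ℝ} {r₁ r₂ : X} {P₁ P₂ : ℕ → ℝ} {Ω₁ Ω₂ : Type} [Fintype Ω₁] [Fintype Ω₂]
    (A : Arr X ε r₁ P₁ Ω₁) (B : Arr X ε r₂ P₂ Ω₂) (l : ℝ) (h0 : 0 ≤ l) (h1 : l ≤ 1) :
    Arr X ε (l • r₁ + (1 - l) • r₂) (fun i => l * P₁ i + (1 - l) * P₂ i) (Ω₁ ⊕ Ω₂) where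
  μ := Sum.elim (fun w => l * A.μ w) (fun w => (1 - l) * B.μ w)
  μ_nonneg := by
    rintro (w | w)
    · exact mul_nonneg h0 (A.μ_nonneg w)
    · exact mul_nonneg (by linarith) (B.μ_nonneg w)
  μ_sum := by
    simp only [Fintype.sum_sum_type, Sum.elim_inl, Sum.elim_inr, ← Finset.mul_sum, A.μ_sum, B.μ_sum]
    ring
  x := fun j => Sum.elim (A.x j) (B.x j)
  x_le := by
    rintro j (w | w)
    · exact A.x_le j w
    · exact B.x_le j w
  x_mean := by
    intro j
    simp only [Fintype.sum_sum_type, Sum.elim_inl, Sum.elim_inr, mul_smul, ← Finset.smul_sum,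
      A.x_mean, B.x_mean]
  L := fun i => l • (A.L i ∘ₗ lft) + (1 - l) • (B.L i ∘ₗ rgt)
  L_le := by
    intro i y
    have e1 := A.L_le i (lft y)
    have e2 := B.L_le i (rgt y)
    simp only [Fintype.sum_sum_type, Sum.elim_inl, Sum.elim_inr, LinearMap.add_apply,
      LinearMap.smul_apply, LinearMap.comp_apply, smul_eq_mul, mul_assoc, ← Finset.mul_sum]
    refine (abs_add_le _ _).trans ?_
    rw [abs_mul, abs_mul, abs_of_nonneg h0, abs_of_nonneg (by linarith : 0 ≤ 1 - l)]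
    exact add_le_add (mul_le_mul_of_nonneg_left e1 h0)
      (mul_le_mul_of_nonneg_left e2 (by linarith))
  L_const := by
    intro i v
    have e1 : (lft (fun _ : Ω₁ ⊕ Ω₂ => v)) = fun _ => v := rfl
    have e2 : (rgt (fun _ : Ω₁ ⊕ Ω₂ => v)) = fun _ => v := rfl
    simp [e1, e2, A.L_const, B.L_const]
  m := fun i => l * A.m i + (1 - l) * B.m i
  L_lt := by
    intro i j hij
    have e1 : (lft (Sum.elim (A.x j) (B.x j))) = A.x j := rfl
    have e2 : (rgt (Sum.elim (A.x j) (B.x j))) = B.x j := rfl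
    simp [e1, e2, A.L_lt i j hij, B.L_lt i j hij]
  L_ge := by
    intro i j hij
    have e1 : (lft (Sum.elim (A.x j) (B.x j))) = A.x j := rfl
    have e2 : (rgt (Sum.elim (A.x j) (B.x j))) = B.x j := rfl
    simp [e1, e2, A.L_ge i j hij, B.L_ge i j hij]
  m_ge := by
    intro i
    have e1 := mul_le_mul_of_nonneg_left (A.m_ge i) h0
    have e2 := mul_le_mul_of_nonneg_left (B.m_ge i) (by linarith : 0 ≤ 1 - l)
    linarith

/-- the mean -/
def mean {Ω : Type} [Fintype Ω] (μ : Ω → ℝ) : (Ω → X) →ₗ[ℝ] X where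
  toFun y := ∑ w, μ w • y w
  map_add' y z := by simp [smul_add, Finset.sum_add_distrib]
  map_smul' c y := by
    simp only [Pi.smul_apply, RingHom.id_apply, Finset.smul_sum]
    exact Finset.sum_congr rfl fun w _ => smul_comm _ _ _

theorem norm_mean_le {Ω : Type} [Fintype Ω] (μ : Ω → ℝ) (h : ∀ w, 0 ≤ μ w) (y : Ω → X) :
    ‖mean μ y‖ ≤ ∑ w, μ w * ‖y w‖ := by
  refine (norm_sum_le _ _).trans (le_of_eq ?_)
  refine Finset.sum_congr rfl fun w _ => ?_
  rw [norm_smul, Real.norm_eq_abs, abs_of_nonneg (h w)]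

theorem mean_const {Ω : Type} [Fintype Ω] (μ : Ω → ℝ) (h : ∑ w, μ w = 1) (v : X) :
    mean μ (fun _ => v) = v := by
  change ∑ w, μ w • v = v
  rw [← Finset.sum_smul, h, one_smul]

/-- shift and put a value in front -/
def pre {α : Type*} (a : α) (f : ℕ → α) : ℕ → α
  | 0 => a
  | (i + 1) => f i

/-- big node -/
theorem Arr.big {ε : ℝ} {r₁ r₂ : X} {P₁ P₂ : ℕ → ℝ} {Ω₁ Ω₂ : Type} [Fintype Ω₁] [Fintype Ω₂]
    (A : Arr X ε r₁ P₁ Ω₁) (B : Arr X ε r₂ P₂ Ω₂) (h : ε ≤ ‖r₁ - r₂‖) (hr₁ : ‖r₁‖ ≤ 1)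
    (hr₂ : ‖r₂‖ ≤ 1) :
    Nonempty (Arr X ε ((1 / 2 : ℝ) • (r₁ + r₂))
      (pre 1 (fun i => (1 / 2) * (P₁ i + P₂ i))) (Ω₁ ⊕ Ω₂)) := by
  obtain ⟨f, hf1, hf2⟩ := exists_dual_vector'' ℝ (r₁ - r₂)
  have hf2' : f (r₁ - r₂) = ‖r₁ - r₂‖ := hf2
  have hmA : ∀ j, mean A.μ (A.x j) = r₁ := A.x_mean
  have hmB : ∀ j, mean B.μ (B.x j) = r₂ := B.x_mean
  set L0 : (Ω₁ ⊕ Ω₂ → X) →ₗ[ℝ] ℝ :=
    (1 / 2 : ℝ) • ((f : X →ₗ[ℝ] ℝ) ∘ₗ (mean A.μ ∘ₗ lft - mean B.μ ∘ₗ rgt)) with hL0
  have hL0ap : ∀ y, L0 y = (1 / 2) * f (mean A.μ (lft y) - mean B.μ (rgt y)) := fun y => rfl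
  set L1 : ℕ → (Ω₁ ⊕ Ω₂ → X) →ₗ[ℝ] ℝ :=
    fun i => (1 / 2 : ℝ) • (A.L i ∘ₗ lft + B.L i ∘ₗ rgt) with hL1
  have hL1ap : ∀ i y, L1 i y = (1 / 2) * (A.L i (lft y) + B.L i (rgt y)) := fun i y => rfl
  have sumeq : ∀ y : Ω₁ ⊕ Ω₂ → X, ∑ w, (Sum.elim (fun w => (1 / 2) * A.μ w)
      (fun w => (1 / 2) * B.μ w)) w * ‖y w‖
      = (1 / 2) * (∑ w, A.μ w * ‖lft y w‖ + ∑ w, B.μ w * ‖rgt y w‖) := by
    intro y
    simp only [Fintype.sum_sum_type, Sum.elim_inl, Sum.elim_inr, mul_assoc, ← Finset.mul_sum,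
      lft_apply, rgt_apply]
    ring
  refine ⟨{
    μ := Sum.elim (fun w => (1 / 2) * A.μ w) (fun w => (1 / 2) * B.μ w)
    μ_nonneg := ?_
    μ_sum := ?_
    x := pre (Sum.elim (fun _ => r₁) (fun _ => r₂)) (fun j => Sum.elim (A.x j) (B.x j))
    x_le := ?_
    x_mean := ?_
    L := pre L0 L1
    L_le := ?_
    L_const := ?_
    m := pre ((1 / 2) * ‖r₁ - r₂‖) (fun i => (1 / 2) * (A.m i + B.m i))
    L_lt := ?_
    L_ge := ?_
    m_ge := ?_ }⟩
  · rintro (w | w)
    · exact mul_nonneg (by norm_num) (A.μ_nonneg w)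
    · exact mul_nonneg (by norm_num) (B.μ_nonneg w)
  · simp only [Fintype.sum_sum_type, Sum.elim_inl, Sum.elim_inr, ← Finset.mul_sum, A.μ_sum, B.μ_sum]
    norm_num
  · intro j w
    cases j with
    | zero => rcases w with w | w <;> simp [pre, hr₁, hr₂]
    | succ j =>
      rcases w with w | w
      · exact A.x_le j w
      · exact B.x_le j w
  · intro j
    cases j with
    | zero =>
      simp only [pre, Fintype.sum_sum_type, Sum.elim_inl, Sum.elim_inr, mul_smul,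
        ← Finset.smul_sum, ← Finset.sum_smul, A.μ_sum, B.μ_sum, one_smul, smul_add]
    | succ j =>
      simp only [pre, Fintype.sum_sum_type, Sum.elim_inl, Sum.elim_inr, mul_smul, ← Finset.smul_sum,
        A.x_mean, B.x_mean, smul_add]
  · intro i y
    rw [sumeq]
    cases i with
    | zero =>
      change |L0 y| ≤ _
      rw [hL0ap, abs_mul, abs_of_nonneg (by norm_num : (0 : ℝ) ≤ 1 / 2)]
      refine mul_le_mul_of_nonneg_left ?_ (by norm_num)
      have e1 : |f (mean A.μ (lft y) - mean B.μ (rgt y))|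
          ≤ ‖mean A.μ (lft y) - mean B.μ (rgt y)‖ := by
        rw [← Real.norm_eq_abs]
        refine (f.le_opNorm _).trans ?_
        exact mul_le_of_le_one_left (norm_nonneg _) hf1
      refine e1.trans ((norm_sub_le _ _).trans ?_)
      exact add_le_add (norm_mean_le _ A.μ_nonneg _) (norm_mean_le _ B.μ_nonneg _)
    | succ i =>
      change |L1 i y| ≤ _
      rw [hL1ap, abs_mul, abs_of_nonneg (by norm_num : (0 : ℝ) ≤ 1 / 2)]
      refine mul_le_mul_of_nonneg_left ?_ (by norm_num)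
      exact (abs_add_le _ _).trans (add_le_add (A.L_le i _) (B.L_le i _))
  · intro i v
    have e1 : (lft (fun _ : Ω₁ ⊕ Ω₂ => v)) = fun _ => v := rfl
    have e2 : (rgt (fun _ : Ω₁ ⊕ Ω₂ => v)) = fun _ => v := rfl
    cases i with
    | zero =>
      change L0 _ = 0
      rw [hL0ap, e1, e2, mean_const _ A.μ_sum, mean_const _ B.μ_sum, sub_self, map_zero, mul_zero]
    | succ i =>
      change L1 i _ = 0
      rw [hL1ap, e1, e2, A.L_const, B.L_const, add_zero, mul_zero]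
  · intro i j hij
    cases i with
    | zero => exact absurd hij (Nat.not_lt_zero _)
    | succ i =>
      cases j with
      | zero =>
        change L1 i (Sum.elim (fun _ => r₁) (fun _ => r₂)) = 0
        have e1 : (lft (Sum.elim (fun _ : Ω₁ => r₁) (fun _ : Ω₂ => r₂))) = fun _ => r₁ := rfl
        have e2 : (rgt (Sum.elim (fun _ : Ω₁ => r₁) (fun _ : Ω₂ => r₂))) = fun _ => r₂ := rfl
        rw [hL1ap, e1, e2, A.L_const, B.L_const, add_zero, mul_zero]
      | succ j =>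
        change L1 i (Sum.elim (A.x j) (B.x j)) = 0
        have e1 : (lft (Sum.elim (A.x j) (B.x j))) = A.x j := rfl
        have e2 : (rgt (Sum.elim (A.x j) (B.x j))) = B.x j := rfl
        rw [hL1ap, e1, e2, A.L_lt i j (by omega), B.L_lt i j (by omega), add_zero, mul_zero]
  · intro i j hij
    cases i with
    | zero =>
      cases j with
      | zero =>
        change L0 (Sum.elim (fun _ => r₁) (fun _ => r₂)) = (1 / 2) * ‖r₁ - r₂‖
        have e1 : (lft (Sum.elim (fun _ : Ω₁ => r₁) (fun _ : Ω₂ => r₂))) = fun _ => r₁ := rfl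
        have e2 : (rgt (Sum.elim (fun _ : Ω₁ => r₁) (fun _ : Ω₂ => r₂))) = fun _ => r₂ := rfl
        rw [hL0ap, e1, e2, mean_const _ A.μ_sum, mean_const _ B.μ_sum, hf2']
      | succ j =>
        change L0 (Sum.elim (A.x j) (B.x j)) = (1 / 2) * ‖r₁ - r₂‖
        have e1 : (lft (Sum.elim (A.x j) (B.x j))) = A.x j := rfl
        have e2 : (rgt (Sum.elim (A.x j) (B.x j))) = B.x j := rfl
        rw [hL0ap, e1, e2, hmA, hmB, hf2']
    | succ i =>
      cases j with
      | zero => exact absurd hij (by omega)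
      | succ j =>
        change L1 i (Sum.elim (A.x j) (B.x j)) = (1 / 2) * (A.m i + B.m i)
        have e1 : (lft (Sum.elim (A.x j) (B.x j))) = A.x j := rfl
        have e2 : (rgt (Sum.elim (A.x j) (B.x j))) = B.x j := rfl
        rw [hL1ap, e1, e2, A.L_ge i j (by omega), B.L_ge i j (by omega)]
  · intro i
    cases i with
    | zero =>
      change (ε / 2) * 1 ≤ (1 / 2) * ‖r₁ - r₂‖
      linarith
    | succ i =>
      change (ε / 2) * ((1 / 2) * (P₁ i + P₂ i)) ≤ (1 / 2) * (A.m i + B.m i)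
      have e1 := A.m_ge i
      have e2 := B.m_ge i
      linarith

theorem exists_arr {ε : ℝ} (t : Tr X) (h : t.Valid ε) :
    ∃ (Ω : Type) (_ : Fintype Ω), Nonempty (Arr X ε t.root (Pr t) Ω) := by
  induction t with
  | leaf x =>
    refine ⟨Unit, inferInstance, ⟨?_⟩⟩
    exact (Arr.leaf x h : Arr X ε x (fun _ => 0) Unit)
  | mix l t s iht ihs =>
    obtain ⟨h1, h2, h3, h4⟩ := h
    obtain ⟨Ω₁, _, ⟨A⟩⟩ := iht h3
    obtain ⟨Ω₂, _, ⟨B⟩⟩ := ihs h4
    exact ⟨Ω₁ ⊕ Ω₂, inferInstance, ⟨Arr.mix A B l h1 h2⟩⟩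
  | big t s iht ihs =>
    obtain ⟨h1, h3, h4⟩ := h
    obtain ⟨Ω₁, _, ⟨A⟩⟩ := iht h3
    obtain ⟨Ω₂, _, ⟨B⟩⟩ := ihs h4
    refine ⟨Ω₁ ⊕ Ω₂, inferInstance, ?_⟩
    obtain ⟨C⟩ := Arr.big A B h1 (norm_root_le t h3) (norm_root_le s h4)
    have e : Pr (Tr.big t s) = pre 1 (fun i => (1 / 2) * (Pr t i + Pr s i)) := by
      ext i
      cases i <;> rfl
    rw [e]
    exact ⟨C⟩

end trees

/-! ## The main statement -/

theorem tree.{u} : S_TREE.{u} := by
  intro X _ _ p K ε hp hK hε hX htr n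
  obtain ⟨t, ht, hval⟩ := htr ((1 / 2 : ℝ) ^ (n + 1)) (by positivity)
  obtain ⟨Ω, _, ⟨A⟩⟩ := exists_arr t ht
  -- the linear maps
  let T : Ω → (ℕ →₀ ℝ) →ₗ[ℝ] X := fun w =>
    Finsupp.linearCombination ℝ (fun j => if j < n then A.x j w else 0)
  let q : Ω → Seminorm ℝ (ℕ →₀ ℝ) := fun w => (normSeminorm ℝ X).comp (T w)
  have hq : ∀ w a, q w a = ‖T w a‖ := fun w a => rfl
  have hPr : ∀ i, i < n → 1 / 2 ≤ Pr t i := by
    intro i hi
    have h1 := val_ge t ht i
    have h2 : (1 / 2 : ℝ) ^ (n + 1) ≤ (1 / 2 : ℝ) ^ (i + 1) :=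
      pow_le_pow_of_le_one (by norm_num) (by norm_num) (by omega)
    have h3 : (1 / 2 : ℝ) ^ i * (1 - Pr t i) < (1 / 2 : ℝ) ^ i * (1 / 2) := by
      rw [← pow_succ]
      linarith
    have h4 := lt_of_mul_lt_mul_left h3 (by positivity)
    linarith
  refine ⟨lpSN A.μ A.μ_nonneg q p hp, ?_, ?_, ?_⟩
  · intro j
    refine lpSN_le_one A.μ_sum _ fun w => ?_
    rw [hq]
    simp only [T, Finsupp.linearCombination_single, one_smul]
    split_ifs
    · exact A.x_le j w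
    · simp
  · intro a i ha
    by_cases hi : i < n
    · have h1 := le_lpSN (hμ := A.μ_nonneg) (q := q) (hp := hp) A.μ_sum a
      refine le_trans ?_ h1
      have h2 := A.L_le i (fun w => T w a)
      refine le_trans ?_ h2
      have hTa : (fun w => T w a) = ∑ j ∈ a.support, a j • A.x j := by
        ext1 w
        simp only [T, Finsupp.linearCombination_apply, Finsupp.sum, Finset.sum_apply, Pi.smul_apply]
        refine Finset.sum_congr rfl fun j hj => ?_
        have : j < n := by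
          by_contra hcon
          exact (Finsupp.mem_support_iff.mp hj) (ha j (by omega))
        rw [if_pos this]
      have h3 : A.L i (fun w => T w a)
          = A.m i * ∑ j ∈ a.support.filter (fun j => i ≤ j), a j := by
        rw [hTa, map_sum, Finset.mul_sum, Finset.sum_filter]
        refine Finset.sum_congr rfl fun j hj => ?_
        rw [map_smul, smul_eq_mul]
        split_ifs with hij
        · rw [A.L_ge i j hij, mul_comm]
        · rw [A.L_lt i j (by omega), mul_zero]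
      rw [h3, abs_mul]
      have h4 : ε / 4 ≤ A.m i := by
        have := A.m_ge i
        have h5 := hPr i hi
        nlinarith
      have h5 : ε / 4 ≤ |A.m i| := h4.trans (le_abs_self _)
      exact mul_le_mul_of_nonneg_right h5 (abs_nonneg _)
    · have h1 : a.support.filter (fun j => i ≤ j) = ∅ := by
        rw [Finset.filter_eq_empty_iff]
        intro j hj hij
        exact (Finsupp.mem_support_iff.mp hj) (ha j (by omega))
      rw [h1, Finset.sum_empty, abs_zero, mul_zero]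
      exact apply_nonneg _ _
  · refine lpSN_markov fun w => ?_
    intro S _ _ π P h1 h2 h3 h4 h5 f s hs
    have h := hX S π P h1 h2 h3 h4 h5 (fun i => T w (f i)) s hs
    have e : ∀ i j, q w (f j - f i) = normSeminorm ℝ X (T w (f j) - T w (f i)) := by
      intro i j
      rw [hq, map_sub]
      rfl
    simp only [e]
    exact h

end

end Vale.Agent.P125.TREE
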