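import Vale.Agent.P125.Plan

namespace Vale.Agent.P125.UPPAT

open Vale.Agent.P125 Finset

noncomputable section

/-- position map -/
def pp (D i : ℕ) (e : ℕ → ℕ) (m : ℕ) : ℕ := e (D * (m / 2) + i + m % 2)

lemma pp_even (D i : ℕ) (e : ℕ → ℕ) (r : ℕ) : pp D i e (2 * r) = e (D * r + i) := by
  unfold pp
  have h1 : 2 * r / 2 = r := by omega
  have h2 : 2 * r % 2 = 0 := by omega
  rw [h1, h2, Nat.add_zero]

lemma pp_odd (D i : ℕ) (e : ℕ → ℕ) (r : ℕ) : pp D i e (2 * r + 1) = e (D * r + i + 1) := by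
  unfold pp
  have h1 : (2 * r + 1) / 2 = r := by omega
  have h2 : (2 * r + 1) % 2 = 1 := by omega
  rw [h1, h2]

lemma sum_range_two_mul {M : Type*} [AddCommMonoid M] (g : ℕ → M) (R : ℕ) :
    ∑ m ∈ range (2 * R), g m = ∑ r ∈ range R, (g (2 * r) + g (2 * r + 1)) := by
  induction R with
  | zero => simp
  | succ n ih =>
    rw [show 2 * (n + 1) = 2 * n + 1 + 1 by ring, sum_range_succ, sum_range_succ, ih,
      sum_range_succ, add_assoc]

lemma vec_eq (D R : ℕ) (f : ℤ → ℝ) (e : ℕ → ℕ) (i τ : ℕ) :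
    vec D R f e i τ = - ∑ m ∈ range (2 * R),
      Finsupp.single (pp D i e m) ((-1 : ℝ) ^ m * f ((m : ℤ) + τ)) := by
  rw [sum_range_two_mul]
  unfold vec
  rw [← Finset.sum_neg_distrib]
  refine Finset.sum_congr rfl fun r _ => ?_
  rw [pp_even, pp_odd]
  have h1 : ((-1 : ℝ)) ^ (2 * r) = 1 := by rw [pow_mul]; simp
  have h2 : ((-1 : ℝ)) ^ (2 * r + 1) = -1 := by rw [pow_succ, h1]; ring
  rw [h1, h2]
  have e1 : (((2 * r : ℕ) : ℤ) + (τ : ℤ)) = 2 * (r : ℤ) + τ := by push_cast; ring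
  have e2 : (((2 * r + 1 : ℕ) : ℤ) + (τ : ℤ)) = 2 * (r : ℤ) + 1 + τ := by push_cast; ring
  rw [e1, e2, one_mul, neg_one_mul, Finsupp.single_neg]
  abel

lemma pp_mono (D R i : ℕ) (hD : 2 ≤ D) (hi : i < D) (e : ℕ → ℕ)
    (he : StrictMonoOn e (Set.Iic (D * R))) :
    StrictMonoOn (pp D i e) (range (2 * R) : Finset ℕ) := by
  intro a ha b hb hab
  rw [Finset.mem_coe, Finset.mem_range] at ha hb
  unfold pp
  have key : ∀ m, m < 2 * R → D * (m / 2) + i + m % 2 ≤ D * R := by
    intro m hm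
    have h1 : m / 2 + 1 ≤ R := by omega
    have h2 : D * (m / 2 + 1) ≤ D * R := Nat.mul_le_mul_left D h1
    have h3 : D * (m / 2 + 1) = D * (m / 2) + D := by ring
    have h4 : m % 2 ≤ 1 := by omega
    omega
  refine he (Set.mem_Iic.2 (key a ha)) (Set.mem_Iic.2 (key b hb)) ?_
  rcases Nat.lt_or_ge (a / 2) (b / 2) with h | h
  · have h2 : D * (a / 2 + 1) ≤ D * (b / 2) := Nat.mul_le_mul_left D h
    have h3 : D * (a / 2 + 1) = D * (a / 2) + D := by ring
    have h4 : a % 2 ≤ 1 := by omega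
    omega
  · have h5 : a / 2 = b / 2 := by omega
    rw [h5]
    omega

/-- UP -/
theorem up (hSP2 : S_SP2) : S_UP := by
  intro q hq D R f e i τ hD hi hτ he hf0 hf1
  rw [vec_eq, map_neg_eq_map]
  have h := hSP2 q hq (range (2 * R)) (fun m => (-1 : ℝ) ^ m * f ((m : ℤ) + τ)) (pp D i e)
    (fun m => m + τ) (pp_mono D R i hD hi e he) (by
      intro a _ b _ hab
      exact Nat.add_lt_add_right hab τ)
  rw [h]
  interval_cases τ
  · unfold alt
    simp
  · have h3 : alt (2 * R) f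
        = - ∑ m ∈ range (2 * R), Finsupp.single (m + 1) ((-1 : ℝ) ^ m * f ((m : ℤ) + (1 : ℕ))) := by
      unfold alt
      have h4 : ∑ j ∈ range (2 * R), Finsupp.single j ((-1 : ℝ) ^ j * f (j : ℤ))
          = ∑ j ∈ range (2 * R + 1), Finsupp.single j ((-1 : ℝ) ^ j * f (j : ℤ)) := by
        rw [sum_range_succ]
        have : f ((2 * R : ℕ) : ℤ) = 0 := by
          rw [← hf1]; push_cast; rfl
        rw [this]
        simp
      rw [h4, sum_range_succ', ← Finset.sum_neg_distrib]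
      have h5 : (Finsupp.single 0 ((-1 : ℝ) ^ 0 * f ((0 : ℕ) : ℤ)) : ℕ →₀ ℝ) = 0 := by
        simp [hf0]
      rw [h5, add_zero]
      refine Finset.sum_congr rfl fun m _ => ?_
      rw [← Finsupp.single_neg]
      congr 1
      push_cast
      rw [pow_succ]
      ring
    rw [h3, map_neg_eq_map]

/-- the crossing patterns -/
def ph (D : ℕ) (σ : Bool) (i k : ℕ) : ℕ :=
  bif σ then
    (if k ≤ i then k else D + (k - (i + 1)) + (D - 2) * ((k - (i + 1)) / D))
  else
    (if k ≤ i then D - i + k else 2 * D - 1 + (k - (i + 1)) + (D - 2) * ((k - (i + 1)) / D))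

lemma ph_mono (D : ℕ) (hD : 4 ≤ D) (σ : Bool) (i : ℕ) (hi : i < D) : StrictMono (ph D σ i) := by
  intro a b hab
  have hdiv : (a - (i + 1)) / D ≤ (b - (i + 1)) / D := Nat.div_le_div_right (by omega)
  have hmul := Nat.mul_le_mul_left (D - 2) hdiv
  cases σ
  · simp only [ph, cond_false]
    split_ifs <;> omega
  · simp only [ph, cond_true]
    split_ifs <;> omega

lemma ph_lt (D R : ℕ) (σ : Bool) (i k : ℕ) (hi : i < D) (hk : k ≤ D * R) :
    ph D σ i k < 2 * D + 1 + D * R + (D - 2) * (D * R) := by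
  have hdiv : (k - (i + 1)) / D ≤ D * R :=
    (Nat.div_le_self _ _).trans ((Nat.sub_le _ _).trans hk)
  have hmul := Nat.mul_le_mul_left (D - 2) hdiv
  cases σ
  · simp only [ph, cond_false]
    split_ifs <;> omega
  · simp only [ph, cond_true]
    split_ifs <;> omega

/-- PAT -/
theorem pat : S_PAT := by
  intro D R hD _
  refine ⟨2 * D + 1 + D * R + (D - 2) * (D * R), ph D, ?_, ?_⟩
  · intro σ i hi
    exact ⟨ph_mono D hD σ i hi, fun k hk => ph_lt D R σ i k hi hk⟩
  · intro i hi i' hi'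
    constructor
    · intro ρ hρ
      obtain ⟨ρ, rfl⟩ : ∃ r, ρ = r + 1 := ⟨ρ - 1, by omega⟩
      simp only [ph, cond_true, cond_false, Nat.add_sub_cancel]
      have e0 : D * (ρ + 1) = D * ρ + D := by ring
      have c1 : ¬ (D * (ρ + 1) + i ≤ i) := by omega
      have c2 : ¬ (D * ρ + i' + 1 ≤ i') := by omega
      rw [if_neg c1, if_neg c2]
      have t1 : D * (ρ + 1) + i - (i + 1) = D * ρ + (D - 1) := by omega
      have t2 : D * ρ + i' + 1 - (i' + 1) = D * ρ := by omega
      rw [t1, t2]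
      have d1 : (D * ρ + (D - 1)) / D = ρ := by
        rw [Nat.mul_add_div (by omega), Nat.div_eq_of_lt (by omega), add_zero]
      have d2 : D * ρ / D = ρ := Nat.mul_div_cancel_left ρ (by omega)
      rw [d1, d2]
      omega
    · intro ρ
      simp only [ph, cond_true, cond_false]
      have c1 : ¬ (D * ρ + i + 1 ≤ i) := by omega
      rw [if_neg c1]
      have t1 : D * ρ + i + 1 - (i + 1) = D * ρ := by omega
      have d2 : D * ρ / D = ρ := Nat.mul_div_cancel_left ρ (by omega)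
      rw [t1, d2]
      rcases Nat.eq_zero_or_pos ρ with rfl | hρ
      · simp
        omega
      · obtain ⟨ρ, rfl⟩ : ∃ r, ρ = r + 1 := ⟨ρ - 1, by omega⟩
        have e0 : D * (ρ + 1) = D * ρ + D := by ring
        have c2 : ¬ (D * (ρ + 1) + i' ≤ i') := by omega
        rw [if_neg c2]
        have t1 : D * (ρ + 1) + i' - (i' + 1) = D * ρ + (D - 1) := by omega
        have d1 : (D * ρ + (D - 1)) / D = ρ := by
          rw [Nat.mul_add_div (by omega), Nat.div_eq_of_lt (by omega), add_zero]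
        rw [t1, d1]
        have e1 : (D - 2) * (ρ + 1) = (D - 2) * ρ + (D - 2) := by ring
        omega

end

end Vale.Agent.P125.UPPAT
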