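import Vale.Agent.P125.Main
import Vale.Agent.P125.Final
import Vale.Agent.P125.Core
import Vale.Agent.P125.LIN
import Vale.Agent.P125.PROB
import Vale.Agent.P125.MEAS
import Vale.Agent.P125.SPREAD
import Vale.Agent.P125.SP2BLK
import Vale.Agent.P125.FLAT
import Vale.Agent.P125.UPPAT
import Vale.Agent.P125.NEST
import Vale.Agent.P125.TREE
import Vale.Agent.P125.RENORM
import Vale.Agent.P125.TENT

namespace Vale.Agent.P125

theorem core_final : S_CORE :=
  Core.core LIN.lin prob (System.sys MEAS.meas UPPAT.pat) SP2BLK.blk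
    (TENT.tent_main SP2BLK.sp2) (UPPAT.up SP2BLK.sp2) (NEST.nest (FLAT.flat SP2BLK.sp2))

theorem superreflexive_final.{u} (X : Type u) [NormedAddCommGroup X] [NormedSpace ℝ X]
    (h : ∃ p : ℝ, 1 < p ∧ HasMarkovType X p) : IsSuperreflexive X := by
  obtain ⟨p, hp, K, hK, hX⟩ := h
  obtain ⟨N, ⟨a, ha, b, hb, hab⟩, hUC⟩ := main_of_modules TREE.tree SPREAD.spread core_final
    renorm X p K hp hK (markovTypeSN_of_fin hX)
  exact ⟨N, ⟨a, b, ha, hb, hab⟩, fun ε hε _ => hUC ε hε⟩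

end Vale.Agent.P125
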