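import Vale.Agent.P125.Plan2

/-!
# P125, module SMOOTH: duality between uniform convexity and uniform smoothness
-/

namespace Vale.Agent.P125
namespace Smooth

variable {X : Type*} [NormedAddCommGroup X] [NormedSpace ℝ X]

/-- The predual norm. -/
noncomputable def nu (N : Seminorm ℝ (X →L[ℝ] ℝ)) (x : X) : ℝ :=
  ⨆ f : {f : X →L[ℝ] ℝ // N f ≤ 1}, |f.1 x|

variable (N : Seminorm ℝ (X →L[ℝ] ℝ))

lemma bdd {a : ℝ} (ha : 0 < a) (h : ∀ f, a * ‖f‖ ≤ N f) (x : X) :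
    BddAbove (Set.range fun f : {f : X →L[ℝ] ℝ // N f ≤ 1} => |f.1 x|) := by
  refine ⟨a⁻¹ * ‖x‖, ?_⟩
  rintro _ ⟨f, rfl⟩
  have h1 : ‖f.1‖ ≤ a⁻¹ := by
    have := h f.1
    have h2 := f.2
    rw [← one_div, le_div_iff₀ ha]
    linarith
  calc |f.1 x| = ‖f.1 x‖ := (Real.norm_eq_abs _).symm
    _ ≤ ‖f.1‖ * ‖x‖ := f.1.le_opNorm x
    _ ≤ a⁻¹ * ‖x‖ := by gcongr

instance : Nonempty {f : X →L[ℝ] ℝ // N f ≤ 1} := ⟨⟨0, by simp⟩⟩

lemma nu_le_upper {a : ℝ} (ha : 0 < a) (h : ∀ f, a * ‖f‖ ≤ N f) (x : X) :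
    nu N x ≤ a⁻¹ * ‖x‖ := by
  refine ciSup_le fun f => ?_
  have h1 : ‖f.1‖ ≤ a⁻¹ := by
    have := h f.1
    have h2 := f.2
    rw [← one_div, le_div_iff₀ ha]
    linarith
  calc |f.1 x| = ‖f.1 x‖ := (Real.norm_eq_abs _).symm
    _ ≤ ‖f.1‖ * ‖x‖ := f.1.le_opNorm x
    _ ≤ a⁻¹ * ‖x‖ := by gcongr

lemma le_nu {a : ℝ} (ha : 0 < a) (h : ∀ f, a * ‖f‖ ≤ N f) (f : X →L[ℝ] ℝ) (hf : N f ≤ 1) (x : X) :
    |f x| ≤ nu N x := le_ciSup (bdd N ha h x) ⟨f, hf⟩

/-- The predual norm as a seminorm. -/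
noncomputable def nuS {a : ℝ} (ha : 0 < a) (h : ∀ f, a * ‖f‖ ≤ N f) : Seminorm ℝ X :=
  Seminorm.of (nu N)
    (fun x y => by
      refine ciSup_le fun f => ?_
      rw [map_add]
      exact (abs_add_le _ _).trans (add_le_add (le_nu N ha h f.1 f.2 x) (le_nu N ha h f.1 f.2 y)))
    (fun r x => by
      unfold nu
      rw [Real.norm_eq_abs, Real.mul_iSup_of_nonneg (abs_nonneg r)]
      congr 1
      funext f
      rw [map_smul, smul_eq_mul, abs_mul])

lemma nuS_apply {a : ℝ} (ha : 0 < a) (h : ∀ f, a * ‖f‖ ≤ N f) (x : X) : nuS N ha h x = nu N x := rfl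

lemma abs_apply_le {a : ℝ} (ha : 0 < a) (h : ∀ f, a * ‖f‖ ≤ N f) (f : X →L[ℝ] ℝ) (x : X) :
    |f x| ≤ N f * nu N x := by
  rcases eq_or_lt_of_le (apply_nonneg N f) with h0 | h0
  · have h1 : ‖f‖ = 0 := by
      have := h f
      have h2 := norm_nonneg f
      nlinarith
    rw [norm_eq_zero] at h1
    rw [← h0, h1]
    simp
  · have h1 : N ((N f)⁻¹ • f) ≤ 1 := by
      rw [map_smul_eq_mul, Real.norm_of_nonneg (by positivity), inv_mul_cancel₀ h0.ne']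
    have h2 := le_nu N ha h _ h1 x
    rw [ContinuousLinearMap.smul_apply, smul_eq_mul, abs_mul, abs_of_pos (by positivity),
      inv_mul_le_iff₀ h0] at h2
    exact h2

lemma nu_lower {a b : ℝ} (ha : 0 < a) (h : ∀ f, a * ‖f‖ ≤ N f) (hb : 0 < b)
    (h' : ∀ f, N f ≤ b * ‖f‖) (x : X) : b⁻¹ * ‖x‖ ≤ nu N x := by
  obtain ⟨g, hg1, hg2⟩ := exists_dual_vector'' ℝ x
  have h1 : N (b⁻¹ • g) ≤ 1 := by
    rw [map_smul_eq_mul, Real.norm_of_nonneg (by positivity), inv_mul_le_iff₀ hb]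
    have := h' g
    nlinarith
  have h2 := le_nu N ha h _ h1 x
  rw [ContinuousLinearMap.smul_apply, smul_eq_mul, hg2] at h2
  exact (le_abs_self _).trans h2

lemma nu_add_nu_le {x y : X} {c : ℝ}
    (hc : ∀ f g : X →L[ℝ] ℝ, N f ≤ 1 → N g ≤ 1 → f x + g y ≤ c) : nu N x + nu N y ≤ c := by
  have key : ∀ f g : X →L[ℝ] ℝ, N f ≤ 1 → N g ≤ 1 → |f x| + |g y| ≤ c := by
    intro f g hf hg
    have hf' : N (-f) ≤ 1 := by rwa [map_neg_eq_map]
    have hg' : N (-g) ≤ 1 := by rwa [map_neg_eq_map]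
    have h1 := hc f g hf hg
    have h2 := hc (-f) g hf' hg
    have h3 := hc f (-g) hf hg'
    have h4 := hc (-f) (-g) hf' hg'
    simp only [ContinuousLinearMap.neg_apply] at h2 h3 h4
    rcases abs_cases (f x) with ⟨e1, -⟩ | ⟨e1, -⟩ <;> rcases abs_cases (g y) with ⟨e2, -⟩ | ⟨e2, -⟩ <;>
      rw [e1, e2] <;> linarith
  have h1 : ∀ g : X →L[ℝ] ℝ, N g ≤ 1 → nu N x ≤ c - |g y| := by
    intro g hg
    refine ciSup_le fun f => ?_
    have := key f.1 g f.2 hg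
    linarith
  have h2 : nu N y ≤ c - nu N x := by
    refine ciSup_le fun g => ?_
    have := h1 g.1 g.2
    linarith
  linarith

theorem us {a : ℝ} (ha : 0 < a) (h : ∀ f, a * ‖f‖ ≤ N f) (huc : UniformlyConvexSN N) :
    UniformlySmoothSN (nuS N ha h) := by
  intro η hη
  obtain ⟨δ, hδ, huc⟩ := huc (2 * η) (by positivity)
  refine ⟨δ, hδ, fun τ hτ hτ1 x y hx hy => ?_⟩
  rw [nuS_apply] at hx hy
  rw [nuS_apply, nuS_apply]
  have key : nu N (x + τ • y) + nu N (x - τ • y) ≤ 2 + 2 * η * τ := by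
    refine nu_add_nu_le N fun f g hf hg => ?_
    have e : f (x + τ • y) + g (x - τ • y) = (f + g) x + τ * (f - g) y := by
      simp
      ring
    rw [e]
    have h1 : (f + g) x ≤ N (f + g) := by
      have := abs_apply_le N ha h (f + g) x
      rw [hx, mul_one] at this
      exact (le_abs_self _).trans this
    have h2 : (f - g) y ≤ N (f - g) := by
      have := abs_apply_le N ha h (f - g) y
      rw [hy, mul_one] at this
      exact (le_abs_self _).trans this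
    have h3 : N (f + g) ≤ 2 := (map_add_le_add N f g).trans (by linarith)
    have h4 : N (f - g) ≤ 2 := (map_sub_le_add N f g).trans (by linarith)
    rcases lt_or_ge (N (f - g)) (2 * η) with h5 | h5
    · nlinarith
    · have h6 := huc f g hf hg h5
      rw [map_smul_eq_mul, Real.norm_of_nonneg (by norm_num)] at h6
      have h7 : 0 < η * τ := by positivity
      nlinarith
  linarith

end Smooth

theorem smooth : S_SMOOTH := by
  intro X _ _ N ⟨a, ha, b, hb, hab⟩ huc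
  refine ⟨Smooth.nuS N ha fun f => (hab f).1, ⟨b⁻¹, inv_pos.mpr hb, a⁻¹, inv_pos.mpr ha, fun x => ?_⟩,
    Smooth.us N ha _ huc⟩
  exact ⟨Smooth.nu_lower N ha (fun f => (hab f).1) hb (fun f => (hab f).2) x,
    Smooth.nu_le_upper N ha (fun f => (hab f).1) x⟩

end Vale.Agent.P125
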