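import Vale.Agent.P125.TREE
import Vale.Agent.P125.Plan2

/-!
# P125, module TREED (dual version of TREE)
-/

namespace Vale.Agent.P125.TREED

open Vale.Agent.P125 Finset
open Vale.Agent.P125.TREE (Pr val_nonneg val_ge norm_root_le pre lpSN le_lpSN lpSN_le_one
  lpSN_markov)

noncomputable section

section trees

variable {X : Type*} [NormedAddCommGroup X] [NormedSpace ℝ X]

/-- The array attached to a tree in the dual. -/
structure ArrD (X : Type*) [NormedAddCommGroup X] [NormedSpace ℝ X] (ε : ℝ) (r : X →L[ℝ] ℝ)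
    (Pr : ℕ → ℝ) (Ω : Type) [Fintype Ω] where
  μ : Ω → ℝ
  μ_nonneg : ∀ w, 0 ≤ μ w
  μ_sum : ∑ w, μ w = 1
  x : ℕ → Ω → (X →L[ℝ] ℝ)
  x_le : ∀ j w, ‖x j w‖ ≤ 1
  x_mean : ∀ j v, ∑ w, μ w * x j w v = r v
  d : ℕ → Ω → X
  d_le : ∀ i w, ‖d i w‖ ≤ 1
  d_mean : ∀ i (g : X →L[ℝ] ℝ), ∑ w, μ w * g (d i w) = 0
  m : ℕ → ℝ
  lt : ∀ i j, j < i → ∑ w, μ w * x j w (d i w) = 0
  ge : ∀ i j, i ≤ j → ∑ w, μ w * x j w (d i w) = m i
  m_ge : ∀ i, (ε / 3) * Pr i ≤ m i

/-- leaf -/
def ArrD.leaf {ε : ℝ} (x : X →L[ℝ] ℝ) (hx : ‖x‖ ≤ 1) : ArrD X ε x (fun _ => 0) Unit where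
  μ := fun _ => 1
  μ_nonneg := fun _ => zero_le_one
  μ_sum := by simp
  x := fun _ _ => x
  x_le := fun _ _ => hx
  x_mean := fun _ => by simp
  d := fun _ _ => 0
  d_le := fun _ _ => by simp
  d_mean := fun i g => by simp
  m := fun _ => 0
  lt := fun i j _ => by simp
  ge := fun i j _ => by simp
  m_ge := fun i => by simp

theorem sum_elim_eq {Ω₁ Ω₂ : Type} [Fintype Ω₁] [Fintype Ω₂] (l l' : ℝ) (μ₁ : Ω₁ → ℝ)
    (μ₂ : Ω₂ → ℝ) (F : Ω₁ ⊕ Ω₂ → ℝ) :
    ∑ w, (Sum.elim (fun w => l * μ₁ w) (fun w => l' * μ₂ w)) w * F w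
      = l * ∑ w, μ₁ w * F (Sum.inl w) + l' * ∑ w, μ₂ w * F (Sum.inr w) := by
  simp only [Fintype.sum_sum_type, Sum.elim_inl, Sum.elim_inr, mul_assoc, ← Finset.mul_sum]

/-- mixing -/
def ArrD.mix {ε : ℝ} {r₁ r₂ : X →L[ℝ] ℝ} {P₁ P₂ : ℕ → ℝ} {Ω₁ Ω₂ : Type} [Fintype Ω₁] [Fintype Ω₂]
    (A : ArrD X ε r₁ P₁ Ω₁) (B : ArrD X ε r₂ P₂ Ω₂) (l : ℝ) (h0 : 0 ≤ l) (h1 : l ≤ 1) :
    ArrD X ε (l • r₁ + (1 - l) • r₂) (fun i => l * P₁ i + (1 - l) * P₂ i) (Ω₁ ⊕ Ω₂) where
  μ := Sum.elim (fun w => l * A.μ w) (fun w => (1 - l) * B.μ w)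
  μ_nonneg := by
    rintro (w | w)
    · exact mul_nonneg h0 (A.μ_nonneg w)
    · exact mul_nonneg (by linarith) (B.μ_nonneg w)
  μ_sum := by
    simp only [Fintype.sum_sum_type, Sum.elim_inl, Sum.elim_inr, ← Finset.mul_sum, A.μ_sum, B.μ_sum]
    ring
  x := fun j => Sum.elim (A.x j) (B.x j)
  x_le := by
    rintro j (w | w)
    · exact A.x_le j w
    · exact B.x_le j w
  x_mean := by
    intro j v
    rw [sum_elim_eq]
    simp only [Sum.elim_inl, Sum.elim_inr, A.x_mean, B.x_mean, ContinuousLinearMap.add_apply,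
      ContinuousLinearMap.smul_apply, smul_eq_mul]
  d := fun j => Sum.elim (A.d j) (B.d j)
  d_le := by
    rintro j (w | w)
    · exact A.d_le j w
    · exact B.d_le j w
  d_mean := by
    intro j g
    rw [sum_elim_eq]
    simp only [Sum.elim_inl, Sum.elim_inr, A.d_mean, B.d_mean]
    ring
  m := fun i => l * A.m i + (1 - l) * B.m i
  lt := by
    intro i j hij
    rw [sum_elim_eq]
    simp only [Sum.elim_inl, Sum.elim_inr, A.lt i j hij, B.lt i j hij]
    ring
  ge := by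
    intro i j hij
    rw [sum_elim_eq]
    simp only [Sum.elim_inl, Sum.elim_inr, A.ge i j hij, B.ge i j hij]
  m_ge := by
    intro i
    have e1 := mul_le_mul_of_nonneg_left (A.m_ge i) h0
    have e2 := mul_le_mul_of_nonneg_left (B.m_ge i) (by linarith : 0 ≤ 1 - l)
    linarith

/-- an almost norming vector -/
theorem exists_norming {ε : ℝ} (hε : 0 < ε) (f : X →L[ℝ] ℝ) (h : ε ≤ ‖f‖) :
    ∃ v : X, ‖v‖ ≤ 1 ∧ (2 / 3) * ε ≤ f v := by
  by_contra hcon
  push Not at hcon
  have h1 : ‖f‖ ≤ (2 / 3) * ε := by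
    refine f.opNorm_le_bound (by positivity) fun x => ?_
    by_cases hx : ‖x‖ = 0
    · have : x = 0 := norm_eq_zero.mp hx
      simp [this]
    · have hxpos : 0 < ‖x‖ := lt_of_le_of_ne (norm_nonneg _) (Ne.symm hx)
      have h2 := hcon (‖x‖⁻¹ • x) (by
        rw [norm_smul, norm_inv, norm_norm, inv_mul_cancel₀ hx])
      have h3 := hcon (-(‖x‖⁻¹ • x)) (by
        rw [norm_neg, norm_smul, norm_inv, norm_norm, inv_mul_cancel₀ hx])
      rw [map_smul, smul_eq_mul] at h2
      rw [map_neg, map_smul, smul_eq_mul] at h3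
      have h4 : |‖x‖⁻¹ * f x| ≤ (2 / 3) * ε := abs_le.mpr ⟨by linarith, h2.le⟩
      rw [abs_mul, abs_of_pos (inv_pos.mpr hxpos), inv_mul_le_iff₀ hxpos] at h4
      rw [Real.norm_eq_abs]
      linarith
  linarith

/-- big node -/
theorem ArrD.big {ε : ℝ} (hε : 0 < ε) {r₁ r₂ : X →L[ℝ] ℝ} {P₁ P₂ : ℕ → ℝ} {Ω₁ Ω₂ : Type}
    [Fintype Ω₁] [Fintype Ω₂]
    (A : ArrD X ε r₁ P₁ Ω₁) (B : ArrD X ε r₂ P₂ Ω₂) (h : ε ≤ ‖r₁ - r₂‖) (hr₁ : ‖r₁‖ ≤ 1)
    (hr₂ : ‖r₂‖ ≤ 1) :
    Nonempty (ArrD X ε ((1 / 2 : ℝ) • (r₁ + r₂))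
      (pre 1 (fun i => (1 / 2) * (P₁ i + P₂ i))) (Ω₁ ⊕ Ω₂)) := by
  obtain ⟨v, hv1, hv2⟩ := exists_norming hε (r₁ - r₂) h
  have hv2' : (2 / 3) * ε ≤ r₁ v - r₂ v := hv2
  have hc1 : ∀ c : ℝ, ∑ w, A.μ w * c = c := fun c => by
    rw [← Finset.sum_mul, A.μ_sum, one_mul]
  have hc2 : ∀ c : ℝ, ∑ w, B.μ w * c = c := fun c => by
    rw [← Finset.sum_mul, B.μ_sum, one_mul]
  refine ⟨{
    μ := Sum.elim (fun w => (1 / 2) * A.μ w) (fun w => (1 / 2) * B.μ w)
    μ_nonneg := ?_
    μ_sum := ?_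
    x := pre (Sum.elim (fun _ => r₁) (fun _ => r₂)) (fun j => Sum.elim (A.x j) (B.x j))
    x_le := ?_
    x_mean := ?_
    d := pre (Sum.elim (fun _ => v) (fun _ => -v)) (fun j => Sum.elim (A.d j) (B.d j))
    d_le := ?_
    d_mean := ?_
    m := pre ((1 / 2) * (r₁ v - r₂ v)) (fun i => (1 / 2) * (A.m i + B.m i))
    lt := ?_
    ge := ?_
    m_ge := ?_ }⟩
  · rintro (w | w)
    · exact mul_nonneg (by norm_num) (A.μ_nonneg w)
    · exact mul_nonneg (by norm_num) (B.μ_nonneg w)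
  · simp only [Fintype.sum_sum_type, Sum.elim_inl, Sum.elim_inr, ← Finset.mul_sum, A.μ_sum, B.μ_sum]
    norm_num
  · intro j w
    cases j with
    | zero => rcases w with w | w <;> simp [pre, hr₁, hr₂]
    | succ j =>
      rcases w with w | w
      · exact A.x_le j w
      · exact B.x_le j w
  · intro j u
    rw [sum_elim_eq]
    cases j with
    | zero =>
      simp only [pre, Sum.elim_inl, Sum.elim_inr, hc1, hc2, ContinuousLinearMap.add_apply,
        ContinuousLinearMap.smul_apply, smul_eq_mul]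
      ring
    | succ j =>
      simp only [pre, Sum.elim_inl, Sum.elim_inr, A.x_mean, B.x_mean,
        ContinuousLinearMap.add_apply, ContinuousLinearMap.smul_apply, smul_eq_mul]
      ring
  · intro j w
    cases j with
    | zero => rcases w with w | w <;> simp [pre, hv1]
    | succ j =>
      rcases w with w | w
      · exact A.d_le j w
      · exact B.d_le j w
  · intro i g
    rw [sum_elim_eq]
    cases i with
    | zero =>
      simp only [pre, Sum.elim_inl, Sum.elim_inr, hc1, hc2, map_neg]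
      ring
    | succ i =>
      simp only [pre, Sum.elim_inl, Sum.elim_inr, A.d_mean, B.d_mean]
      ring
  · intro i j hij
    rw [sum_elim_eq]
    cases i with
    | zero => exact absurd hij (Nat.not_lt_zero _)
    | succ i =>
      cases j with
      | zero =>
        simp only [pre, Sum.elim_inl, Sum.elim_inr, A.d_mean, B.d_mean]
        ring
      | succ j =>
        simp only [pre, Sum.elim_inl, Sum.elim_inr, A.lt i j (by omega), B.lt i j (by omega)]
        ring
  · intro i j hij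
    rw [sum_elim_eq]
    cases i with
    | zero =>
      cases j with
      | zero =>
        simp only [pre, Sum.elim_inl, Sum.elim_inr, hc1, hc2, map_neg]
        ring
      | succ j =>
        simp only [pre, Sum.elim_inl, Sum.elim_inr, map_neg, mul_neg, Finset.sum_neg_distrib,
          A.x_mean, B.x_mean]
        ring
    | succ i =>
      cases j with
      | zero => exact absurd hij (by omega)
      | succ j =>
        simp only [pre, Sum.elim_inl, Sum.elim_inr, A.ge i j (by omega), B.ge i j (by omega)]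
        ring
  · intro i
    cases i with
    | zero =>
      change (ε / 3) * 1 ≤ (1 / 2) * (r₁ v - r₂ v)
      linarith
    | succ i =>
      change (ε / 3) * ((1 / 2) * (P₁ i + P₂ i)) ≤ (1 / 2) * (A.m i + B.m i)
      have e1 := A.m_ge i
      have e2 := B.m_ge i
      linarith

theorem exists_arr {ε : ℝ} (hε : 0 < ε) (t : Tr (X →L[ℝ] ℝ)) (h : t.Valid ε) :
    ∃ (Ω : Type) (_ : Fintype Ω), Nonempty (ArrD X ε t.root (Pr t) Ω) := by
  induction t with
  | leaf x =>
    refine ⟨Unit, inferInstance, ⟨?_⟩⟩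
    exact (ArrD.leaf x h : ArrD X ε x (fun _ => 0) Unit)
  | mix l t s iht ihs =>
    obtain ⟨h1, h2, h3, h4⟩ := h
    obtain ⟨Ω₁, _, ⟨A⟩⟩ := iht h3
    obtain ⟨Ω₂, _, ⟨B⟩⟩ := ihs h4
    exact ⟨Ω₁ ⊕ Ω₂, inferInstance, ⟨ArrD.mix A B l h1 h2⟩⟩
  | big t s iht ihs =>
    obtain ⟨h1, h3, h4⟩ := h
    obtain ⟨Ω₁, _, ⟨A⟩⟩ := iht h3
    obtain ⟨Ω₂, _, ⟨B⟩⟩ := ihs h4
    refine ⟨Ω₁ ⊕ Ω₂, inferInstance, ?_⟩
    obtain ⟨C⟩ := ArrD.big hε A B h1 (norm_root_le t h3) (norm_root_le s h4)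
    have e : Pr (Tr.big t s) = pre 1 (fun i => (1 / 2) * (Pr t i + Pr s i)) := by
      ext i
      cases i <;> rfl
    rw [e]
    exact ⟨C⟩

end trees

/-! ## The main statement -/

theorem treed.{u} : S_TREED.{u} := by
  intro X _ _ p K ε hp hK hε hX htr n
  obtain ⟨t, ht, hval⟩ := htr ((1 / 2 : ℝ) ^ (n + 1)) (by positivity)
  obtain ⟨Ω, _, ⟨A⟩⟩ := exists_arr hε t ht
  have hPr : ∀ i, i < n → 1 / 2 ≤ Pr t i := by
    intro i hi
    have h1 := val_ge t ht i
    have h2 : (1 / 2 : ℝ) ^ (n + 1) ≤ (1 / 2 : ℝ) ^ (i + 1) :=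
      pow_le_pow_of_le_one (by norm_num) (by norm_num) (by omega)
    have h3 : (1 / 2 : ℝ) ^ i * (1 - Pr t i) < (1 / 2 : ℝ) ^ i * (1 / 2) := by
      rw [← pow_succ]
      linarith
    have h4 := lt_of_mul_lt_mul_left h3 (by positivity)
    linarith
  have hm : ∀ i, i < n → ε / 6 ≤ A.m i := by
    intro i hi
    have := A.m_ge i
    have h5 := hPr i hi
    nlinarith
  -- the vectors
  let y : ℕ → Ω → X := fun i w => (ε / (6 * A.m i)) • A.d i w
  have hy1 : ∀ i, i < n → ∀ w, ‖y i w‖ ≤ 1 := by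
    intro i hi w
    have h1 := hm i hi
    have h2 : 0 < A.m i := lt_of_lt_of_le (by positivity) h1
    simp only [y, norm_smul, Real.norm_eq_abs]
    rw [abs_of_nonneg (by positivity)]
    have h3 : ε / (6 * A.m i) ≤ 1 := by
      rw [div_le_one (by positivity)]
      linarith
    calc ε / (6 * A.m i) * ‖A.d i w‖ ≤ 1 * 1 :=
          mul_le_mul h3 (A.d_le i w) (norm_nonneg _) zero_le_one
      _ = 1 := one_mul 1
  have hy2 : ∀ i, i < n → ∀ j, ∑ w, A.μ w * A.x j w (y i w) = if i ≤ j then ε / 6 else 0 := by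
    intro i hi j
    have h1 := hm i hi
    have h2 : 0 < A.m i := lt_of_lt_of_le (by positivity) h1
    have h3 : ∑ w, A.μ w * A.x j w (y i w)
        = (ε / (6 * A.m i)) * ∑ w, A.μ w * A.x j w (A.d i w) := by
      rw [Finset.mul_sum]
      refine Finset.sum_congr rfl fun w _ => ?_
      simp only [y, map_smul, smul_eq_mul]
      ring
    rw [h3]
    split_ifs with hij
    · rw [A.ge i j hij]
      field_simp
    · rw [A.lt i j (by omega), mul_zero]
  -- the linear maps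
  let T : Ω → (ℕ →₀ ℝ) →ₗ[ℝ] X := fun w =>
    Finsupp.linearCombination ℝ (fun j => if j < n then y (n - 1 - j) w else 0)
  let q : Ω → Seminorm ℝ (ℕ →₀ ℝ) := fun w => (normSeminorm ℝ X).comp (T w)
  have hq : ∀ w a, q w a = ‖T w a‖ := fun w a => rfl
  refine ⟨lpSN A.μ A.μ_nonneg q p hp, ?_, ?_, ?_⟩
  · intro j
    refine lpSN_le_one A.μ_sum _ fun w => ?_
    rw [hq]
    simp only [T, Finsupp.linearCombination_single, one_smul]
    split_ifs
    · exact hy1 _ (by omega) w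
    · simp
  · intro a i ha
    by_cases hi : i < n
    · have h1 := le_lpSN (hμ := A.μ_nonneg) (q := q) (hp := hp) A.μ_sum a
      refine le_trans ?_ h1
      have h2 : |∑ w, A.μ w * A.x (n - 1 - i) w (T w a)| ≤ ∑ w, A.μ w * q w a := by
        refine (Finset.abs_sum_le_sum_abs _ _).trans (Finset.sum_le_sum fun w _ => ?_)
        rw [abs_mul, abs_of_nonneg (A.μ_nonneg w), hq]
        refine mul_le_mul_of_nonneg_left ?_ (A.μ_nonneg w)
        rw [← Real.norm_eq_abs]
        refine ((A.x (n - 1 - i) w).le_opNorm _).trans ?_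
        exact mul_le_of_le_one_left (norm_nonneg _) (A.x_le _ w)
      refine le_trans (le_of_eq ?_) h2
      have h3 : ∑ w, A.μ w * A.x (n - 1 - i) w (T w a)
          = (ε / 6) * ∑ j ∈ a.support.filter (fun j => i ≤ j), a j := by
        have h4 : ∀ w, A.μ w * A.x (n - 1 - i) w (T w a)
            = ∑ j ∈ a.support, a j * (A.μ w * A.x (n - 1 - i) w (y (n - 1 - j) w)) := by
          intro w
          simp only [T, Finsupp.linearCombination_apply, Finsupp.sum, map_sum, map_smul,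
            smul_eq_mul, Finset.mul_sum]
          refine Finset.sum_congr rfl fun j hj => ?_
          have : j < n := by
            by_contra hcon
            exact (Finsupp.mem_support_iff.mp hj) (ha j (by omega))
          rw [if_pos this]
          ring
        simp only [h4]
        rw [Finset.sum_comm, Finset.mul_sum, Finset.sum_filter]
        refine Finset.sum_congr rfl fun j hj => ?_
        have hjn : j < n := by
          by_contra hcon
          exact (Finsupp.mem_support_iff.mp hj) (ha j (by omega))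
        rw [← Finset.mul_sum, hy2 _ (by omega)]
        by_cases hij : i ≤ j
        · rw [if_pos (by omega), if_pos hij, mul_comm]
        · rw [if_neg (by omega), if_neg hij, mul_zero]
      rw [h3, abs_mul, abs_of_pos (by positivity : (0 : ℝ) < ε / 6)]
    · have h1 : a.support.filter (fun j => i ≤ j) = ∅ := by
        rw [Finset.filter_eq_empty_iff]
        intro j hj hij
        exact (Finsupp.mem_support_iff.mp hj) (ha j (by omega))
      rw [h1, Finset.sum_empty, abs_zero, mul_zero]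
      exact apply_nonneg _ _
  · refine lpSN_markov fun w => ?_
    intro S _ _ π P h1 h2 h3 h4 h5 f s hs
    have h := hX S π P h1 h2 h3 h4 h5 (fun i => T w (f i)) s hs
    have e : ∀ i j, q w (f j - f i) = normSeminorm ℝ X (T w (f j) - T w (f i)) := by
      intro i j
      rw [hq, map_sub]
      rfl
    simp only [e]
    exact h

end

end Vale.Agent.P125.TREED
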