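import Vale.Agent.P125.Assemble
import Vale.Agent.P125.TREED
import Vale.Agent.P125.SMOOTH

namespace Vale.Agent.P125

theorem smooth_final.{u} (X : Type u) [NormedAddCommGroup X] [NormedSpace ℝ X]
    (h : ∃ p : ℝ, 1 < p ∧ HasMarkovType X p) :
    ∃ N : Seminorm ℝ X, IsEquivalentNorm N ∧ IsUniformlySmooth N := by
  obtain ⟨p, hp, K, hK, hX⟩ := h
  obtain ⟨N, ⟨a, ha, b, hb, hab⟩, hUS⟩ := smooth_of_modules TREED.treed SPREAD.spread core_final
    renorm smooth X p K hp hK (markovTypeSN_of_fin hX)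
  exact ⟨N, ⟨a, b, ha, hb, hab⟩, isUniformlySmooth_of hUS⟩

end Vale.Agent.P125
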