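import Mathlib

/-!
# P125: definitions of the statement
-/

namespace Vale.Agent.P125

open Finset Filter Topology

noncomputable section

/-- `X` has Markov type `p`: there is `K < ∞` such that for every finite Markov chain with
transition matrix `P` and initial distribution `π` that is stationary and reversible
(`π i * P i j = π j * P j i`), every `f` with values in `X` and every integer `t ≥ 1`,
`E ‖f(Z_t) - f(Z_0)‖^p ≤ K^p t E ‖f(Z_1) - f(Z_0)‖^p`. -/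
def HasMarkovType (X : Type*) [NormedAddCommGroup X] [NormedSpace ℝ X] (p : ℝ) : Prop :=
  ∃ K : ℝ, 0 ≤ K ∧ ∀ (n : ℕ) (π : Fin n → ℝ) (P : Matrix (Fin n) (Fin n) ℝ),
    (∀ i, 0 ≤ π i) → ∑ i, π i = 1 → (∀ i j, 0 ≤ P i j) → (∀ i, ∑ j, P i j = 1) →
    (∀ i j, π i * P i j = π j * P j i) →
    ∀ (f : Fin n → X) (t : ℕ), 1 ≤ t →
      ∑ i, ∑ j, π i * (P ^ t) i j * ‖f j - f i‖ ^ p
        ≤ K ^ p * t * ∑ i, ∑ j, π i * P i j * ‖f j - f i‖ ^ p

/-- `N` is an equivalent norm on `X`: a seminorm with `a ‖x‖ ≤ N x ≤ b ‖x‖` for some `a, b > 0`. -/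
def IsEquivalentNorm {X : Type*} [NormedAddCommGroup X] [NormedSpace ℝ X] (N : Seminorm ℝ X) : Prop :=
  ∃ a b : ℝ, 0 < a ∧ 0 < b ∧ ∀ x, a * ‖x‖ ≤ N x ∧ N x ≤ b * ‖x‖

/-- `N` is uniformly convex. -/
def IsUniformlyConvex {X : Type*} [NormedAddCommGroup X] [NormedSpace ℝ X] (N : Seminorm ℝ X) : Prop :=
  ∀ ε : ℝ, 0 < ε → ε ≤ 2 → ∃ δ > 0, ∀ x y, N x ≤ 1 → N y ≤ 1 → ε ≤ N (x - y) →
    N ((1 / 2 : ℝ) • (x + y)) ≤ 1 - δ

/-- The modulus of smoothness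
`ρ(τ) = sup {(N (x + τ y) + N (x - τ y)) / 2 - 1 : N x = N y = 1}`. -/
def modulusOfSmoothness {X : Type*} [NormedAddCommGroup X] [NormedSpace ℝ X] (N : Seminorm ℝ X)
    (τ : ℝ) : ℝ :=
  sSup {r | ∃ x y, N x = 1 ∧ N y = 1 ∧ r = (N (x + τ • y) + N (x - τ • y)) / 2 - 1}

/-- `N` is uniformly smooth: `ρ(τ) / τ → 0` as `τ → 0+`. -/
def IsUniformlySmooth {X : Type*} [NormedAddCommGroup X] [NormedSpace ℝ X] (N : Seminorm ℝ X) : Prop :=
  Tendsto (fun τ => modulusOfSmoothness N τ / τ) (𝓝[>] 0) (𝓝 0)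

/-- `X` is superreflexive: it admits an equivalent uniformly convex norm. -/
def IsSuperreflexive (X : Type*) [NormedAddCommGroup X] [NormedSpace ℝ X] : Prop :=
  ∃ N : Seminorm ℝ X, IsEquivalentNorm N ∧ IsUniformlyConvex N

end

end Vale.Agent.P125
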