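import Vale.Agent.P125.Plan2

namespace Vale.Agent.P125

theorem main_of_modules.{u} (hTREE : S_TREE.{u}) (hSPREAD : S_SPREAD) (hCORE : S_CORE)
    (hRENORM : S_RENORM.{u}) (X : Type u) [NormedAddCommGroup X] [NormedSpace ℝ X]
    (p K : ℝ) (hp : 1 < p) (hK : 0 ≤ K) (h : MarkovTypeSN (normSeminorm ℝ X) p K) :
    ∃ N : Seminorm ℝ X, (∃ a > 0, ∃ b > 0, ∀ x, a * ‖x‖ ≤ N x ∧ N x ≤ b * ‖x‖) ∧
      UniformlyConvexSN N := by
  apply hRENORM X
  intro ε hε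
  by_contra hcon
  push Not at hcon
  have hs := hSPREAD p K (ε / 4) hp.le hK (by positivity)
    (hTREE X p K ε hp.le hK hε h hcon)
  exact hCORE p K (ε / 4) hp hK (by positivity) hs

theorem smooth_of_modules.{u} (hTREED : S_TREED.{u}) (hSPREAD : S_SPREAD) (hCORE : S_CORE)
    (hRENORM : S_RENORM.{u}) (hSMOOTH : S_SMOOTH.{u}) (X : Type u)
    [NormedAddCommGroup X] [NormedSpace ℝ X]
    (p K : ℝ) (hp : 1 < p) (hK : 0 ≤ K) (h : MarkovTypeSN (normSeminorm ℝ X) p K) :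
    ∃ N : Seminorm ℝ X, (∃ a > 0, ∃ b > 0, ∀ x, a * ‖x‖ ≤ N x ∧ N x ≤ b * ‖x‖) ∧
      UniformlySmoothSN N := by
  obtain ⟨N, hN, hUC⟩ := hRENORM (X →L[ℝ] ℝ) (by
    intro ε hε
    by_contra hcon
    push Not at hcon
    have hs := hSPREAD p K (ε / 6) hp.le hK (by positivity)
      (hTREED X p K ε hp.le hK hε h hcon)
    exact hCORE p K (ε / 6) hp hK (by positivity) hs)
  exact hSMOOTH X N hN hUC

end Vale.Agent.P125
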